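import Vale.Agent.P032.R2.H784.Sys

/-!
# P032: certificates on palette systems, named times, closed paths

`palS X t p`: the letters of the position `p` at the time `t`.  A certificate is a statement about
palette systems `W : P → Set Λ` (no time, no topology): `Cert C cls Adm`: two legal selections
of an admissible `W` have the same class.  `Sys.eq_of_cert`: the class is constant on an interval all of
whose times are admissible.  `Sys.chain`: a path through finitely many named times: the class jumps only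
there, and a jump is a pair of legal selections of the palettes of the named time, the first one a
limit from the left, the second one a limit from the right.  Closing of the path: `R2.H137.Close`.
-/

namespace Vale.Agent.P032.Words

open Set Filter Topology

variable {P Λ γ : Type}

/-- the palettes at a time -/
def palS (X : P → Λ → Set ℝ) (t : ℝ) : P → Set Λ := fun p => {l | t ∈ X p l}

/-- a selection from a palette system -/
def SelW (W : P → Set Λ) (h : P → Λ) : Prop := ∀ p, h p ∈ W p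

theorem selW_pal {X : P → Λ → Set ℝ} {t : ℝ} {h : P → Λ} : SelW (palS X t) h ↔ Sel X t h := Iff.rfl

theorem SelW.mono {W W' : P → Set Λ} (hW : ∀ p, W p ⊆ W' p) {h : P → Λ} (hh : SelW W h) :
    SelW W' h := fun p => hW p (hh p)

/-- **The certificate**: the class is a function of the palette system. -/
def Cert (C : P → Λ → P → Λ → Prop) (cls : (P → Λ) → γ) (Adm : (P → Set Λ) → Prop) : Prop :=
  ∀ W, Adm W → ∀ h h', SelW W h → Legal C h → SelW W h' → Legal C h' → cls h = cls h'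

/-- the palette system of two selections -/
def pairW (h h' : P → Λ) : P → Set Λ := fun p => {h p, h' p}

theorem selW_pair_left (h h' : P → Λ) : SelW (pairW h h') h := fun _ => Or.inl rfl

theorem selW_pair_right (h h' : P → Λ) : SelW (pairW h h') h' := fun _ => Or.inr rfl

theorem pair_sub {W : P → Set Λ} {h h' : P → Λ} (h1 : SelW W h) (h2 : SelW W h') (p : P) :
    pairW h h' p ⊆ W p := by
  rintro l (rfl | rfl)
  exacts [h1 p, h2 p]

/-- admissibility inherited by smaller palettes -/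
def Anti (Adm : (P → Set Λ) → Prop) : Prop := ∀ W W', (∀ p, W p ⊆ W' p) → Adm W' → Adm W

/-- For antitone rules it is enough to look at pairs. -/
theorem cert_of_pair {C : P → Λ → P → Λ → Prop} {cls : (P → Λ) → γ} {Adm : (P → Set Λ) → Prop}
    (hA : Anti Adm)
    (hp : ∀ h h', Legal C h → Legal C h' → Adm (pairW h h') → cls h = cls h') : Cert C cls Adm :=
  fun W hW h h' h1 l1 h2 l2 => hp h h' l1 l2 (hA _ W (pair_sub h1 h2) hW)

/-- Rules with witnesses: `Adm W` for the big system, antitone part on pairs and the rest on `W`. -/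
theorem cert_mono {C : P → Λ → P → Λ → Prop} {cls : (P → Λ) → γ} {Adm Adm' : (P → Set Λ) → Prop}
    (h : ∀ W, Adm W → Adm' W) (hc : Cert C cls Adm') : Cert C cls Adm :=
  fun W hW => hc W (h W hW)

variable {X : P → Λ → Set ℝ} {C : P → Λ → P → Λ → Prop} {G : Set ℝ}

/-- the class is a function of the time `t` -/
def ClsAt (X : P → Λ → Set ℝ) (C : P → Λ → P → Λ → Prop) (cls : (P → Λ) → γ) (t : ℝ) (x : γ) :
    Prop := ∀ h, Sel X t h → Legal C h → cls h = x

theorem clsAt_of_cert {cls : (P → Λ) → γ} {Adm : (P → Set Λ) → Prop} (hC : Cert C cls Adm) {t : ℝ}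
    (ht : Adm (palS X t)) {h : P → Λ} (hh : Sel X t h) (hl : Legal C h) :
    ClsAt X C cls t (cls h) := fun k hk hlk => hC _ ht k h hk hlk hh hl

section
variable [Finite P] [Finite Λ]

/-- Class along an interval of admissible times. -/
theorem Sys.eq_of_cert (S : Sys X C G) {cls : (P → Λ) → γ} {Adm : (P → Set Λ) → Prop}
    (hC : Cert C cls Adm) {I : Set ℝ} (hI : IsPreconnected I) (hA : ∀ t ∈ I, Adm (palS X t))
    {s s' : ℝ} (hs : s ∈ I) (hs' : s' ∈ I) {h h' : P → Λ} (h1 : Sel X s h) (h2 : Legal C h)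
    (h1' : Sel X s' h') (h2' : Legal C h') : cls h = cls h' :=
  S.class_eq cls hI (fun t ht h h' a b c d => hC _ (hA t ht) h h' a b c d) hs hs' h1 h2 h1' h2'

/-- the form with `ClsAt` -/
theorem Sys.clsAt_of_cert (S : Sys X C G) {cls : (P → Λ) → γ} {Adm : (P → Set Λ) → Prop}
    (hC : Cert C cls Adm) {I : Set ℝ} (hI : IsPreconnected I) (hA : ∀ t ∈ I, Adm (palS X t))
    {s : ℝ} (hs : s ∈ I) {h : P → Λ} (h1 : Sel X s h) (h2 : Legal C h) :
    ∀ t ∈ I, ClsAt X C cls t (cls h) :=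
  fun _ ht _ hk hlk => S.eq_of_cert hC hI hA ht hs hk hlk h1 h2

/-- A legal selection which is a limit along a filter of generic times. -/
theorem Sys.exists_lim (S : Sys X C G) {t : ℝ} {F : Filter ℝ} (hF : F ≤ 𝓝 t)
    (hg : ∃ᶠ s in F, s ∈ G ∩ GenS X) :
    ∃ k, Legal C k ∧ Sel X t k ∧ ∃ᶠ s in F, s ∈ G ∩ GenS X ∧ Sel X s k := by
  have h1 : ∃ᶠ s in F, ∃ k, Legal C k ∧ Sel X t k ∧ s ∈ G ∩ GenS X ∧ Sel X s k := by
    refine (hg.and_eventually ((S.near t).filter_mono hF)).mono ?_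
    rintro s ⟨hs, hn⟩
    obtain ⟨k, hk⟩ := S.exists_sel s
    exact ⟨k, S.legal_of_gen hs.1 hs.2 hk, hn k hk, hs, hk⟩
  by_contra hcon
  push Not at hcon
  have h2 : ∀ᶠ s in F, ∀ k, Legal C k → Sel X t k → ¬ (s ∈ G ∩ GenS X ∧ Sel X s k) := by
    rw [eventually_all]
    intro k
    by_cases hk : Legal C k ∧ Sel X t k
    · have := hcon k hk.1 hk.2
      filter_upwards [this] with s hs _ _ h
      exact hs h.1 h.2
    · exact Eventually.of_forall fun s a b => absurd ⟨a, b⟩ hk
  obtain ⟨s, ⟨k, a, b, c⟩, hs⟩ := (h1.and_eventually h2).exists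
  exact hs k a b c

theorem freq_left {D : Set ℝ} (hD : Dense D) (t : ℝ) : ∃ᶠ s in 𝓝[<] t, s ∈ D := by
  rw [frequently_iff]
  intro V hV
  obtain ⟨a, ha, hab⟩ := (mem_nhdsLT_iff_exists_Ioo_subset).1 hV
  obtain ⟨s, hs, hsD⟩ := hD.exists_mem_open isOpen_Ioo (nonempty_Ioo.2 ha)
  exact ⟨s, hab hsD, hs⟩

theorem freq_right {D : Set ℝ} (hD : Dense D) (t : ℝ) : ∃ᶠ s in 𝓝[>] t, s ∈ D := by
  rw [frequently_iff]
  intro V hV
  obtain ⟨a, ha, hab⟩ := (mem_nhdsGT_iff_exists_Ioo_subset).1 hV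
  obtain ⟨s, hs, hsD⟩ := hD.exists_mem_open isOpen_Ioo (nonempty_Ioo.2 ha)
  exact ⟨s, hab hsD, hs⟩

/-- limits from the left -/
def LimL (X : P → Λ → Set ℝ) (G : Set ℝ) (t : ℝ) (k : P → Λ) : Prop :=
  ∃ᶠ s in 𝓝[<] t, s ∈ G ∩ GenS X ∧ Sel X s k

/-- limits from the right -/
def LimR (X : P → Λ → Set ℝ) (G : Set ℝ) (t : ℝ) (k : P → Λ) : Prop :=
  ∃ᶠ s in 𝓝[>] t, s ∈ G ∩ GenS X ∧ Sel X s k

theorem Sys.exists_limL (S : Sys X C G) (t : ℝ) : ∃ k, Legal C k ∧ Sel X t k ∧ LimL X G t k :=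
  S.exists_lim nhdsWithin_le_nhds (freq_left S.good_open_dense.2 t)

theorem Sys.exists_limR (S : Sys X C G) (t : ℝ) : ∃ k, Legal C k ∧ Sel X t k ∧ LimR X G t k :=
  S.exists_lim nhdsWithin_le_nhds (freq_right S.good_open_dense.2 t)

omit [Finite P] [Finite Λ] in
theorem Sys.sel_of_freq (S : Sys X C G) {t : ℝ} {F : Filter ℝ} (hF : F ≤ 𝓝 t) {k : P → Λ}
    (h : ∃ᶠ s in F, Sel X s k) : Sel X t k := by
  have h1 : ∃ᶠ s in 𝓝 t, s ∈ {s | Sel X s k} := h.filter_mono hF
  have h2 : t ∈ closure {s | Sel X s k} := mem_closure_iff_frequently.2 h1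
  rwa [(S.sel_closed k).closure_eq] at h2

omit [Finite P] [Finite Λ] in
theorem Sys.limL_sel (S : Sys X C G) {t : ℝ} {k : P → Λ} (h : LimL X G t k) :
    Sel X t k ∧ Legal C k := by
  refine ⟨S.sel_of_freq nhdsWithin_le_nhds (h.mono fun _ => And.right), ?_⟩
  obtain ⟨s, hs, hk⟩ := h.exists
  exact S.legal_of_gen hs.1 hs.2 hk

omit [Finite P] [Finite Λ] in
theorem Sys.limR_sel (S : Sys X C G) {t : ℝ} {k : P → Λ} (h : LimR X G t k) :
    Sel X t k ∧ Legal C k := by
  refine ⟨S.sel_of_freq nhdsWithin_le_nhds (h.mono fun _ => And.right), ?_⟩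
  obtain ⟨s, hs, hk⟩ := h.exists
  exact S.legal_of_gen hs.1 hs.2 hk

/-- the class is `x` just before `t` and `y` just after `t` -/
structure JumpAt (X : P → Λ → Set ℝ) (C : P → Λ → P → Λ → Prop) (cls : (P → Λ) → γ) (t : ℝ)
    (x y : γ) : Prop where
  left : ∀ᶠ s in 𝓝[<] t, ClsAt X C cls s x
  right : ∀ᶠ s in 𝓝[>] t, ClsAt X C cls s y

omit [Finite P] [Finite Λ] in
/-- every limit from the left has the class before the jump -/
theorem JumpAt.cls_left {cls : (P → Λ) → γ} {t : ℝ} {x y : γ} (J : JumpAt X C cls t x y)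
    (S : Sys X C G) {k : P → Λ} (h : LimL X G t k) : cls k = x := by
  obtain ⟨s, ⟨-, hs⟩, hx⟩ := (h.and_eventually J.left).exists
  exact hx k hs (S.limL_sel h).2

omit [Finite P] [Finite Λ] in
/-- every limit from the right has the class after the jump -/
theorem JumpAt.cls_right {cls : (P → Λ) → γ} {t : ℝ} {x y : γ} (J : JumpAt X C cls t x y)
    (S : Sys X C G) {k : P → Λ} (h : LimR X G t k) : cls k = y := by
  obtain ⟨s, ⟨-, hs⟩, hx⟩ := (h.and_eventually J.right).exists
  exact hx k hs (S.limR_sel h).2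

/-- **A jump is a pair of legal selections of the palettes of the named time**, limits from the two
sides. -/
theorem JumpAt.exists_pair {cls : (P → Λ) → γ} {t : ℝ} {x y : γ} (J : JumpAt X C cls t x y)
    (S : Sys X C G) : ∃ k k', LimL X G t k ∧ Sel X t k ∧ Legal C k ∧ cls k = x ∧
      LimR X G t k' ∧ Sel X t k' ∧ Legal C k' ∧ cls k' = y := by
  obtain ⟨k, h1, h2, h3⟩ := S.exists_limL t
  obtain ⟨k', h1', h2', h3'⟩ := S.exists_limR t
  exact ⟨k, k', h3, h2, h1, J.cls_left S h3, h3', h2', h1', J.cls_right S h3'⟩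

/-- a chain of jumps at the times of a list -/
def Chain (X : P → Λ → Set ℝ) (C : P → Λ → P → Λ → Prop) (cls : (P → Λ) → γ) :
    List ℝ → γ → γ → Prop
  | [], x, y => x = y
  | u :: L, x, y => ∃ m, JumpAt X C cls u x m ∧ Chain X C cls L m y

/-- the path of a chain through abstract relations -/
def RelChain (R : ℝ → γ → γ → Prop) : List ℝ → γ → γ → Prop
  | [], x, y => x = y
  | u :: L, x, y => ∃ m, R u x m ∧ RelChain R L m y

omit [Finite P] [Finite Λ] in
theorem Chain.rel {cls : (P → Λ) → γ} {R : ℝ → γ → γ → Prop} :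
    ∀ {L : List ℝ} {x y : γ}, (∀ u ∈ L, ∀ x y, JumpAt X C cls u x y → R u x y) →
      Chain X C cls L x y → RelChain R L x y
  | [], _, _, _, h => h
  | _ :: _, _, _, hR, ⟨m, h1, h2⟩ => ⟨m, hR _ (List.mem_cons_self ..) _ _ h1,
      Chain.rel (fun v hv => hR v (List.mem_cons_of_mem _ hv)) h2⟩

/-- **The path through the named times.**  Off the list the class is a function of the time. -/
theorem Sys.chain (S : Sys X C G) (cls : (P → Λ) → γ) :
    ∀ (L : List ℝ) (a b : ℝ), a ≤ b → L.Pairwise (· < ·) → (∀ u ∈ L, a < u ∧ u < b) →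
      (∀ t ∈ Icc a b, t ∉ L → ∃ x, ClsAt X C cls t x) →
      ∀ h h', Sel X a h → Legal C h → Sel X b h' → Legal C h' → Chain X C cls L (cls h) (cls h')
  | [], a, b, hab, _, _, hx, h, h', h1, h2, h1', h2' => by
    refine S.class_eq cls isPreconnected_Icc (fun t ht k k' e1 e2 e3 e4 => ?_)
      (left_mem_Icc.2 hab) (right_mem_Icc.2 hab) h1 h2 h1' h2'
    obtain ⟨x, hx⟩ := hx t ht List.not_mem_nil
    rw [hx k e1 e2, hx k' e3 e4]
  | u :: L, a, b, hab, hp, hL, hx, h, h', h1, h2, h1', h2' => by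
    obtain ⟨hau, hub⟩ := hL u (List.mem_cons_self ..)
    have hmem : ∀ v ∈ L, u < v := (List.pairwise_cons.1 hp).1
    have hpL : L.Pairwise (· < ·) := (List.pairwise_cons.1 hp).2
    -- a time after `u` and before the rest
    obtain ⟨c, huc, hcb, hcL⟩ : ∃ c, u < c ∧ c < b ∧ ∀ v ∈ L, c < v := by
      cases L with
      | nil => exact ⟨(u + b) / 2, by linarith, by linarith, by simp⟩
      | cons w L =>
        have h3 : u < w := hmem w (List.mem_cons_self ..)
        have h4 : w < b := (hL w (by simp)).2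
        refine ⟨(u + w) / 2, by linarith, by linarith, fun v hv => ?_⟩
        rcases List.mem_cons.1 hv with rfl | hv
        · linarith
        · have := (List.pairwise_cons.1 hpL).1 v hv
          linarith
    obtain ⟨k, hk1, hk2⟩ := S.exists_legal c
    refine ⟨cls k, ⟨?_, ?_⟩, ?_⟩
    · -- before `u`
      filter_upwards [Ioo_mem_nhdsLT hau] with s hs g hg1 hg2
      refine S.class_eq cls (isPreconnected_Ico (a := a) (b := u)) (fun t ht k k' e1 e2 e3 e4 => ?_)
        ⟨hs.1.le, hs.2⟩ ⟨le_rfl, hau⟩ hg1 hg2 h1 h2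
      obtain ⟨x, hx⟩ := hx t ⟨ht.1, (ht.2.trans hub).le⟩ (by
        intro hm
        rcases List.mem_cons.1 hm with rfl | hm
        · exact lt_irrefl _ ht.2
        · exact lt_asymm ht.2 (hmem t hm))
      rw [hx k e1 e2, hx k' e3 e4]
    · -- after `u`
      filter_upwards [Ioo_mem_nhdsGT huc] with s hs g hg1 hg2
      refine S.class_eq cls (isPreconnected_Ioc (a := u) (b := c)) (fun t ht k k' e1 e2 e3 e4 => ?_)
        ⟨hs.1, hs.2.le⟩ ⟨huc, le_rfl⟩ hg1 hg2 hk1 hk2
      obtain ⟨x, hx⟩ := hx t ⟨(hau.trans ht.1).le, ht.2.trans hcb.le⟩ (by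
        intro hm
        rcases List.mem_cons.1 hm with rfl | hm
        · exact lt_irrefl _ ht.1
        · exact absurd (hcL t hm) (not_lt.2 ht.2))
      rw [hx k e1 e2, hx k' e3 e4]
    · refine S.chain cls L c b hcb.le hpL (fun v hv => ⟨hcL v hv, (hL v
        (List.mem_cons_of_mem _ hv)).2⟩) (fun t ht htL => hx t ⟨(hau.trans huc).le.trans ht.1, ht.2⟩
        ?_) k h' hk1 hk2 h1' h2'
      intro hm
      rcases List.mem_cons.1 hm with rfl | hm
      · exact absurd ht.1 (not_le.2 huc)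
      · exact htL hm

/-- The same with a certificate. -/
theorem Sys.chain_cert (S : Sys X C G) {cls : (P → Λ) → γ} {Adm : (P → Set Λ) → Prop}
    (hC : Cert C cls Adm) (L : List ℝ) {a b : ℝ} (hab : a ≤ b) (hp : L.Pairwise (· < ·))
    (hL : ∀ u ∈ L, a < u ∧ u < b) (hA : ∀ t ∈ Icc a b, t ∉ L → Adm (palS X t)) {h h' : P → Λ}
    (h1 : Sel X a h) (h2 : Legal C h) (h1' : Sel X b h') (h2' : Legal C h') :
    Chain X C cls L (cls h) (cls h') := by
  refine S.chain cls L a b hab hp hL (fun t ht htL => ?_) h h' h1 h2 h1' h2'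
  obtain ⟨k, hk1, hk2⟩ := S.exists_legal t
  exact ⟨cls k, Words.clsAt_of_cert hC (hA t ht htL) hk1 hk2⟩

/-- **Chain through a finite set of named times.** -/
theorem Sys.chain_finite (S : Sys X C G) {cls : (P → Λ) → γ} {Adm : (P → Set Λ) → Prop}
    (hC : Cert C cls Adm) {N : Set ℝ} {a b : ℝ} (hab : a ≤ b) (hN : (N ∩ Icc a b).Finite)
    (ha : a ∉ N) (hb : b ∉ N) (hA : ∀ t ∈ Icc a b, t ∉ N → Adm (palS X t)) {h h' : P → Λ}
    (h1 : Sel X a h) (h2 : Legal C h) (h1' : Sel X b h') (h2' : Legal C h') :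
    ∃ L : List ℝ, L.Pairwise (· < ·) ∧ (∀ u, u ∈ L ↔ u ∈ N ∧ a < u ∧ u < b) ∧
      Chain X C cls L (cls h) (cls h') := by
  have hmem : ∀ u, u ∈ hN.toFinset.sort (· ≤ ·) ↔ u ∈ N ∧ a < u ∧ u < b := by
    intro u
    rw [Finset.mem_sort, Set.Finite.mem_toFinset]
    constructor
    · rintro ⟨h3, h4⟩
      refine ⟨h3, lt_of_le_of_ne h4.1 ?_, lt_of_le_of_ne h4.2 ?_⟩
      · rintro rfl; exact ha h3
      · rintro rfl; exact hb h3
    · rintro ⟨h3, h4, h5⟩
      exact ⟨h3, h4.le, h5.le⟩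
  refine ⟨hN.toFinset.sort (· ≤ ·), (Finset.sortedLT_sort _).pairwise, hmem, ?_⟩
  refine S.chain_cert hC _ hab (Finset.sortedLT_sort _).pairwise (fun u hu => ((hmem u).1 hu).2) (fun t ht htL => ?_)
    h1 h2 h1' h2'
  by_cases htN : t ∈ N
  · exfalso
    refine htL ((hmem t).2 ⟨htN, lt_of_le_of_ne ht.1 ?_, lt_of_le_of_ne ht.2 ?_⟩)
    · rintro rfl; exact ha htN
    · rintro rfl; exact hb htN
  · exact hA t ht htN

end

end Vale.Agent.P032.Words
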