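import Vale.Agent.P032.R2.H741.Cert
import Vale.Agent.P032.R2.H137.Adm

/-!
# P032: from the finite checks to certificates

`Enc P Λ n m`: positions are numbered `0 .. n-1`, letters `0 .. m-1`.  `E.pal W q`: bit mask of the
letters of the position number `q`; `E.sel h q`: number of the letter.  `cert_of_data`,
`cert_of_win`: a finite check of H741 is a certificate.
-/

namespace Vale.Agent.P032.Words

open Set Vale.Agent.P032.R2.H741

variable {P Λ γ : Type} {n m : ℕ}

/-- numbers of positions and letters -/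
structure Enc (P Λ : Type) (n m : ℕ) where
  /-- number of a position -/
  ix : P → ℕ
  /-- position of a number -/
  ps : ℕ → P
  /-- number of a letter -/
  lx : Λ → ℕ
  /-- letter of a number -/
  lt : ℕ → Λ
  ix_lt : ∀ p, ix p < n
  ps_ix : ∀ p, ps (ix p) = p
  ix_ps : ∀ q < n, ix (ps q) = q
  lx_lt : ∀ l, lx l < m
  lt_lx : ∀ l, lt (lx l) = l
  lx_lt' : ∀ a < m, lx (lt a) = a

namespace Enc

variable (E : Enc P Λ n m)

open Classical in
/-- masks of the palettes -/
noncomputable def pal (W : P → Set Λ) (q : ℕ) : ℕ :=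
  Nat.ofBits fun l : Fin m => decide (E.lt l.val ∈ W (E.ps q))

/-- numbers of the letters of a selection -/
def sel (h : P → Λ) (q : ℕ) : ℕ := E.lx (h (E.ps q))

theorem pal_lt (W : P → Set Λ) (q : ℕ) : E.pal W q < 2 ^ m := Nat.ofBits_lt_two_pow _

theorem testBit_pal {W : P → Set Λ} {q l : ℕ} (hl : l < m) :
    (E.pal W q).testBit l = true ↔ E.lt l ∈ W (E.ps q) := by
  unfold pal
  rw [Nat.testBit_ofBits_lt _ _ hl]
  classical
  exact ⟨fun h => of_decide_eq_true h, fun h => decide_eq_true h⟩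

theorem testBit_pal' {W : P → Set Λ} {p : P} {l : Λ} :
    (E.pal W (E.ix p)).testBit (E.lx l) = true ↔ l ∈ W p := by
  rw [E.testBit_pal (E.lx_lt l), E.lt_lx, E.ps_ix]

theorem pal_ge {W : P → Set Λ} {q l : ℕ} (hl : m ≤ l) : (E.pal W q).testBit l = false :=
  Nat.testBit_ofBits_ge _ _ hl

theorem sel_lt (h : P → Λ) (q : ℕ) : E.sel h q < m := E.lx_lt _

theorem sel_ix (h : P → Λ) (p : P) : E.sel h (E.ix p) = E.lx (h p) := by
  unfold sel; rw [E.ps_ix]

theorem sel_eq_iff {h : P → Λ} {q l : ℕ} (hl : l < m) : E.sel h q = l ↔ h (E.ps q) = E.lt l := by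
  unfold sel
  constructor
  · intro e
    rw [← e, E.lt_lx]
  · intro e
    rw [e, E.lx_lt' l hl]

theorem testBit_sel {W : P → Set Λ} {h : P → Λ} (hh : SelW W h) (q : ℕ) :
    (E.pal W q).testBit (E.sel h q) = true := by
  rw [E.testBit_pal (E.sel_lt h q)]
  unfold sel
  rw [E.lt_lx]
  exact hh _

/-- code of a selection -/
def code (h : P → Λ) : ℕ := scode m (E.sel h) n

theorem code_inj {h h' : P → Λ} (e : E.code h = E.code h') : h = h' := by
  have key : ∀ q < n, E.sel h q = E.sel h' q := by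
    intro q hq
    have h1 := testBit_scode (m := m) (h := E.sel h) (p := n) (fun _ _ => E.sel_lt _ _) hq
      (E.sel_lt h' q)
    have h2 := testBit_scode (m := m) (h := E.sel h') (p := n) (fun _ _ => E.sel_lt _ _) hq
      (E.sel_lt h' q)
    have e' : scode m (E.sel h) n = scode m (E.sel h') n := e
    rw [e', h2, decide_eq_true rfl] at h1
    exact of_decide_eq_true h1.symm
  funext p
  have := key (E.ix p) (E.ix_lt p)
  rw [E.sel_ix, E.sel_ix] at this
  rw [← E.lt_lx (h p), this, E.lt_lx]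

end Enc

/-- the atom is in the palette system -/
def Enc.At (E : Enc P Λ n m) (W : P → Set Λ) (x : Atom) : Prop := E.lt x.2 ∈ W (E.ps x.1)

/-- the palette system satisfies the rules of the text -/
structure DAdm (D : Data) (X : Text) (E : Enc P Λ D.n D.m) (W : P → Set Λ) : Prop where
  mem : ∀ q < D.n, E.pal W q ∈ D.pals q
  rule : ∀ q < D.n, ∀ r ∈ X.R q, (∀ x ∈ r.1, E.At W x) → ∃ x ∈ r.2, E.At W x

theorem DAdm.pal {D : Data} {X : Text} (A : Agree D X) {E : Enc P Λ D.n D.m} {W : P → Set Λ}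
    (h : DAdm D X E W) : Pal D X (E.pal W) where
  lt := fun q _ => E.pal_lt W q
  mem := h.mem
  rule := by
    intro q hq r hr hx
    obtain ⟨x, h1, h2⟩ := h.rule q hq r hr fun x hx' =>
      (E.testBit_pal (A.bound q hq r hr x (List.mem_append_left _ hx')).2).1 (hx x hx')
    exact ⟨x, h1, (E.testBit_pal (A.bound q hq r hr x (List.mem_append_right _ h1)).2).2 h2⟩

/-- the conflicts of the text are conflicts -/
def FConf (n m : ℕ) (F : ℕ → ℕ → List Atom) (C : P → Λ → P → Λ → Prop) (E : Enc P Λ n m) : Prop :=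
  ∀ q < n, ∀ l < m, ∀ x ∈ F q l, C (E.ps q) (E.lt l) (E.ps x.1) (E.lt x.2) ∨
    C (E.ps x.1) (E.lt x.2) (E.ps q) (E.lt l)

theorem free_of_legal {C : P → Λ → P → Λ → Prop} {E : Enc P Λ n m} {F : ℕ → ℕ → List Atom}
    (hF : FConf n m F C E) {h : P → Λ} (hh : Legal C h) : ∀ q < n, ∀ x ∈ F q (E.sel h q),
      E.sel h x.1 ≠ x.2 := by
  intro q hq x hx he
  have h1 := hF q hq _ (E.sel_lt h q) x hx
  have e1 : E.lt (E.sel h q) = h (E.ps q) := by unfold Enc.sel; rw [E.lt_lx]
  have e2 : E.lt x.2 = h (E.ps x.1) := by rw [← he]; unfold Enc.sel; rw [E.lt_lx]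
  rw [e1, e2] at h1
  rcases h1 with h1 | h1
  · exact hh _ _ h1
  · exact hh _ _ h1

theorem leg_of_legal {D : Data} {X : Text} {C : P → Λ → P → Λ → Prop} {E : Enc P Λ D.n D.m}
    (hF : FConf D.n D.m X.F C E) {h : P → Λ} (hh : Legal C h) : Leg D X (E.sel h) :=
  ⟨fun _ _ => E.sel_lt _ _, free_of_legal hF hh⟩

/-- **Palette systems.** -/
theorem cert_of_data {D : Data} {X : Text} (A : Agree D X) (hc : D.spec.check = true)
    {C : P → Λ → P → Λ → Prop} {E : Enc P Λ D.n D.m} (hF : FConf D.n D.m X.F C E) :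
    Cert C (fun h => D.cls (E.code h)) (DAdm D X E) :=
  fun _ hW _ _ h1 l1 h2 l2 => Data.sound A hc (hW.pal A) (leg_of_legal hF l1) (leg_of_legal hF l2)
    (fun q _ => E.testBit_sel h1 q) fun q _ => E.testBit_sel h2 q

/-- the palette system contains no window of the text -/
def WAdm (D : Win) (X : Win.Text) (E : Enc P Λ D.n D.m) (W : P → Set Λ) : Prop :=
  ∀ q < D.n, ∀ w ∈ X.W q, ¬ ∀ x ∈ w, E.At W x

theorem win_leg_of_legal {D : Win} {X : Win.Text} {C : P → Λ → P → Λ → Prop}
    {E : Enc P Λ D.n D.m} (hF : FConf D.n D.m X.F C E) {h : P → Λ} (hh : Legal C h) :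
    Win.Leg D X (E.sel h) := ⟨fun _ _ => E.sel_lt _ _, free_of_legal hF hh⟩

theorem WAdm.noWin {D : Win} {X : Win.Text} (A : Win.Agree D X) {E : Enc P Λ D.n D.m}
    {W : P → Set Λ} (hW : WAdm D X E W) {h h' : P → Λ} (h1 : SelW W h) (h2 : SelW W h') :
    Win.NoWin D X (E.sel h) (E.sel h') := by
  intro q hq w hw hx
  refine hW q hq w hw fun x hx' => ?_
  have hl := (A.bound q hq w hw x hx').2
  rcases hx x hx' with e | e
  · have := (E.sel_eq_iff hl).1 e
    unfold Enc.At
    rw [← this]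
    exact h1 _
  · have := (E.sel_eq_iff hl).1 e
    unfold Enc.At
    rw [← this]
    exact h2 _

/-- **Windows.** -/
theorem cert_of_win {D : Win} {X : Win.Text} (A : Win.Agree D X)
    (hc : D.pair false D.n 0 0 0 0 = true) {C : P → Λ → P → Λ → Prop} {E : Enc P Λ D.n D.m}
    (hF : FConf D.n D.m X.F C E) : Cert C (fun h => D.cls (E.code h)) (WAdm D X E) :=
  fun _ hW _ _ h1 l1 h2 l2 => Win.pair_sound A hc (win_leg_of_legal hF l1) (win_leg_of_legal hF l2)
    (hW.noWin A h1 h2)

/-- **Every legal selection passes `f`.** -/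
theorem forall_legal_of_win {D : Win} {X : Win.Text} (A : Win.Agree D X) {f : ℕ → Bool}
    (hc : D.selAll f D.n 0 0 = true) {C : P → Λ → P → Λ → Prop} {E : Enc P Λ D.n D.m}
    (hF : FConf D.n D.m X.F C E) {h : P → Λ} (hh : Legal C h) : f (E.code h) = true :=
  Win.selAll_sound A hc (win_leg_of_legal hF hh)

/-- a permutation of the positions on codes -/
theorem Enc.code_comp (E : Enc P Λ n m) {π : P → P} {h : P → Λ} :
    E.code (fun p => h (π p)) = recode m n (fun q => E.ix (π (E.ps q))) (E.code h) := by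
  have h1 := recode_scode (m := m) (n := n) (h := E.sel h) (π := fun q => E.ix (π (E.ps q)))
    (fun q _ => E.sel_lt _ _) (fun q _ => E.ix_lt _)
  unfold Enc.code
  rw [h1]
  congr 1
  funext q
  rw [E.sel_ix]
  rfl

end Vale.Agent.P032.Words
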