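import Vale.Agent.P032.R2.H784.Ring
import Vale.Agent.P032.R2.H137.Adm

/-!
# P032: coupled rings, named points, closed paths

Named points: finitely many points on every circle.  Named times: the times at which some position is
at a named point.  `Rings.no_path_named`: if the palettes are admissible at all other times, there is a
chain of jumps at the named times of one period from a legal selection to its rotation.
-/

open Set Filter Topology Metric

noncomputable section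

namespace Vale.Agent.P032.S5.H767

open Vale.Agent.P032.Six Vale.Agent.P032.Words

theorem pt_int137 {z : ℂ} {u v : ℝ} (h : pt z u = pt z v) : ∃ n : ℤ, v = u + 6 * n := by
  unfold pt cis at h
  have h1 := add_left_cancel h
  obtain ⟨n, hn⟩ := Complex.exp_eq_exp_iff_exists_int.1 h1
  refine ⟨-n, ?_⟩
  have h2 : ((u * (Real.pi / 3) : ℝ) : ℂ) * Complex.I =
      (((v * (Real.pi / 3) : ℝ) : ℂ) + n * (2 * Real.pi)) * Complex.I := by rw [hn]; ring
  have h3 := mul_right_cancel₀ Complex.I_ne_zero h2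
  have h4 : u * (Real.pi / 3) = v * (Real.pi / 3) + n * (2 * Real.pi) := by exact_mod_cast h3
  have hp := Real.pi_pos
  push_cast
  field_simp at h4
  linarith

theorem pt_fiber_finite (z q : ℂ) (s a b : ℝ) : ({t : ℝ | pt z (t + s) = q} ∩ Icc a b).Finite := by
  rcases Set.eq_empty_or_nonempty ({t : ℝ | pt z (t + s) = q} ∩ Icc a b) with h | ⟨t0, h0, -⟩
  · rw [h]; exact Set.finite_empty
  · have hsub : {t : ℝ | pt z (t + s) = q} ∩ Icc a b ⊆
        (fun n : ℤ => t0 + 6 * (n : ℝ)) '' Icc ⌈(a - t0) / 6⌉ ⌊(b - t0) / 6⌋ := by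
      rintro t ⟨ht, h1, h2⟩
      have h3 : pt z (t0 + s) = pt z (t + s) := h0.trans (Eq.symm ht)
      obtain ⟨n, hn⟩ := pt_int137 h3
      refine ⟨n, ⟨Int.ceil_le.2 ?_, Int.le_floor.2 ?_⟩, ?_⟩
      · linarith
      · linarith
      · simp only; linarith
    exact ((Set.finite_Icc _ _).image _).subset hsub

variable {U : Fin 6 → Set ℂ} {T : ℂ → Set (Fin 6)} {ι Λ : Type}

/-- times at which a position is at a named point -/
def Named (c : ι → ℂ) (Q : ι → Set ℂ) : Set ℝ := {t | ∃ p : ι × Fin 6, pos c p t ∈ Q p.1}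

theorem named_add_one (c : ι → ℂ) (Q : ι → Set ℂ) (t : ℝ) : t + 1 ∈ Named c Q ↔ t ∈ Named c Q := by
  constructor
  · rintro ⟨p, hp⟩
    rw [pos_add_one] at hp
    exact ⟨(p.1, p.2 + 1), hp⟩
  · rintro ⟨p, hp⟩
    refine ⟨(p.1, p.2 - 1), ?_⟩
    rw [pos_add_one]
    simpa using hp

theorem named_finite [Finite ι] (c : ι → ℂ) {Q : ι → Set ℂ} (hQ : ∀ i, (Q i).Finite) (a b : ℝ) :
    (Named c Q ∩ Icc a b).Finite := by
  have : Named c Q ∩ Icc a b = ⋃ p : ι × Fin 6, ⋃ q ∈ Q p.1,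
      ({t : ℝ | pt (c p.1) (t + (p.2.val : ℝ)) = q} ∩ Icc a b) := by
    ext t
    simp only [Named, mem_inter_iff, mem_ofPred_eq, mem_iUnion, pos]
    constructor
    · rintro ⟨⟨p, hp⟩, h⟩
      exact ⟨p, _, hp, rfl, h⟩
    · rintro ⟨p, q, hq, h1, h2⟩
      exact ⟨⟨p, by rw [h1]; exact hq⟩, h2⟩
  rw [this]
  exact Set.finite_iUnion fun p => (hQ p.1).biUnion fun q _ => pt_fiber_finite _ _ _ _ _

/-- a time which is not named -/
theorem exists_not_named [Finite ι] (c : ι → ℂ) {Q : ι → Set ℂ} (hQ : ∀ i, (Q i).Finite) {a b : ℝ}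
    (hab : a < b) : ∃ t, a < t ∧ t < b ∧ t ∉ Named c Q := by
  have hinf : (Ioo a b).Infinite := Set.Ioo_infinite hab
  by_contra hcon
  push Not at hcon
  refine hinf ((named_finite c hQ a b).subset fun t ht => ⟨hcon t ht.1 ht.2, Ioo_subset_Icc_self ht⟩)

/-- fewer conflicts -/
theorem sys_mono137 {P : Type} {X : P → Λ → Set ℝ} {C C0 : P → Λ → P → Λ → Prop} {G : Set ℝ}
    (S : Sys X C G) (h : ∀ p l p' l', C0 p l p' l' → C p l p' l') : Sys X C0 G where
  closed := S.closed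
  cover := S.cover
  gopen := S.gopen
  gdense := S.gdense
  free := fun p l t ht hl p' l' hc => S.free p l t ht hl p' l' (h _ _ _ _ hc)

theorem legal_mono137 {P : Type} {C C0 : P → Λ → P → Λ → Prop}
    (h : ∀ p l p' l', C0 p l p' l' → C p l p' l') {s : P → Λ} (hs : Legal C s) : Legal C0 s :=
  fun p p' hc => hs p p' (h _ _ _ _ hc)

/-- **One period.** From a legal selection at a time which is not named to its rotation.  `C0`: the
conflicts which are used. -/
theorem Rings.no_path_named [Finite ι] [Finite Λ] {c : ι → ℂ} {col : ι → Λ → Set (Fin 6)}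
    {F : ι → Λ → Set ℂ} (h : Irr U T) (R : Rings T c col F) {γ : Type}
    {C0 : ι × Fin 6 → Λ → ι × Fin 6 → Λ → Prop}
    (hC0 : ∀ p l p' l', C0 p l p' l' → Conf c col p l p' l')
    {cls : (ι × Fin 6 → Λ) → γ} {Adm : (ι × Fin 6 → Set Λ) → Prop}
    (hC : Cert C0 cls Adm) {N : Set ℝ} {a : ℝ} (hN : (N ∩ Icc a (a + 1)).Finite)
    (ha : a ∉ N) (ha' : a + 1 ∉ N) (hA : ∀ t ∈ Icc a (a + 1), t ∉ N → Adm (palS (posX c F) t)) :
    ∃ L : List ℝ, L.Pairwise (· < ·) ∧ (∀ u, u ∈ L ↔ u ∈ N ∧ a < u ∧ u < a + 1) ∧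
      ∃ s, Sel (posX c F) a s ∧ Legal (Conf c col) s ∧
        Chain (posX c F) C0 cls L (cls s) (cls (rot s)) := by
  have S := R.sys h
  obtain ⟨s, hs, hl⟩ := S.exists_legal a
  obtain ⟨L, h1, h2, h3⟩ := (sys_mono137 S hC0).chain_finite hC (by linarith) hN ha ha' hA hs
    (legal_mono137 hC0 hl) (sel_rot hs) (legal_mono137 hC0 (legal_rot hl))
  exact ⟨L, h1, h2, s, hs, hl, h3⟩

/-- The same for named points; the starting time can be chosen in any interval. -/
theorem Rings.no_path_points [Finite ι] [Finite Λ] {c : ι → ℂ} {col : ι → Λ → Set (Fin 6)}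
    {F : ι → Λ → Set ℂ} (h : Irr U T) (R : Rings T c col F) {γ : Type}
    {C0 : ι × Fin 6 → Λ → ι × Fin 6 → Λ → Prop}
    (hC0 : ∀ p l p' l', C0 p l p' l' → Conf c col p l p' l')
    {cls : (ι × Fin 6 → Λ) → γ} {Adm : (ι × Fin 6 → Set Λ) → Prop}
    (hC : Cert C0 cls Adm) {Q : ι → Set ℂ} (hQ : ∀ i, (Q i).Finite)
    (hA : ∀ t, t ∉ Named c Q → Adm (palS (posX c F) t)) {a0 b0 : ℝ} (hab : a0 < b0) :
    ∃ a, a0 < a ∧ a < b0 ∧ a ∉ Named c Q ∧
      ∃ L : List ℝ, L.Pairwise (· < ·) ∧ (∀ u, u ∈ L ↔ u ∈ Named c Q ∧ a < u ∧ u < a + 1) ∧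
        ∃ s, Sel (posX c F) a s ∧ Legal (Conf c col) s ∧
          Chain (posX c F) C0 cls L (cls s) (cls (rot s)) := by
  obtain ⟨a, h1, h2, h3⟩ := exists_not_named c hQ hab
  refine ⟨a, h1, h2, h3, R.no_path_named h hC0 hC (named_finite c hQ _ _) h3
    (fun h4 => h3 ((named_add_one c Q a).1 h4)) fun t _ ht => hA t ht⟩

end Vale.Agent.P032.S5.H767
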