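import Vale.Agent.P032.R2.H137.Adm

/-!
# P032: forced moves

Two legal selections `h`, `h'` of a palette system are connected by moves with disjoint supports; a
move changes a position `p` and then only the positions whose old letter is in conflict with a new
letter.  All selections of the path are legal and in the palette system.
-/

namespace Vale.Agent.P032.Words

open Set

variable {P Λ γ : Type}

/-- reached from `p`: the old letter of `q` is in conflict with the new letter of `r` -/
inductive GenM (C : P → Λ → P → Λ → Prop) (h h' : P → Λ) (p : P) : P → Prop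
  | base : GenM C h h' p p
  | step {r q : P} (hr : GenM C h h' p r) (hc : C q (h q) r (h' r) ∨ C r (h' r) q (h q)) :
      GenM C h h' p q

/-- a forced move with the support `S` in the palette system `W` -/
structure Move (C : P → Λ → P → Λ → Prop) (W : P → Set Λ) (S : Set P) (h h' : P → Λ) : Prop where
  sel : SelW W h
  sel' : SelW W h'
  leg : Legal C h
  leg' : Legal C h'
  supp : ∀ q, q ∈ S ↔ h q ≠ h' q
  gen : ∃ p ∈ S, ∀ q ∈ S, GenM C h h' p q

open Classical in
/-- `h'` on `S`, `h` off `S` -/
noncomputable def mix (h h' : P → Λ) (S : Set P) : P → Λ := fun p => if p ∈ S then h' p else h p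

theorem mix_in {h h' : P → Λ} {S : Set P} {p : P} (hp : p ∈ S) : mix h h' S p = h' p := if_pos hp

theorem mix_out {h h' : P → Λ} {S : Set P} {p : P} (hp : p ∉ S) : mix h h' S p = h p := if_neg hp

theorem mix_sel {W : P → Set Λ} {h h' : P → Λ} {S : Set P} (h1 : SelW W h) (h2 : SelW W h') :
    SelW W (mix h h' S) := by
  intro p
  by_cases hp : p ∈ S
  · rw [mix_in hp]; exact h2 p
  · rw [mix_out hp]; exact h1 p

theorem mix_legal {C : P → Λ → P → Λ → Prop} {h h' : P → Λ} {S : Set P} (h1 : Legal C h)
    (h2 : Legal C h')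
    (hS : ∀ r ∈ S, ∀ q, (C q (h q) r (h' r) ∨ C r (h' r) q (h q)) → q ∈ S) :
    Legal C (mix h h' S) := by
  intro p p' hc
  by_cases hp : p ∈ S <;> by_cases hp' : p' ∈ S
  · rw [mix_in hp, mix_in hp'] at hc; exact h2 _ _ hc
  · rw [mix_in hp, mix_out hp'] at hc; exact hp' (hS p hp p' (Or.inr hc))
  · rw [mix_out hp, mix_in hp'] at hc; exact hp (hS p' hp' p (Or.inl hc))
  · rw [mix_out hp, mix_out hp'] at hc; exact h1 _ _ hc

/-- everything which is reached is different -/
theorem GenM.diff {C : P → Λ → P → Λ → Prop} {h h' : P → Λ} (h2 : Legal C h') {p q : P}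
    (hp : h p ≠ h' p) (hg : GenM C h h' p q) : h q ≠ h' q := by
  cases hg with
  | base => exact hp
  | step hr hc =>
    intro e
    rw [e] at hc
    rcases hc with hc | hc
    · exact h2 _ _ hc
    · exact h2 _ _ hc

/-- the first move -/
theorem first_move {C : P → Λ → P → Λ → Prop} {W : P → Set Λ} {h h' : P → Λ} (h1 : SelW W h)
    (l1 : Legal C h) (h2 : SelW W h') (l2 : Legal C h') {p : P} (hp : h p ≠ h' p) :
    Move C W {q | GenM C h h' p q} h (mix h h' {q | GenM C h h' p q}) := by
  have hcl : ∀ r ∈ {q | GenM C h h' p q}, ∀ q, (C q (h q) r (h' r) ∨ C r (h' r) q (h q)) →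
      q ∈ {q | GenM C h h' p q} := fun r hr q hc => GenM.step hr hc
  have hsupp : ∀ q, q ∈ {q | GenM C h h' p q} ↔ h q ≠ mix h h' {q | GenM C h h' p q} q := by
    intro q
    constructor
    · intro hq
      rw [mix_in hq]
      exact GenM.diff l2 hp hq
    · intro hq
      by_contra hq'
      rw [mix_out hq'] at hq
      exact hq rfl
  refine ⟨h1, mix_sel h1 h2, l1, mix_legal l1 l2 hcl, hsupp, p, GenM.base, fun q hq => ?_⟩
  induction hq with
  | base => exact GenM.base
  | @step r q hr hc ih =>
    refine GenM.step ih ?_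
    rw [mix_in (S := {q | GenM C h h' p q}) hr]
    exact hc

/-- a path of moves with disjoint supports -/
inductive MPath (C : P → Λ → P → Λ → Prop) (W : P → Set Λ) : Set P → (P → Λ) → (P → Λ) → Prop
  | nil (h : P → Λ) : MPath C W ∅ h h
  | step {S A : Set P} {h h1 h2 : P → Λ} (hm : Move C W S h h1) (hd : Disjoint S A)
      (hp : MPath C W A h1 h2) : MPath C W (S ∪ A) h h2

/-- **Any two legal selections of a palette system are connected by forced moves.** -/
theorem exists_mpath [Finite P] {C : P → Λ → P → Λ → Prop} {W : P → Set Λ} :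
    ∀ (n : ℕ) {h h' : P → Λ}, {q | h q ≠ h' q}.ncard ≤ n → SelW W h → Legal C h → SelW W h' →
      Legal C h' → MPath C W {q | h q ≠ h' q} h h'
  | 0, h, h', hn, h1, l1, h2, l2 => by
    have e : {q | h q ≠ h' q} = ∅ := by
      rw [← Set.ncard_eq_zero (Set.toFinite _)]; omega
    have e2 : h = h' := by
      funext q
      by_contra hq
      have : q ∈ {q | h q ≠ h' q} := hq
      rw [e] at this
      exact this
    rw [e, ← e2]
    exact .nil h
  | n + 1, h, h', hn, h1, l1, h2, l2 => by
    rcases Set.eq_empty_or_nonempty {q | h q ≠ h' q} with e | ⟨p, hp⟩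
    · have e2 : h = h' := by
        funext q
        by_contra hq
        have : q ∈ {q | h q ≠ h' q} := hq
        rw [e] at this
        exact this
      rw [e, ← e2]
      exact .nil h
    · have hm := first_move h1 l1 h2 l2 hp
      set S : Set P := {q | GenM C h h' p q} with hS
      have hpS : p ∈ S := GenM.base
      have hsub : S ⊆ {q | h q ≠ h' q} := fun q hq => GenM.diff l2 hp hq
      have e : {q | mix h h' S q ≠ h' q} = {q | h q ≠ h' q} \ S := by
        ext q
        simp only [Set.mem_ofPred_eq, Set.mem_sdiff]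
        constructor
        · intro hq
          by_cases hqS : q ∈ S
          · rw [mix_in hqS] at hq; exact absurd rfl hq
          · rw [mix_out hqS] at hq; exact ⟨hq, hqS⟩
        · rintro ⟨h3, h4⟩
          rw [mix_out h4]; exact h3
      have hlt : {q | mix h h' S q ≠ h' q}.ncard ≤ n := by
        rw [e]
        have : ({q | h q ≠ h' q} \ S).ncard < {q | h q ≠ h' q}.ncard := by
          refine Set.ncard_lt_ncard ⟨Set.sdiff_subset, fun hs => ?_⟩ (Set.toFinite _)
          exact (hs hp).2 hpS
        omega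
      have ih := exists_mpath n hlt hm.sel' hm.leg' h2 l2
      have e3 : {q | h q ≠ h' q} = S ∪ {q | mix h h' S q ≠ h' q} := by
        rw [e, Set.union_sdiff_cancel hsub]
      rw [e3]
      refine .step hm ?_ ih
      rw [e]
      exact Set.disjoint_sdiff_right

/-- moves in smaller palette systems -/
theorem Move.pair {C : P → Λ → P → Λ → Prop} {W : P → Set Λ} {S : Set P} {h h' : P → Λ}
    (m : Move C W S h h') : Move C (pairW h h') S h h' :=
  ⟨selW_pair_left _ _, selW_pair_right _ _, m.leg, m.leg', m.supp, m.gen⟩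

/-- **Certificates from forced moves.** -/
theorem cert_of_moves [Finite P] {C : P → Λ → P → Λ → Prop} {cls : (P → Λ) → γ}
    {Adm : (P → Set Λ) → Prop}
    (hm : ∀ W, Adm W → ∀ S h h', Move C W S h h' → cls h = cls h') : Cert C cls Adm := by
  intro W hW h h' h1 l1 h2 l2
  have hp := exists_mpath _ le_rfl h1 l1 h2 l2
  have key : ∀ {A : Set P} {g g' : P → Λ}, MPath C W A g g' → cls g = cls g' := by
    intro A g g' hp
    induction hp with
    | nil h => rfl
    | step hmv _ _ ih => exact (hm W hW _ _ _ hmv).trans ih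
  exact key hp

/-- ... for antitone rules: pairs only -/
theorem cert_of_moves_pair [Finite P] {C : P → Λ → P → Λ → Prop} {cls : (P → Λ) → γ}
    {Adm : (P → Set Λ) → Prop} (hA : Anti Adm)
    (hm : ∀ S h h', Move C (pairW h h') S h h' → Adm (pairW h h') → cls h = cls h') :
    Cert C cls Adm :=
  cert_of_moves fun W hW S h h' m => hm S h h' m.pair (hA _ W (pair_sub m.sel m.sel') hW)

/-! ## Windows and named windows -/

/-- the atoms of a palette system -/
def atoms (W : P → Set Λ) : Set (P × Λ) := {x | x.2 ∈ W x.1}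

theorem atoms_mono {W W' : P → Set Λ} (h : ∀ p, W p ⊆ W' p) : atoms W ⊆ atoms W' :=
  fun x hx => h x.1 hx

/-- no window of `Wu`, and no window of `Wn` except those which belong to a named event of `M` -/
structure AdmM {K : Type} (Wu : Set (Set (P × Λ))) (Wn : K → Set (Set (P × Λ))) (M : Set K)
    (W : P → Set Λ) : Prop where
  un : ∀ w ∈ Wu, ¬ w ⊆ atoms W
  nm : ∀ x, ∀ w ∈ Wn x, w ⊆ atoms W → ∃ y ∈ M, w ∈ Wn y

theorem admM_anti {K : Type} {Wu : Set (Set (P × Λ))} {Wn : K → Set (Set (P × Λ))} {M : Set K} :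
    Anti (AdmM Wu Wn M) := fun _ _ h hW => ⟨fun w hw hsub => hW.un w hw (hsub.trans (atoms_mono h)),
      fun x w hw hsub => hW.nm x w hw (hsub.trans (atoms_mono h))⟩

/-- the named events of `M` which are present in `W` -/
def pres {K : Type} (Wn : K → Set (Set (P × Λ))) (M : Set K) (W : P → Set Λ) : Set K :=
  {x | x ∈ M ∧ ∃ w ∈ Wn x, w ⊆ atoms W}

theorem admM_pres {K : Type} {Wu : Set (Set (P × Λ))} {Wn : K → Set (Set (P × Λ))} {M : Set K}
    {W : P → Set Λ} (h : AdmM Wu Wn M W) : AdmM Wu Wn (pres Wn M W) W := by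
  refine ⟨h.un, fun x w hw hsub => ?_⟩
  obtain ⟨y, hy, hwy⟩ := h.nm x w hw hsub
  exact ⟨y, ⟨hy, w, hwy, hsub⟩, hwy⟩

/-- the class relation of the moves with exactly the named events `N` -/
def MoveR {K : Type} (C : P → Λ → P → Λ → Prop) (cls : (P → Λ) → γ) (Wu : Set (Set (P × Λ)))
    (Wn : K → Set (Set (P × Λ))) (N : Set K) (x y : γ) : Prop :=
  ∃ S h h', Move C (pairW h h') S h h' ∧ AdmM Wu Wn N (pairW h h') ∧
    (∀ k ∈ N, ∃ w ∈ Wn k, w ⊆ atoms (pairW h h')) ∧ cls h = x ∧ cls h' = y

/-- a path whose steps are disjoint nonempty subsets of a set -/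
inductive LPath {K γ : Type} (R : Set K → γ → γ → Prop) : Set K → γ → γ → Prop
  | nil (A : Set K) (x : γ) : LPath R A x x
  | step {S A : Set K} {x m y : γ} (hS : S.Nonempty) (hs : S ⊆ A) (h1 : R S x m)
      (h2 : LPath R (A \ S) m y) : LPath R A x y

theorem LPath.mono_set {K γ : Type} {R : Set K → γ → γ → Prop} {A : Set K} {x y : γ}
    (hp : LPath R A x y) : ∀ {B : Set K}, A ⊆ B → LPath R B x y := by
  induction hp with
  | nil A x => exact fun _ => .nil _ _
  | step hS hs h1 _ ih =>
    intro B hB
    exact .step hS (hs.trans hB) h1 (ih (Set.sdiff_subset_sdiff_left hB))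

theorem LPath.mono {K γ : Type} {R R' : Set K → γ → γ → Prop} {A : Set K} {x y : γ}
    (h : ∀ S ⊆ A, ∀ x y, R S x y → R' S x y) (hp : LPath R A x y) : LPath R' A x y := by
  induction hp with
  | nil A x => exact .nil _ _
  | step hS hs h1 _ ih =>
    exact .step hS hs (h _ hs _ _ h1) (ih fun S hS => h S (hS.trans Set.sdiff_subset))

theorem LPath.trans {K γ : Type} {R : Set K → γ → γ → Prop} {A B : Set K} {x y z : γ}
    (h1 : LPath R A x y) (hd : Disjoint A B) (h2 : LPath R B y z) : LPath R (A ∪ B) x z := by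
  induction h1 with
  | nil A x => exact h2.mono_set Set.subset_union_right
  | @step S A x m y hS hs hR _ ih =>
    refine .step hS (hs.trans Set.subset_union_left) hR ?_
    have h3 := ih (hd.mono_left Set.sdiff_subset) h2
    refine h3.mono_set ?_
    rintro k (hk | hk)
    · exact ⟨Or.inl hk.1, hk.2⟩
    · exact ⟨Or.inr hk, fun hkS => Set.disjoint_left.1 hd (hs hkS) hk⟩

/-- **A jump is a path of named moves with disjoint sets of events.** -/
theorem lpath_of_pair [Finite P] {K : Type} {C : P → Λ → P → Λ → Prop} {cls : (P → Λ) → γ}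
    {Wu : Set (Set (P × Λ))} {Wn : K → Set (Set (P × Λ))}
    (hC : Cert C cls (AdmM Wu Wn (∅ : Set K))) (pk : K → P)
    (hloc : ∀ k, ∀ w ∈ Wn k, ∀ h h', Legal C h → Legal C h' → w ⊆ atoms (pairW h h') →
      h (pk k) ≠ h' (pk k))
    {M : Set K} {W : P → Set Λ} (hW : AdmM Wu Wn M W) {h h' : P → Λ} (h1 : SelW W h)
    (l1 : Legal C h) (h2 : SelW W h') (l2 : Legal C h') :
    LPath (MoveR C cls Wu Wn) M (cls h) (cls h') := by
  have hp := exists_mpath _ le_rfl h1 l1 h2 l2
  -- with the events at the positions of the support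
  have key : ∀ {A : Set P} {g g' : P → Λ}, MPath C W A g g' →
      LPath (MoveR C cls Wu Wn) {k | k ∈ M ∧ pk k ∈ A} (cls g) (cls g') := by
    intro A g g' hp
    induction hp with
    | nil h => exact .nil _ _
    | @step S A g g1 g2 hm hd _ ih =>
      have hadm : AdmM Wu Wn M (pairW g g1) := admM_anti _ W (pair_sub hm.sel hm.sel') hW
      set N : Set K := pres Wn M (pairW g g1) with hN
      have hadmN : AdmM Wu Wn N (pairW g g1) := admM_pres hadm
      have hNS : ∀ k ∈ N, k ∈ M ∧ pk k ∈ S := by
        rintro k ⟨hk, w, hw, hsub⟩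
        exact ⟨hk, (hm.supp _).2 (hloc k w hw g g1 hm.leg hm.leg' hsub)⟩
      rcases Set.eq_empty_or_nonempty N with e | hne
      · rw [e] at hadmN
        have e2 : cls g = cls g1 := hC _ hadmN g g1 (selW_pair_left _ _) hm.leg
          (selW_pair_right _ _) hm.leg'
        rw [e2]
        exact ih.mono_set fun k hk => ⟨hk.1, Or.inr hk.2⟩
      · refine .step hne (fun k hk => ⟨(hNS k hk).1, Or.inl (hNS k hk).2⟩)
          ⟨S, g, g1, hm.pair, hadmN, fun k hk => hk.2, rfl, rfl⟩ (ih.mono_set ?_)
        rintro k ⟨hk, hkA⟩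
        exact ⟨⟨hk, Or.inr hkA⟩, fun hkN => Set.disjoint_left.1 hd (hNS k hkN).2 hkA⟩
  exact (key hp).mono_set fun k hk => hk.1

end Vale.Agent.P032.Words
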