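import Vale.Agent.P032.R2.H137.JPath
import Vale.Agent.P032.R2.H137.Moves

/-!
# P032: closed paths of named moves

`Rings.no_path_moves`: windows `Wu` (sets of atoms which are never all in the palettes), named
windows `Wn (j, k)` (allowed when the named point `j` is at the position `(ri j, k)`), a class
function which is constant under moves without windows.  Then there is a path
of named moves from the class of a legal selection to the class of its rotation, in which every named
point is used at most once, in the order of the times `τ j` (ties in any order).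
-/

open Set Filter Topology Metric

noncomputable section

namespace Vale.Agent.P032.S5.H767

open Vale.Agent.P032.Six Vale.Agent.P032.Words

/-- pull back along an injection -/
theorem lpath_pull {K J γ : Type} {R : Set K → γ → γ → Prop} {f : J → K}
    {A : Set K} {x y : γ} (hp : LPath R A x y) : ∀ {B : Set J}, A = f '' B → Function.Injective f →
      LPath (fun N => R (f '' N)) B x y := by
  induction hp with
  | nil A x => exact fun _ _ => .nil _ _
  | @step S A x m y hS hs hR _ ih =>
    intro B hB hf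
    have e1 : f '' (f ⁻¹' S) = S := by
      refine Set.image_preimage_eq_of_subset ?_
      rw [hB] at hs
      exact hs.trans (Set.image_subset_range _ _)
    refine .step (S := f ⁻¹' S) ?_ ?_ ?_ (ih (B := B \ (f ⁻¹' S)) ?_ hf)
    · obtain ⟨k, hk⟩ := hS
      rw [← e1] at hk
      obtain ⟨j, hj, -⟩ := hk
      exact ⟨j, hj⟩
    · intro j hj
      have : f j ∈ A := hs hj
      rw [hB] at this
      exact (hf.mem_set_image).1 this
    · show R (f '' (f ⁻¹' S)) x m
      rw [e1]
      exact hR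
    · rw [hB, Set.image_sdiff hf, e1]

/-- a path of nonempty sets of points with the same time, in the order of the times; points may be
skipped -/
inductive TPath {J γ : Type} (τ : J → ℝ) (R : Set J → γ → γ → Prop) : Set J → γ → γ → Prop
  | nil (A : Set J) (x : γ) : TPath τ R A x x
  | step {S A : Set J} {u : ℝ} {x m y : γ} (hS : S.Nonempty) (hs : S ⊆ A) (hu : ∀ j ∈ S, τ j = u)
      (h1 : R S x m) (h2 : TPath τ R {j | j ∈ A \ S ∧ u ≤ τ j} m y) : TPath τ R A x y

theorem TPath.mono_set {J γ : Type} {τ : J → ℝ} {R : Set J → γ → γ → Prop} {A : Set J} {x y : γ}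
    (hp : TPath τ R A x y) : ∀ {B : Set J}, A ⊆ B → TPath τ R B x y := by
  induction hp with
  | nil A x => exact fun _ => .nil _ _
  | step hS hs hu h1 _ ih =>
    intro B hB
    exact .step hS (hs.trans hB) hu h1 (ih fun j hj => ⟨⟨hB hj.1.1, hj.1.2⟩, hj.2⟩)

theorem TPath.mono {J γ : Type} {τ : J → ℝ} {R R' : Set J → γ → γ → Prop} {A : Set J} {x y : γ}
    (h : ∀ S, S ⊆ A → ∀ x y, R S x y → R' S x y) (hp : TPath τ R A x y) : TPath τ R' A x y := by
  induction hp with
  | nil A x => exact .nil _ _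
  | step hS hs hu h1 _ ih =>
    exact .step hS hs hu (h _ hs _ _ h1) (ih fun S hS => h S fun j hj => (hS hj).1.1)

/-- the steps are sets of points with the same time -/
theorem TPath.mono' {J γ : Type} {τ : J → ℝ} {R R' : Set J → γ → γ → Prop} {A : Set J} {x y : γ}
    (h : ∀ S, S ⊆ A → S.Nonempty → (∃ u, ∀ j ∈ S, τ j = u) → ∀ x y, R S x y → R' S x y)
    (hp : TPath τ R A x y) : TPath τ R' A x y := by
  induction hp with
  | nil A x => exact .nil _ _
  | step hS hs hu h1 _ ih =>
    exact .step hS hs hu (h _ hs hS ⟨_, hu⟩ _ _ h1) (ih fun S hS => h S fun j hj => (hS hj).1.1)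

/-- forget the times -/
theorem TPath.lpath {J γ : Type} {τ : J → ℝ} {R : Set J → γ → γ → Prop} {A : Set J} {x y : γ}
    (hp : TPath τ R A x y) : LPath R A x y := by
  induction hp with
  | nil A x => exact .nil _ _
  | step hS hs _ h1 _ ih => exact .step hS hs h1 (ih.mono_set fun j hj => hj.1)

theorem lpath_append {J γ : Type} {τ : J → ℝ} {Q : Set J → γ → γ → Prop} {S B : Set J} {u : ℝ}
    {x m y : γ} (hp : LPath Q S x m) (hu : ∀ j ∈ S, τ j = u) (hB : ∀ j ∈ B, u < τ j)
    (h2 : TPath τ Q B m y) : TPath τ Q (S ∪ B) x y := by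
  induction hp with
  | nil A x => exact h2.mono_set Set.subset_union_right
  | @step S1 A x m' y' hS hs hR _ ih =>
    refine .step (u := u) hS (hs.trans Set.subset_union_left) (fun j hj => hu j (hs hj)) hR
      ((ih (fun j hj => hu j hj.1) h2).mono_set ?_)
    rintro j (hj | hj)
    · exact ⟨⟨Or.inl hj.1, hj.2⟩, (hu j hj.1).ge⟩
    · exact ⟨⟨Or.inr hj, fun hj1 => lt_irrefl _ ((hB j hj).trans_le (hu j (hs hj1)).le)⟩,
        (hB j hj).le⟩

/-- concatenation along a path -/
theorem tpath_of_npath {J γ : Type} [DecidableEq J] {τ : J → ℝ} {R : Finset J → γ → γ → Prop}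
    {Q : Set J → γ → γ → Prop} (h : ∀ S x y, R S x y → LPath Q (S : Set J) x y) {A : Finset J}
    {x y : γ} (hp : NPath τ R A x y) : TPath τ Q (A : Set J) x y := by
  induction hp with
  | nil x => exact .nil _ _
  | step _ hu hA h1 _ ih =>
    rw [Finset.coe_union]
    exact lpath_append (h _ _ _ h1) (fun j hj => hu j hj) (fun j hj => hA j hj) ih

variable {U : Fin 6 → Set ℂ} {T : ℂ → Set (Fin 6)} {ι Λ J : Type}

/-- **Closed paths of named moves.** -/
theorem Rings.no_path_moves [Finite ι] [Finite Λ] [Fintype J] [DecidableEq J] {c : ι → ℂ}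
    {col : ι → Λ → Set (Fin 6)} {F : ι → Λ → Set ℂ} (h : Irr U T) (R : Rings T c col F) {γ : Type}
    {C0 : ι × Fin 6 → Λ → ι × Fin 6 → Λ → Prop}
    (hC0 : ∀ p l p' l', C0 p l p' l' → Conf c col p l p' l')
    {cls : (ι × Fin 6 → Λ) → γ} {ri : J → ι} {q : J → ℂ} (hq : ∀ j, dist (q j) (c (ri j)) = 1)
    {Wu : Set (Set ((ι × Fin 6) × Λ))} {Wn : J × Fin 6 → Set (Set ((ι × Fin 6) × Λ))}
    (hC : Cert C0 cls (AdmM Wu Wn (∅ : Set (J × Fin 6))))
    (hloc : ∀ x : J × Fin 6, ∀ w ∈ Wn x, ∀ h h', Legal C0 h → Legal C0 h' →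
      w ⊆ atoms (pairW h h') → h (ri x.1, x.2) ≠ h' (ri x.1, x.2))
    (hA : ∀ t, AdmM Wu Wn (nm c ri q t : Set (J × Fin 6)) (palS (posX c F) t)) {a0 b0 : ℝ}
    (hab : a0 < b0) :
    ∃ a, a0 < a ∧ a < b0 ∧ nm c ri q a = ∅ ∧ ∃ κ : J → Fin 6, ∃ τ : J → ℝ,
      (∀ j, a < τ j ∧ τ j < a + 1 ∧ pos c (ri j, κ j) (τ j) = q j) ∧
      ∃ s, Sel (posX c F) a s ∧ Legal (Conf c col) s ∧
        TPath τ (fun N : Set J => MoveR C0 cls Wu Wn ((fun j => (j, κ j)) '' N)) univ
          (cls s) (cls (rot s)) := by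
  obtain ⟨a, h1, h2, h3, κ, τ, h4, s, h5, h6, hp⟩ := R.no_path_J h hC0 (cls := cls) hC hq
      (fun t ht => by
      have := hA t
      rw [ht, Finset.coe_empty] at this
      exact this) (Adm := fun M W _ _ => AdmM Wu Wn (M : Set (J × Fin 6)) W)
      (fun t _ _ _ _ _ => hA t) hab
  refine ⟨a, h1, h2, h3, κ, τ, h4, s, h5, h6, ?_⟩
  rw [← Finset.coe_univ]
  refine tpath_of_npath (fun S x y hR => ?_) hp
  obtain ⟨W, k, k', hW, h1, l1, h2, l2, rfl, rfl⟩ := hR
  have hW' : AdmM Wu Wn ((fun j => (j, κ j)) '' (S : Set J)) W := by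
    have e : (((S.image fun j => (j, κ j)) : Finset (J × Fin 6)) : Set (J × Fin 6)) =
        (fun j => (j, κ j)) '' (S : Set J) := Finset.coe_image
    rw [← e]
    exact hW
  exact lpath_pull (lpath_of_pair hC (fun x => (ri x.1, x.2)) hloc hW' h1 l1 h2 l2) rfl
    fun a b hab => (Prod.mk.inj hab).1

end Vale.Agent.P032.S5.H767
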