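import Vale.Agent.P032.R2.H137.Slots

/-!
# P032: classes of the gaps from the closure check

`WAbs E W0 V`: no window of the list `W0` is in the palettes `V`.  `gap_cert`: the closure check with the leaf
test `cls c' = cls c` gives a certificate for the palettes without windows.  `enc6 m`: numbers of the
positions of one ring.
-/

set_option autoImplicit false

open Set Filter Topology Metric

noncomputable section

namespace Vale.Agent.P032.S5.H767

open Vale.Agent.P032.Six Vale.Agent.P032.Words Vale.Agent.P032.R2.H741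

/-- no window of the list -/
def WAbs {P Λ : Type} {n m : ℕ} (E : Enc P Λ n m) (W0 : List (List Atom)) (V : P → Set Λ) : Prop :=
  ∀ w ∈ W0, ¬ ∀ x ∈ w, E.At V x

theorem wabs_anti {P Λ : Type} {n m : ℕ} (E : Enc P Λ n m) (W0 : List (List Atom)) :
    Anti (WAbs E W0) := fun _ _ h hW w hw hx => hW w hw fun x hx' => h _ (hx x hx')

/-- **Classes of a gap.** -/
theorem gap_cert {P Λ : Type} [Finite P] {D : Clo} {X : Clo.Text} (A : Clo.Agree D X)
    (E : Enc P Λ D.n D.m) {cls : ℕ → ℕ}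
    (hc : Clo.Chk D (fun _ c c' => Nat.beq (cls c') (cls c))) :
    Cert (tconf E X) (fun h => cls (E.code h)) (WAbs E X.W) := by
  classical
  refine cert_of_moves_pair (wabs_anti E X.W) fun S h h' M hA => ?_
  obtain ⟨p, hg⟩ := clo_gen A E M
  have hN : Clo.NoWin D (E.sel h) (E.sel h') := by
    intro w hw he
    rw [A.wins, List.mem_map] at hw
    obtain ⟨w', hw', rfl⟩ := hw
    refine hA w' hw' ?_
    exact Enc.wset_sub.1 ((land_msk_iff E (A.wb w' hw')).1 he)
  have h1 := hc _ _ p (clo_leg A E M.leg) (clo_leg A E M.leg') hN hg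
  exact (Nat.eq_of_beq_eq_true h1).symm

/-- the same for any class function which is a function of the class of the table -/
theorem gap_cert_map {P Λ γ : Type} [Finite P] {D : Clo} {X : Clo.Text} (A : Clo.Agree D X)
    (E : Enc P Λ D.n D.m) {cls : ℕ → ℕ}
    (hc : Clo.Chk D (fun _ c c' => Nat.beq (cls c') (cls c))) (f : ℕ → γ) :
    Cert (tconf E X) (fun h => f (cls (E.code h))) (WAbs E X.W) :=
  fun W hW h h' a b c d => congrArg f (gap_cert A E hc W hW h h' a b c d)

/-- numbers of the positions of one ring -/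
def enc6 (m' : ℕ) [NeZero m'] {n m : ℕ} (hn : n = 6) (hm : m = m') : Enc (Fin 6) (Fin m') n m where
  ix p := p.val
  ps q := ⟨q % 6, Nat.mod_lt _ (by norm_num)⟩
  lx l := l.val
  lt a := ⟨a % m', Nat.mod_lt _ (Nat.pos_of_ne_zero (NeZero.ne m'))⟩
  ix_lt p := by
    have h2 := p.isLt
    omega
  ps_ix p := by
    apply Fin.ext
    exact Nat.mod_eq_of_lt p.isLt
  ix_ps q hq := by
    show q % 6 = q
    omega
  lx_lt l := by rw [hm]; exact l.isLt
  lt_lx l := by
    apply Fin.ext
    exact Nat.mod_eq_of_lt l.isLt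
  lx_lt' a ha := by
    subst hm
    exact Nat.mod_eq_of_lt ha

/-- the window `w` of one ring turned by `p` -/
def sh6 (p : ℕ) (w : List Atom) : List Atom := w.map fun x => ((x.1 + p) % 6, x.2)

/-- every window of the list is a turned base window -/
def Base6 (W B : List (List Atom)) : Prop := ∀ w ∈ W, ∃ p < 6, ∃ w0 ∈ B, w = sh6 p w0

instance (W B : List (List Atom)) : Decidable (Base6 W B) := by unfold Base6; infer_instance

/-- the letter `x.2` at the angle `u + x.1` of the circle of `z` -/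
def At6 {m' : ℕ} [NeZero m'] (z : ℂ) (F : Fin m' → Set ℂ) (u : ℝ) (x : Atom) : Prop :=
  pt z (u + (x.1 : ℝ)) ∈ F ⟨x.2 % m', Nat.mod_lt _ (Nat.pos_of_ne_zero (NeZero.ne m'))⟩

theorem pt_mod6 (z : ℂ) (u : ℝ) (a : ℕ) : pt z (u + ((a % 6 : ℕ) : ℝ)) = pt z (u + (a : ℝ)) := by
  obtain ⟨q, b, hb, rfl⟩ : ∃ q b : ℕ, b < 6 ∧ a = b + 6 * q :=
    ⟨a / 6, a % 6, Nat.mod_lt _ (by norm_num), (Nat.mod_add_div a 6).symm⟩
  have e1 : (b + 6 * q) % 6 = b := by omega
  have e2 : u + ((b + 6 * q : ℕ) : ℝ) = (u + (b : ℝ)) + 6 * ((q : ℤ) : ℝ) := by push_cast; ring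
  rw [e1, e2, pt_add_int137]

/-- **Base windows.**  If no base window is on the circle at any angle, then the palettes of the ring at the
time `u` have no window of the list. -/
theorem wabs_of_base {ι : Type} {m' : ℕ} [NeZero m'] {n m : ℕ} (hn : n = 6) (hm : m = m')
    {c : ι → ℂ} {F : ι → Fin m' → Set ℂ} {i : ι} {u : ℝ} {W B : List (List Atom)} (hB : Base6 W B)
    (h : ∀ w ∈ B, ∀ p : ℕ, p < 6 → ¬ ∀ x ∈ w, At6 (c i) (F i) (u + (p : ℝ)) x) :
    WAbs (enc6 m' hn hm) W (fun k => palS (posX c F) u (i, k)) := by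
  intro w hw hx
  obtain ⟨p, hp, w0, hw0, rfl⟩ := hB w hw
  refine h w0 hw0 p hp fun x hx' => ?_
  have h1 := hx ((x.1 + p) % 6, x.2) (List.mem_map.2 ⟨x, hx', rfl⟩)
  have h2 : pt (c i) (u + (((x.1 + p) % 6 % 6 : ℕ) : ℝ)) ∈ F i ⟨x.2 % m', _⟩ := h1
  rw [pt_mod6, pt_mod6] at h2
  have e : u + ((x.1 + p : ℕ) : ℝ) = u + (p : ℝ) + (x.1 : ℝ) := by push_cast; ring
  rw [e] at h2
  exact h2

end Vale.Agent.P032.S5.H767
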