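import Vale.Agent.P032.S5.H11.TopD
import Vale.Agent.P032.S5.H358.NoSpec

/-!
# P032: the world with harmless contacts only

`HCon T z P y`: `T y = P ∪ (T z)ᶜ`, the palettes of `S(y)` inside `T y` contain `P`, no exact `P`-arcs of
`S(z)` accumulate at `y`.  If the four-coloured points on the circle of every two-pair point
`z = ab | cd` are harmless contacts (`HCon` with `{a, b}` or `{c, d}`) and contacts of the two kinds are
never at distance one, a maximal family with at most four colours at every point is impossible.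
-/

set_option autoImplicit false

open Set Filter Topology Metric

noncomputable section

namespace Vale.Agent.P032.Six

open Vale.Agent.P032.S5 Vale.Agent.P032.S5.H358

variable {U : Fin 6 → Set ℂ} {T : ℂ → Set (Fin 6)}

/-- **All two-pair points good**: impossible -/
theorem Irr.good_world (h : Irr U T) (hmin : Mn U T) (h4 : ∀ z, (T z).ncard ≤ 4)
    (hG : ∀ z a b c d, DPt T z a b c d → Good U T z) : False := by
  have hD := no_D_of_good h h4 hG
  have hA : AllHarm T := fun z hz => by
    have hz4 : (T z).ncard = 4 := le_antisymm (h4 z) hz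
    exact h.harm_of_noD hmin hz4 (h.exists_inside hz4 fun y _ => h4 y) (hD z)
  exact h.hC hmin hA (h.noStar hmin h4 hA)

/-- a harmless contact with the pair `P` -/
structure HCon (T : ℂ → Set (Fin 6)) (z : ℂ) (P : Set (Fin 6)) (y : ℂ) : Prop where
  pal : T y = P ∪ (T z)ᶜ
  h1 : ∀ w, dist w y = 1 → T w ⊆ T y → P ⊆ T w
  acc : y ∉ closure (H767.Ex T z P)

theorem Harm.hcon {z y : ℂ} {P : Set (Fin 6)} (h : Harm T y P) (hp : T y = P ∪ (T z)ᶜ)
    (ha : y ∉ closure (H767.Ex T z P)) : HCon T z P y := ⟨hp, h.h1, ha⟩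

/-- **Harmless contacts only**: impossible -/
theorem Irr.harm_world (h : Irr U T) (hmin : Mn U T) (h4 : ∀ z, (T z).ncard ≤ 4)
    (hc : ∀ z a b c d, DPt T z a b c d → ∀ y, dist y z = 1 → (T y).ncard = 4 →
      HCon T z {a, b} y ∨ HCon T z {c, d} y)
    (hs : ∀ z a b c d, DPt T z a b c d → ∀ y y', dist y z = 1 → dist y' z = 1 → dist y y' = 1 →
      HCon T z {a, b} y → ¬ HCon T z {c, d} y') : False := by
  refine h.good_world hmin h4 fun z a b c d hz => ?_
  obtain ⟨e, f, nd⟩ : ∃ e f : Fin 6, [a, b, c, d, e, f].Nodup := by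
    have h1 : ((T z)ᶜ).ncard = 2 := by
      have h2 := Set.ncard_add_ncard_compl (T z)
      have h3 : (T z).ncard = 4 := by
        refine le_antisymm (h4 z) ?_
        exact H767.four_le (p := a) (q := b) (r := c) (t := d) (by rw [hz.pal]; simp)
          (by rw [hz.pal]; simp) (by rw [hz.pal]; simp) (by rw [hz.pal]; simp)
          (by simp [hz.ab, hz.ac, hz.ad, hz.bc, hz.bd, hz.cd])
      rw [Nat.card_eq_fintype_card, Fintype.card_fin, h3] at h2
      omega
    obtain ⟨e, f, hef, h3⟩ := Set.ncard_eq_two.1 h1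
    have he : e ∉ T z := by
      have : e ∈ (T z)ᶜ := by rw [h3]; simp
      exact this
    have hf : f ∉ T z := by
      have : f ∈ (T z)ᶜ := by rw [h3]; simp
      exact this
    rw [hz.pal] at he hf
    simp only [mem_insert_iff, mem_singleton_iff, not_or] at he hf
    refine ⟨e, f, ?_⟩
    have := hz.ab; have := hz.cd; have := hz.ac; have := hz.ad; have := hz.bc; have := hz.bd
    simp only [List.nodup_cons, List.mem_cons, List.not_mem_nil, or_false, not_or,
      List.nodup_nil, and_true, not_false_eq_true]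
    refine ⟨⟨hz.ab, hz.ac, hz.ad, Ne.symm he.1, Ne.symm hf.1⟩,
      ⟨hz.bc, hz.bd, Ne.symm he.2.1, Ne.symm hf.2.1⟩, ⟨hz.cd, Ne.symm he.2.2.1, Ne.symm hf.2.2.1⟩,
      ⟨Ne.symm he.2.2.2, Ne.symm hf.2.2.2⟩, hef⟩
  have C := ctr_of_dpt h hz nd
  have C' := C.swapAC
  have ef : (T z)ᶜ = {e, f} := (ef_eq C).symm
  have conv : ∀ {p q : Fin 6} {y : ℂ}, HCon T z {p, q} y → H767.Hx T z p q e f y := by
    intro p q y hy
    refine ⟨?_, hy.h1, hy.acc⟩
    rw [hy.pal, ef]
    exact (four_eq p q e f).symm
  have back : ∀ {p q : Fin 6} {y : ℂ}, H767.Hx T z p q e f y → HCon T z {p, q} y := by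
    intro p q y hy
    refine ⟨?_, hy.2.1, hy.2.2⟩
    rw [hy.1, ef]
    exact four_eq p q e f
  refine good_of_adm h hz nd ⟨fun y hy => ?_, fun y y' hy hy' hyy h1 h2 => ?_⟩
  · by_cases h3 : (T y).ncard ≤ 3
    · exact Or.inl h3
    · have h5 := h4 y
      rcases hc z a b c d hz y hy (by omega) with h6 | h6
      · exact Or.inr (Or.inl (conv h6))
      · exact Or.inr (Or.inr (conv h6))
  · exact hs z a b c d hz y y' hy hy' hyy (back h1) (back h2)

end Vale.Agent.P032.Six
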