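import Vale.Agent.P032.R2.H137.Slots

/-!
# P032: induction in time

`Sys.induct`: an invariant `I m k` (`m`: memory, a function of the time with one-sided limits; `k`: a legal
selection) which is kept at every time from the limits from the left to the limits from the right holds on
the whole interval.  No finiteness of the number of events.  `Rings.no_period`: one period of coupled
rings.
-/

set_option autoImplicit false

open Set Filter Topology Metric

noncomputable section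

namespace Vale.Agent.P032.S5.H767

open Vale.Agent.P032.Six Vale.Agent.P032.Words

variable {P Λ M : Type}

/-- the value of `μ` just before `u` -/
def MemL (μ : ℝ → M) (u : ℝ) (m : M) : Prop := ∀ᶠ v in 𝓝[<] u, μ v = m

/-- the value of `μ` just after `u` -/
def MemR (μ : ℝ → M) (u : ℝ) (m : M) : Prop := ∀ᶠ v in 𝓝[>] u, μ v = m

/-- `μ` has one-sided limits -/
def Reg (μ : ℝ → M) : Prop := ∀ u, (∃ m, MemL μ u m) ∧ ∃ m, MemR μ u m

theorem memL_iff {μ : ℝ → M} {u : ℝ} {m : M} : MemL μ u m ↔ ∃ a < u, ∀ v, a < v → v < u → μ v = m := by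
  unfold MemL
  rw [Filter.Eventually, mem_nhdsLT_iff_exists_Ioo_subset]
  exact ⟨fun ⟨a, h1, h2⟩ => ⟨a, h1, fun v h3 h4 => h2 ⟨h3, h4⟩⟩,
    fun ⟨a, h1, h2⟩ => ⟨a, h1, fun v h3 => h2 v h3.1 h3.2⟩⟩

theorem memR_iff {μ : ℝ → M} {u : ℝ} {m : M} : MemR μ u m ↔ ∃ b > u, ∀ v, u < v → v < b → μ v = m := by
  unfold MemR
  rw [Filter.Eventually, mem_nhdsGT_iff_exists_Ioo_subset]
  exact ⟨fun ⟨a, h1, h2⟩ => ⟨a, h1, fun v h3 h4 => h2 ⟨h3, h4⟩⟩,
    fun ⟨a, h1, h2⟩ => ⟨a, h1, fun v h3 => h2 v h3.1 h3.2⟩⟩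

theorem MemL.unique {μ : ℝ → M} {u : ℝ} {m m' : M} (h : MemL μ u m) (h' : MemL μ u m') : m = m' := by
  obtain ⟨v, h1, h2⟩ := (h.and h').exists
  exact h1.symm.trans h2

theorem MemR.unique {μ : ℝ → M} {u : ℝ} {m m' : M} (h : MemR μ u m) (h' : MemR μ u m') : m = m' := by
  obtain ⟨v, h1, h2⟩ := (h.and h').exists
  exact h1.symm.trans h2

section
variable [Finite P] [Finite Λ] {X : P → Λ → Set ℝ} {C : P → Λ → P → Λ → Prop} {G : Set ℝ}

/-- near `u` on the right every generic selection is a limit from the right at `u` -/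
theorem near_limR (X : P → Λ → Set ℝ) (G : Set ℝ) (u : ℝ) :
    ∃ b > u, ∀ v, u < v → v < b → v ∈ G ∩ GenS X → ∀ k, Sel X v k → LimR X G u k := by
  have h1 : ∀ᶠ v in 𝓝[>] u, ∀ k : P → Λ, v ∈ G ∩ GenS X ∧ Sel X v k → LimR X G u k := by
    rw [eventually_all]
    intro k
    by_cases hk : LimR X G u k
    · exact Eventually.of_forall fun _ _ => hk
    · have h2 : ∀ᶠ v in 𝓝[>] u, ¬ (v ∈ G ∩ GenS X ∧ Sel X v k) := not_frequently.1 hk
      exact h2.mono fun v hv hv' => absurd hv' hv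
  rw [Filter.Eventually, mem_nhdsGT_iff_exists_Ioo_subset] at h1
  obtain ⟨b, hb, h2⟩ := h1
  exact ⟨b, hb, fun v h3 h4 h5 k h6 => h2 ⟨h3, h4⟩ k ⟨h5, h6⟩⟩

/-- **Induction in time.** -/
theorem sys_induct (S : Sys X C G) {μ : ℝ → M} (hμ : Reg μ) {I : M → (P → Λ) → Prop} {a b : ℝ}
    (hab : a < b) (h0 : ∀ K m, LimR X G a K → MemR μ a m → I m K)
    (hstep : ∀ u, a < u → u < b → ∀ L K m m', LimL X G u L → LimR X G u K → MemL μ u m →
      MemR μ u m' → I m L → I m' K) :
    ∀ L m, LimL X G b L → MemL μ b m → I m L := by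
  classical
  -- the two predicates
  let PL : ℝ → Prop := fun v => ∀ L m, LimL X G v L → MemL μ v m → I m L
  let QR : ℝ → Prop := fun v => ∀ K m, LimR X G v K → MemR μ v m → I m K
  have hPQ : ∀ u, a < u → u < b → PL u → QR u := by
    intro u h1 h2 hP K m' hK hm'
    obtain ⟨L, -, -, hL⟩ := S.exists_limL u
    obtain ⟨m, hm⟩ := (hμ u).1
    exact hstep u h1 h2 L K m m' hL hK hm hm' (hP L m hL hm)
  have hQ : ∀ u, QR u → ∃ c > u, ∀ v, u < v → v < c → PL v ∧ QR v := by
    intro u hQu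
    obtain ⟨m', hm'⟩ := (hμ u).2
    obtain ⟨c1, hc1, hc1'⟩ := memR_iff.1 hm'
    obtain ⟨c2, hc2, hc2'⟩ := near_limR X G u
    have key : ∀ v, u < v → v < c1 → v < c2 → v ∈ G ∩ GenS X → ∀ k, Sel X v k → I m' k :=
      fun v h1 h2 h3 h4 k h5 => hQu k m' (hc2' v h1 h3 h4 k h5) hm'
    refine ⟨min c1 c2, lt_min hc1 hc2, fun v h1 h2 => ⟨?_, ?_⟩⟩
    · intro L m hL hm
      obtain ⟨x, hx1, hx2, hx3, hx4⟩ := limL_near137 hL h1
      have h3 : m = m' := by
        refine hm.unique (memL_iff.2 ⟨u, h1, fun y h4 h5 => hc1' y h4 ?_⟩)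
        exact (h5.trans h2).trans_le (min_le_left _ _)
      rw [h3]
      exact key x hx1 ((hx2.trans h2).trans_le (min_le_left _ _))
        ((hx2.trans h2).trans_le (min_le_right _ _)) hx3 L hx4
    · intro K m hK hm
      obtain ⟨x, hx1, hx2, hx3, hx4⟩ := limR_near137 hK h2
      have h3 : m = m' := by
        refine hm.unique (memR_iff.2 ⟨min c1 c2, h2, fun y h4 h5 => hc1' y (h1.trans h4) ?_⟩)
        exact h5.trans_le (min_le_left _ _)
      rw [h3]
      exact key x (h1.trans hx1) (hx2.trans_le (min_le_left _ _))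
        (hx2.trans_le (min_le_right _ _)) hx3 K hx4
  have hcl : ∀ t, a < t → (∀ v, a < v → v < t → QR v) → PL t := by
    intro t h1 h2 L m hL hm
    obtain ⟨c, hc, hc'⟩ := memL_iff.1 hm
    obtain ⟨x, hx1, hx2, hx3, hx4⟩ := limL_near137 hL (max_lt hc h1)
    refine h2 x ((le_max_right _ _).trans_lt hx1) hx2 L m (sys_lim_of_gen S hx3 hx4).2 ?_
    exact memR_iff.2 ⟨t, hx2, fun y h3 h4 => hc' y (((le_max_left _ _).trans_lt hx1).trans h3) h4⟩
  -- the supremum
  let A : Set ℝ := {t | a ≤ t ∧ t ≤ b ∧ ∀ v, a < v → v < t → PL v ∧ QR v}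
  have haA : a ∈ A := ⟨le_rfl, hab.le, fun v h1 h2 => absurd h1 (not_lt.2 h2.le)⟩
  have hbd : BddAbove A := ⟨b, fun t ht => ht.2.1⟩
  have hs1 : a ≤ sSup A := le_csSup hbd haA
  have hs2 : sSup A ≤ b := csSup_le ⟨a, haA⟩ fun t ht => ht.2.1
  have hs3 : ∀ v, a < v → v < sSup A → PL v ∧ QR v := by
    intro v h1 h2
    obtain ⟨t, ht, h3⟩ := exists_lt_of_lt_csSup ⟨a, haA⟩ h2
    exact ht.2.2 v h1 h3
  have hs4 : sSup A = b := by
    by_contra hne
    have hlt : sSup A < b := lt_of_le_of_ne hs2 hne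
    have hQs : QR (sSup A) ∧ (a < sSup A → PL (sSup A)) := by
      rcases eq_or_lt_of_le hs1 with he | he
      · rw [← he]
        exact ⟨h0, fun h => absurd h (lt_irrefl _)⟩
      · have hP := hcl _ he fun v h1 h2 => (hs3 v h1 h2).2
        exact ⟨hPQ _ he hlt hP, fun _ => hP⟩
    obtain ⟨c, hc, hc'⟩ := hQ _ hQs.1
    have hmem : min ((sSup A + c) / 2) b ∈ A := by
      refine ⟨?_, min_le_right _ _, fun v h1 h2 => ?_⟩
      · exact le_min (by linarith) hab.le
      · rcases lt_trichotomy v (sSup A) with h3 | h3 | h3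
        · exact hs3 v h1 h3
        · rw [h3]
          exact ⟨hQs.2 (by rw [← h3]; exact h1), hQs.1⟩
        · exact hc' v h3 (by linarith [h2.trans_le (min_le_left _ _)])
    have h5 := le_csSup hbd hmem
    have h6 : sSup A < min ((sSup A + c) / 2) b := lt_min (by linarith) hlt
    exact absurd h5 (not_le.2 h6)
  exact hcl b hab fun v h1 h2 => (hs3 v h1 (by rw [hs4]; exact h2)).2

end

/-! ## One period -/

variable {U : Fin 6 → Set ℂ} {T : ℂ → Set (Fin 6)} {ι : Type}

theorem good_add_one {c : ι → ℂ} {t : ℝ} (ht : t ∈ Good c) : t + 1 ∈ Good c := by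
  intro i i' k hd
  have h1 := ht i i' (k + 1) hd
  have e : pt (c i) (t + 1 + (k.val : ℝ)) = pt (c i) (t + ((k + 1 : Fin 6).val : ℝ)) :=
    pos_add_one c (i, k) t
  rw [e]
  exact h1

theorem gen_add_one {c : ι → ℂ} {F : ι → Λ → Set ℂ} {t : ℝ} (ht : t ∈ GenS (posX c F)) :
    t + 1 ∈ GenS (posX c F) := by
  rintro p l hl
  have h1 : t ∈ posX c F (p.1, p.2 + 1) l := by
    have h2 : pos c p (t + 1) ∈ F p.1 l := hl
    rw [pos_add_one] at h2
    exact h2
  have h3 := ht _ _ h1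
  have h4 : Tendsto (fun v : ℝ => v - 1) (𝓝 (t + 1)) (𝓝 t) := by
    have : Continuous fun v : ℝ => v - 1 := by fun_prop
    have h5 := this.tendsto (t + 1)
    simpa using h5
  filter_upwards [h4.eventually h3] with v hv
  have h6 : pos c (p.1, p.2 + 1) (v - 1) ∈ F p.1 l := hv
  rw [← pos_add_one] at h6
  have h7 : pos c p v ∈ F p.1 l := by simpa using h6
  exact h7

/-- the limits from the left are periodic -/
theorem limL_add_one {c : ι → ℂ} {F : ι → Λ → Set ℂ} {t : ℝ} {L : ι × Fin 6 → Λ}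
    (h : LimL (posX c F) (Good c) t L) : LimL (posX c F) (Good c) (t + 1) (rot L) := by
  have h1 : Tendsto (fun v : ℝ => v + 1) (𝓝[<] t) (𝓝[<] (t + 1)) := by
    refine tendsto_nhdsWithin_iff.2 ⟨?_, ?_⟩
    · have : Continuous fun v : ℝ => v + 1 := by fun_prop
      exact (this.tendsto t).mono_left nhdsWithin_le_nhds
    · filter_upwards [self_mem_nhdsWithin] with v hv
      have hv' : v < t := hv
      show v + 1 < t + 1
      linarith
  have h2 : ∃ᶠ v in 𝓝[<] t, v + 1 ∈ Good c ∩ GenS (posX c F) ∧ Sel (posX c F) (v + 1) (rot L) :=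
    h.mono fun v hv => ⟨⟨good_add_one hv.1.1, gen_add_one hv.1.2⟩, sel_rot hv.2⟩
  exact h1.frequently h2

/-- **No period.**  `L0`: a limit from the left at the anchor time `t0`; the invariant `I` may depend on
it. -/
theorem Rings.no_period [Finite ι] [Finite Λ] {c : ι → ℂ} {col : ι → Λ → Set (Fin 6)}
    {F : ι → Λ → Set ℂ} (h : Irr U T) (R : Rings T c col F) {t0 : ℝ} {L0 : ι × Fin 6 → Λ}
    (hL0 : LimL (posX c F) (Good c) t0 L0) {μ : ℝ → M} (hμ : Reg μ)
    {I : M → (ι × Fin 6 → Λ) → Prop}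
    (h0 : ∀ K m, LimR (posX c F) (Good c) t0 K → MemR μ t0 m → I m K)
    (hstep : ∀ u, t0 < u → u < t0 + 1 → ∀ L K m m', LimL (posX c F) (Good c) u L →
      LimR (posX c F) (Good c) u K → MemL μ u m → MemR μ u m' → I m L → I m' K)
    (hend : ∀ m, MemL μ (t0 + 1) m → ¬ I m (rot L0)) : False := by
  obtain ⟨m, hm⟩ := (hμ (t0 + 1)).1
  exact hend m hm (sys_induct (R.sys h) hμ (by linarith) h0 hstep _ m (limL_add_one hL0) hm)

/-! ## Memories -/

/-- the memory `something of `E` happened in `[t0, v)`` ... a monotone bit -/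
theorem reg_mono {f : ℝ → Prop} (hf : ∀ u v, u ≤ v → f u → f v) : Reg f := by
  intro u
  constructor
  · by_cases h : ∃ v < u, f v
    · obtain ⟨v, h1, h2⟩ := h
      exact ⟨True, memL_iff.2 ⟨v, h1, fun w h3 _ => propext (iff_of_true (hf v w h3.le h2) trivial)⟩⟩
    · push Not at h
      exact ⟨False, memL_iff.2 ⟨u - 1, by linarith, fun w _ h4 => propext (iff_of_false (h w h4) id)⟩⟩
  · by_cases h : ∃ v > u, ¬ f v
    · obtain ⟨v, h1, h2⟩ := h
      exact ⟨False, memR_iff.2 ⟨v, h1, fun w _ h4 =>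
        propext (iff_of_false (fun h5 => h2 (hf w v h4.le h5)) id)⟩⟩
    · push Not at h
      exact ⟨True, memR_iff.2 ⟨u + 1, by linarith, fun w h3 _ =>
        propext (iff_of_true (h w h3) trivial)⟩⟩

/-- finitely many memories -/
theorem reg_pi {J : Type} [Finite J] {μ : ℝ → J → M} (h : ∀ j, Reg fun v => μ v j) : Reg μ := by
  intro u
  constructor
  · choose m hm using fun j => (h j u).1
    refine ⟨m, ?_⟩
    have := eventually_all.2 hm
    filter_upwards [this] with v hv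
    exact funext hv
  · choose m hm using fun j => (h j u).2
    refine ⟨m, ?_⟩
    have := eventually_all.2 hm
    filter_upwards [this] with v hv
    exact funext hv

theorem reg_prod {M' : Type} {μ : ℝ → M} {ν : ℝ → M'} (h : Reg μ) (h' : Reg ν) :
    Reg fun v => (μ v, ν v) := by
  intro u
  obtain ⟨⟨m, hm⟩, m', hm'⟩ := h u
  obtain ⟨⟨n, hn⟩, n', hn'⟩ := h' u
  constructor
  · refine ⟨(m, n), ?_⟩
    filter_upwards [hm, hn] with v h1 h2
    rw [h1, h2]
  · refine ⟨(m', n'), ?_⟩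
    filter_upwards [hm', hn'] with v h1 h2
    rw [h1, h2]

theorem reg_map {M' : Type} {μ : ℝ → M} (h : Reg μ) (f : M → M') : Reg fun v => f (μ v) := by
  intro u
  obtain ⟨⟨m, hm⟩, m', hm'⟩ := h u
  constructor
  · refine ⟨f m, ?_⟩
    filter_upwards [hm] with v h1
    rw [h1]
  · refine ⟨f m', ?_⟩
    filter_upwards [hm'] with v h1
    rw [h1]

end Vale.Agent.P032.S5.H767
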