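import Vale.Agent.P032.R2.H137.Slots

/-!
# P032: inductive invariants along slots and gaps

`I D k`: predicate of the selection `k`; `D`: the set of the named points which are passed.  In the gaps
`I D` is constant under pairs of legal selections of one admissible palette system (`Cert` with the class
function `k ↦ (D ↦ I D k)`); at a slot with the named points `S` one has `I D k → I (D ∪ S) k'`.  Then `I`
holds along the period.
-/

set_option autoImplicit false

open Set Filter Topology Metric

noncomputable section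

namespace Vale.Agent.P032.S5.H767

open Vale.Agent.P032.Six Vale.Agent.P032.Words

variable {U : Fin 6 → Set ℂ} {T : ℂ → Set (Fin 6)} {ι Λ J : Type}

/-- one-sided invariants: enough for a gap certificate when the admissible systems are symmetric -/
theorem cert_of_inv {P K : Type} {C : P → Λ → P → Λ → Prop} {Adm : (P → Set Λ) → Prop}
    {I : K → (P → Λ) → Prop}
    (h : ∀ W, Adm W → ∀ k k', SelW W k → Legal C k → SelW W k' → Legal C k' →
      ∀ D, I D k → I D k') : Cert C (fun k D => I D k) Adm := by
  intro W hW k k' h1 h2 h3 h4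
  funext D
  exact propext ⟨h W hW k k' h1 h2 h3 h4 D, h W hW k' k h3 h4 h1 h2 D⟩

/-- the named points of the slots before `s` -/
def passed [Fintype J] (σ : J → ℕ) (s : ℕ) : Finset J := by
  classical exact Finset.univ.filter fun j => σ j < s

theorem mem_passed [Fintype J] {σ : J → ℕ} {s : ℕ} {j : J} : j ∈ passed σ s ↔ σ j < s := by
  classical
  unfold passed
  simp

/-- **Invariants along the slots.** -/
theorem inv_slots [Fintype J] {P : Type} {M : ℕ} {σ : J → ℕ} (hσ : ∀ j, σ j < M)
    {w : ℕ → P → Λ} {I : Finset J → (P → Λ) → Prop} (h0 : I ∅ (w 0))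
    (hslot : ∀ s < M, I (passed σ s) (w (2 * s)) → I (passed σ (s + 1)) (w (2 * s + 1)))
    (hgap : ∀ s < M, (fun D => I D (w (2 * s + 1))) = fun D => I D (w (2 * s + 2))) :
    I Finset.univ (w (2 * M)) := by
  classical
  have key : ∀ s ≤ M, I (passed σ s) (w (2 * s)) := by
    intro s
    induction s with
    | zero =>
      intro _
      have e : passed σ 0 = ∅ := by
        ext j
        rw [mem_passed]
        simp
      rw [e]
      exact h0
    | succ s ih =>
      intro hs
      have h1 := hslot s (by omega) (ih (by omega))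
      have h2 := congrFun (hgap s (by omega)) (passed σ (s + 1))
      rw [show 2 * (s + 1) = 2 * s + 2 by ring]
      exact (eq_iff_iff.1 h2).1 h1
  have h3 := key M le_rfl
  have e : passed σ M = Finset.univ := by
    ext j
    rw [mem_passed]
    simp [hσ j]
  rwa [e] at h3

/-- **Invariants of coupled rings with named points.**  There are slot times `t`, slots `σ`, directions
`κ` and jointly legal limits `w` with `w (2 M) = rot (w 0)`; if `I` holds at the start and is kept at the
slots then it holds at the end. -/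
theorem Rings.inv_named [Finite ι] [Finite Λ] [Fintype J] {c : ι → ℂ}
    {col : ι → Λ → Set (Fin 6)} {F : ι → Λ → Set ℂ} (h : Irr U T) (R : Rings T c col F)
    {C0 : ι × Fin 6 → Λ → ι × Fin 6 → Λ → Prop}
    (hC0 : ∀ p l p' l', C0 p l p' l' → Conf c col p l p' l')
    {Adm0 : (ι × Fin 6 → Set Λ) → Prop} {I : Finset J → (ι × Fin 6 → Λ) → (ι × Fin 6 → Λ) → Prop}
    (hI : ∀ w0, Cert C0 (fun k D => I D w0 k) Adm0)
    {ri : J → ι} {q : J → ℂ} (hq : ∀ j, dist (q j) (c (ri j)) = 1) (j0 : J) (k0 : Fin 6) {M : ℕ}
    (hM : Fintype.card J ≤ M)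
    (hA : ∀ u, (∀ j k, pos c (ri j, k) u ≠ q j) → Adm0 (palS (posX c F) u))
    (h0 : ∀ t, pos c (ri j0, k0) t = q j0 → ∀ k, LimL (posX c F) (Good c) t k → I ∅ k k)
    (hslot : ∀ t, (∃ j k, pos c (ri j, k) t = q j) → ∀ k k', LimL (posX c F) (Good c) t k →
      LimR (posX c F) (Good c) t k' → ∀ w0 D, I D w0 k → ∀ D', (∀ j, j ∈ D' ↔ j ∈ D ∨
        ∃ k, pos c (ri j, k) t = q j) → (∀ j ∈ D, ∀ k, pos c (ri j, k) t ≠ q j) → I D' w0 k')
    (hend : ∀ k, I Finset.univ k (rot k) → False) : False := by
  classical
  let cls : (ι × Fin 6 → Λ) → (ι × Fin 6 → Λ) × Finset J → Prop := fun k x => I x.2 x.1 k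
  have hC : Cert C0 cls Adm0 := by
    intro W hW k k' h1 h2 h3 h4
    funext x
    exact congrFun (hI x.1 W hW k k' h1 h2 h3 h4) x.2
  obtain ⟨t, σ, κ, H, e1, e2, w, w1, w2, w3, w4⟩ := R.slots_named h hC0 hC hq j0 k0 hM hA
  refine hend (w 0) ?_
  rw [← w4]
  refine inv_slots H.slot (I := fun D k => I D (w 0) k) ?_ ?_ ?_
  · refine h0 (t 0) ?_ _ ?_
    · rw [← e1, ← e2]
      exact H.meet j0
    · have := (w1 0 (lt_of_le_of_lt (Nat.zero_le _) (H.slot j0))).1
      rwa [Nat.mul_zero] at this
  · intro s hs hk
    by_cases hex : ∃ j, σ j = s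
    · obtain ⟨j, hj⟩ := hex
      refine hslot (t s) ⟨j, κ j, by rw [← hj]; exact H.meet j⟩ _ _ (w1 s hs).1 (w1 s hs).2 _ _ hk _
        (fun i => ?_) (fun i hi k e => ?_)
      · rw [mem_passed, mem_passed]
        constructor
        · intro hi
          rcases Nat.lt_succ_iff_lt_or_eq.1 hi with h5 | h5
          · exact Or.inl h5
          · exact Or.inr ⟨κ i, by rw [← h5]; exact H.meet i⟩
        · rintro (hi | ⟨k, hk⟩)
          · omega
          · have := (H.uniq i s k hs hk).1
            omega
      · rw [mem_passed] at hi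
        have := (H.uniq i s k hs e).1
        omega
    · push Not at hex
      have e5 := w2 s hs hex
      have e6 : passed σ (s + 1) = passed σ s := by
        ext i
        rw [mem_passed, mem_passed]
        have := hex i
        omega
      rw [← e5, e6]
      exact hk
  · intro s hs
    funext D
    exact congrFun (w3 s hs) (w 0, D)

end Vale.Agent.P032.S5.H767
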