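import Vale.Agent.P032.R2.H137.Close

/-!
# P032: the combinatorial form of a closed path

`J`: finitely many named points `q j` on the circles `ri j`.  `nm t`: the set of pairs `(j, k)` such that
at the time `t` the position `(ri j, k)` is at `q j`.  In one period every named point is met exactly
once.  `Rings.no_path_J`: for a starting time `a` in a given interval there are positions `κ j`, times
`τ j` and a legal selection `s` such that there is a path from the class of `s` to the class of its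
rotation, whose steps are the sets of named points with the same time, in the order of the times; a
step is a pair of legal selections from one palette system of the given type.
-/

open Set Filter Topology Metric

noncomputable section

namespace Vale.Agent.P032.S5.H767

open Vale.Agent.P032.Six Vale.Agent.P032.Words

/-- a path whose steps are nonempty sets of points with the same time, in the order of the times -/
inductive NPath {J γ : Type} [DecidableEq J] (τ : J → ℝ) (R : Finset J → γ → γ → Prop) :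
    Finset J → γ → γ → Prop
  | nil (x : γ) : NPath τ R ∅ x x
  | step {S A : Finset J} {u : ℝ} {x m y : γ} (hS : S.Nonempty) (hu : ∀ j ∈ S, τ j = u)
      (hA : ∀ j ∈ A, u < τ j) (h1 : R S x m) (h2 : NPath τ R A m y) : NPath τ R (S ∪ A) x y

theorem NPath.mono {J γ : Type} [DecidableEq J] {τ : J → ℝ} {R R' : Finset J → γ → γ → Prop}
    (h : ∀ S x y, R S x y → R' S x y) {A : Finset J} {x y : γ} (hp : NPath τ R A x y) :
    NPath τ R' A x y := by
  induction hp with
  | nil x => exact .nil x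
  | step hS hu hA h1 _ ih => exact .step hS hu hA (h _ _ _ h1) ih

/-- paths are mapped by maps of the classes -/
theorem NPath.map {J γ γ' : Type} [DecidableEq J] {τ : J → ℝ} {R : Finset J → γ → γ → Prop}
    {R' : Finset J → γ' → γ' → Prop} (f : γ → γ') (h : ∀ S x y, R S x y → R' S (f x) (f y))
    {A : Finset J} {x y : γ} (hp : NPath τ R A x y) : NPath τ R' A (f x) (f y) := by
  induction hp with
  | nil x => exact .nil _
  | step hS hu hA h1 _ ih => exact .step hS hu hA (h _ _ _ h1) ih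

theorem npath_of_chain {P Λ γ J : Type} [Fintype J] [DecidableEq J] {X : P → Λ → Set ℝ}
    {C : P → Λ → P → Λ → Prop} {cls : (P → Λ) → γ} {R : Finset J → γ → γ → Prop} (τ : J → ℝ) :
    ∀ {L : List ℝ} {x y : γ}, L.Pairwise (· < ·) → (∀ u ∈ L, ∃ j, τ j = u) →
      (∀ u ∈ L, ∀ x y, JumpAt X C cls u x y → R (Finset.univ.filter fun j => τ j = u) x y) →
      Chain X C cls L x y → NPath τ R (Finset.univ.filter fun j => τ j ∈ L) x y
  | [], x, y, _, _, _, h => by
    have e : (Finset.univ.filter fun j => τ j ∈ ([] : List ℝ)) = ∅ := by simp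
    rw [e, show x = y from h]
    exact .nil _
  | u :: L, x, y, hp, hL, hR, ⟨m, h1, h2⟩ => by
    have hmem : ∀ v ∈ L, u < v := (List.pairwise_cons.1 hp).1
    have e : (Finset.univ.filter fun j => τ j ∈ u :: L) =
        (Finset.univ.filter fun j => τ j = u) ∪ (Finset.univ.filter fun j => τ j ∈ L) := by
      ext j
      simp [List.mem_cons]
    rw [e]
    obtain ⟨j, hj⟩ := hL u (List.mem_cons_self ..)
    refine .step (u := u) ⟨j, by simpa using hj⟩ (fun i hi => ?_) (fun i hi => ?_)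
      (hR u (List.mem_cons_self ..) _ _ h1)
      (npath_of_chain τ (List.pairwise_cons.1 hp).2 (fun v hv => hL v (List.mem_cons_of_mem _ hv))
        (fun v hv => hR v (List.mem_cons_of_mem _ hv)) h2)
    · exact (Finset.mem_filter.1 hi).2
    · exact hmem _ (Finset.mem_filter.1 hi).2

theorem pt_add_int137 (z : ℂ) (u : ℝ) (n : ℤ) : pt z (u + 6 * (n : ℝ)) = pt z u := by
  induction n using Int.induction_on with
  | zero => simp
  | succ n ih =>
    have e : u + 6 * (((n : ℤ) + 1 : ℤ) : ℝ) = (u + 6 * ((n : ℤ) : ℝ)) + 6 := by push_cast; ring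
    rw [e, pt_six, ih]
  | pred n ih =>
    have e : u + 6 * ((-(n : ℤ) - 1 : ℤ) : ℝ) + 6 = u + 6 * ((-(n : ℤ) : ℤ) : ℝ) := by
      push_cast; ring
    rw [← pt_six, e, ih]

/-- every point of the circle is met in a period -/
theorem exists_meet {z q : ℂ} (hq : dist q z = 1) (a : ℝ) :
    ∃ u : ℝ, ∃ k : Fin 6, a ≤ u ∧ u < a + 1 ∧ pt z (u + (k.val : ℝ)) = q := by
  obtain ⟨t, ht⟩ := exists_cis (u := q - z) (by rw [← dist_eq_norm]; exact hq)
  have hp := Real.pi_pos
  have hv : pt z (t * (3 / Real.pi)) = q := by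
    unfold pt
    have e : t * (3 / Real.pi) * (Real.pi / 3) = t := by field_simp
    rw [e, ← ht]; ring
  set v : ℝ := t * (3 / Real.pi) with hvd
  refine ⟨a + Int.fract (v - a), ⟨(⌊v - a⌋ % 6).toNat, ?_⟩, ?_, ?_, ?_⟩
  · have h1 := Int.emod_lt_of_pos ⌊v - a⌋ (show (0 : ℤ) < 6 by norm_num)
    have h2 := Int.emod_nonneg ⌊v - a⌋ (show (6 : ℤ) ≠ 0 by norm_num)
    omega
  · linarith [Int.fract_nonneg (v - a)]
  · linarith [Int.fract_lt_one (v - a)]
  · have h2 := Int.emod_nonneg ⌊v - a⌋ (show (6 : ℤ) ≠ 0 by norm_num)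
    have e1 : (((⌊v - a⌋ % 6).toNat : ℕ) : ℝ) = ((⌊v - a⌋ % 6 : ℤ) : ℝ) := by
      have : (((⌊v - a⌋ % 6).toNat : ℕ) : ℤ) = ⌊v - a⌋ % 6 := Int.toNat_of_nonneg h2
      exact_mod_cast this
    have e2 : a + Int.fract (v - a) + (((⌊v - a⌋ % 6).toNat : ℕ) : ℝ) =
        v + 6 * ((-(⌊v - a⌋ / 6) : ℤ) : ℝ) := by
      rw [e1]
      have e3 : ((⌊v - a⌋ % 6 : ℤ) : ℝ) = (⌊v - a⌋ : ℝ) - 6 * ((⌊v - a⌋ / 6 : ℤ) : ℝ) := by
        have := Int.emod_add_mul_ediv ⌊v - a⌋ 6
        have e4 : (⌊v - a⌋ % 6 : ℤ) = ⌊v - a⌋ - 6 * (⌊v - a⌋ / 6) := by omega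
        rw [e4]; push_cast; ring
      rw [e3, Int.fract]
      push_cast; ring
    have e3 : (⟨(⌊v - a⌋ % 6).toNat, by
        have h1 := Int.emod_lt_of_pos ⌊v - a⌋ (show (0 : ℤ) < 6 by norm_num)
        omega⟩ : Fin 6).val = (⌊v - a⌋ % 6).toNat := rfl
    rw [e3, e2, pt_add_int137, hv]

/-- ... at one time and one position -/
theorem meet_unique {z : ℂ} {a u u' : ℝ} {k k' : Fin 6} (h1 : a ≤ u) (h2 : u < a + 1)
    (h1' : a ≤ u') (h2' : u' < a + 1) (h : pt z (u + (k.val : ℝ)) = pt z (u' + (k'.val : ℝ))) :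
    u = u' ∧ k = k' := by
  obtain ⟨n, hn⟩ := pt_int137 h
  have h3 : u' - u = ((k.val : ℤ) - (k'.val : ℤ) + 6 * n : ℤ) := by
    push_cast; linarith
  have h4 : ((k.val : ℤ) - (k'.val : ℤ) + 6 * n) = 0 := by
    have a1 : (((k.val : ℤ) - (k'.val : ℤ) + 6 * n : ℤ) : ℝ) < 1 := by rw [← h3]; linarith
    have a2 : (-1 : ℝ) < (((k.val : ℤ) - (k'.val : ℤ) + 6 * n : ℤ) : ℝ) := by
      rw [← h3]; linarith
    have b1 : ((k.val : ℤ) - (k'.val : ℤ) + 6 * n) < 1 := by exact_mod_cast a1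
    have b2 : -1 < ((k.val : ℤ) - (k'.val : ℤ) + 6 * n) := by exact_mod_cast a2
    omega
  rw [h4] at h3
  have h5 := k.isLt
  have h6 := k'.isLt
  refine ⟨?_, Fin.ext (by omega)⟩
  simp only [Int.cast_zero] at h3
  linarith

variable {U : Fin 6 → Set ℂ} {T : ℂ → Set (Fin 6)} {ι Λ J : Type}

open Classical in
/-- the named points at a time -/
def nm [Fintype J] (c : ι → ℂ) (ri : J → ι) (q : J → ℂ) (t : ℝ) : Finset (J × Fin 6) :=
  Finset.univ.filter fun x => pos c (ri x.1, x.2) t = q x.1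

theorem mem_nm [Fintype J] {c : ι → ℂ} {ri : J → ι} {q : J → ℂ} {t : ℝ} {x : J × Fin 6} :
    x ∈ nm c ri q t ↔ pos c (ri x.1, x.2) t = q x.1 := by
  unfold nm; simp

/-- `nm` is empty off the named times -/
theorem nm_empty [Fintype J] {c : ι → ℂ} {ri : J → ι} {q : J → ℂ} {t : ℝ} :
    nm c ri q t = ∅ ↔ t ∉ Named c (fun i => {p | ∃ j, ri j = i ∧ q j = p}) := by
  rw [Finset.eq_empty_iff_forall_notMem]
  constructor
  · rintro h ⟨⟨i, k⟩, j, h1, h2⟩
    simp only at h1 h2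
    subst h1
    exact h (j, k) (mem_nm.2 h2.symm)
  · rintro h x hx
    exact h ⟨(ri x.1, x.2), x.1, rfl, (mem_nm.1 hx).symm⟩

/-- a step: a pair of legal selections of one palette system -/
def StepR {P γ : Type} (C : P → Λ → P → Λ → Prop) (cls : (P → Λ) → γ)
    (AdmP : (P → Set Λ) → (P → Λ) → (P → Λ) → Prop) (x y : γ) : Prop :=
  ∃ W k k', AdmP W k k' ∧ SelW W k ∧ Legal C k ∧ SelW W k' ∧ Legal C k' ∧ cls k = x ∧ cls k' = y

/-- **The combinatorial form.**  `Adm M W k k'`: what is known about the palette system `W` at a time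
with `nm t = M` and the limits `k`, `k'` from the left and from the right. -/
theorem Rings.no_path_J [Finite ι] [Finite Λ] [Fintype J] [DecidableEq J] {c : ι → ℂ}
    {col : ι → Λ → Set (Fin 6)} {F : ι → Λ → Set ℂ} (h : Irr U T) (R : Rings T c col F) {γ : Type}
    {C0 : ι × Fin 6 → Λ → ι × Fin 6 → Λ → Prop}
    (hC0 : ∀ p l p' l', C0 p l p' l' → Conf c col p l p' l')
    {cls : (ι × Fin 6 → Λ) → γ} {Adm0 : (ι × Fin 6 → Set Λ) → Prop}
    (hC : Cert C0 cls Adm0) {ri : J → ι} {q : J → ℂ} (hq : ∀ j, dist (q j) (c (ri j)) = 1)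
    (hA0 : ∀ t, nm c ri q t = ∅ → Adm0 (palS (posX c F) t))
    {Adm : Finset (J × Fin 6) → (ι × Fin 6 → Set Λ) → (ι × Fin 6 → Λ) → (ι × Fin 6 → Λ) → Prop}
    (hA : ∀ t, nm c ri q t ≠ ∅ → ∀ k k', LimL (posX c F) (Good c) t k → LimR (posX c F) (Good c) t k' →
      Adm (nm c ri q t) (palS (posX c F) t) k k') {a0 b0 : ℝ} (hab : a0 < b0) :
    ∃ a, a0 < a ∧ a < b0 ∧ nm c ri q a = ∅ ∧ ∃ κ : J → Fin 6, ∃ τ : J → ℝ,
      (∀ j, a < τ j ∧ τ j < a + 1 ∧ pos c (ri j, κ j) (τ j) = q j) ∧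
      ∃ s, Sel (posX c F) a s ∧ Legal (Conf c col) s ∧
        NPath τ (fun S => StepR C0 cls (Adm (S.image fun j => (j, κ j)))) Finset.univ
          (cls s) (cls (rot s)) := by
  classical
  have hQ : ∀ i, ({p | ∃ j, ri j = i ∧ q j = p} : Set ℂ).Finite := fun i =>
    (Set.finite_range q).subset (by rintro _ ⟨j, -, rfl⟩; exact ⟨j, rfl⟩)
  obtain ⟨a, ha1, ha2, ha, L, hL, hmem, s, hs, hl, hch⟩ := R.no_path_points h hC0 hC hQ
    (fun t ht => hA0 t (nm_empty.2 ht)) hab
  have ha0 : nm c ri q a = ∅ := nm_empty.2 ha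
  have hmeet : ∀ j, ∃ uk : ℝ × Fin 6, a < uk.1 ∧ uk.1 < a + 1 ∧ pos c (ri j, uk.2) uk.1 = q j := by
    intro j
    obtain ⟨u, k, h1, h2, h3⟩ := exists_meet (hq j) a
    refine ⟨(u, k), lt_of_le_of_ne h1 ?_, h2, h3⟩
    rintro rfl
    have h4 : (j, k) ∈ nm c ri q a := mem_nm.2 h3
    rw [ha0] at h4
    exact absurd h4 (Finset.notMem_empty _)
  choose uk hu1 hu2 hu3 using hmeet
  have huniq : ∀ (j : J) (k : Fin 6) (t : ℝ), a < t → t < a + 1 →
      (pos c (ri j, k) t = q j ↔ (uk j).1 = t ∧ k = (uk j).2) := by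
    intro j k t h1 h2
    constructor
    · intro h3
      obtain ⟨e1, e2⟩ := meet_unique (z := c (ri j)) h1.le h2 (hu1 j).le (hu2 j)
        (h3.trans (hu3 j).symm)
      exact ⟨e1.symm, e2⟩
    · rintro ⟨rfl, rfl⟩
      exact hu3 j
  have hnm : ∀ t, a < t → t < a + 1 → nm c ri q t =
      (Finset.univ.filter fun j => (uk j).1 = t).image (fun j => (j, (uk j).2)) := by
    intro t h1 h2
    ext ⟨j, k⟩
    rw [mem_nm, Finset.mem_image]
    simp only [Finset.mem_filter, Finset.mem_univ, true_and, Prod.mk.injEq]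
    rw [huniq j k t h1 h2]
    constructor
    · rintro ⟨e1, e2⟩
      exact ⟨j, e1, rfl, e2.symm⟩
    · rintro ⟨i, e1, rfl, e2⟩
      exact ⟨e1, e2.symm⟩
  refine ⟨a, ha1, ha2, ha0, fun j => (uk j).2, fun j => (uk j).1,
    fun j => ⟨hu1 j, hu2 j, hu3 j⟩, s, hs, hl, ?_⟩
  have huniv : (Finset.univ.filter fun j => (uk j).1 ∈ L) = (Finset.univ : Finset J) := by
    ext j
    simp only [Finset.mem_filter, Finset.mem_univ, true_and, iff_true]
    refine (hmem _).2 ⟨?_, hu1 j, hu2 j⟩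
    exact ⟨(ri j, (uk j).2), j, rfl, (hu3 j).symm⟩
  rw [← huniv]
  have S := sys_mono137 (R.sys h) hC0
  refine npath_of_chain (fun j => (uk j).1) hL (fun u hu => ?_) (fun u hu x y hJ => ?_) hch
  · obtain ⟨⟨⟨i, k⟩, j, e1, e2⟩, h1, h2⟩ := (hmem u).1 hu
    simp only at e1 e2
    subst e1
    exact ⟨j, ((huniq j k u h1 h2).1 e2.symm).1⟩
  · obtain ⟨hN, h1, h2⟩ := (hmem u).1 hu
    obtain ⟨k, k', g1, g2, g3, g4, g5, g6, g7, g8⟩ := hJ.exists_pair S
    have hne : nm c ri q u ≠ ∅ := fun e => nm_empty.1 e hN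
    have := hA u hne k k' g1 g5
    rw [hnm u h1 h2] at this
    exact ⟨_, k, k', this, g2, g3, g6, g7, g4, g8⟩

/-- The same without named points. -/
theorem Rings.no_path_cert [Finite ι] [Finite Λ] {c : ι → ℂ} {col : ι → Λ → Set (Fin 6)}
    {F : ι → Λ → Set ℂ} (h : Irr U T) (R : Rings T c col F) {γ : Type}
    {C0 : ι × Fin 6 → Λ → ι × Fin 6 → Λ → Prop}
    (hC0 : ∀ p l p' l', C0 p l p' l' → Conf c col p l p' l')
    {cls : (ι × Fin 6 → Λ) → γ} {Adm : (ι × Fin 6 → Set Λ) → Prop}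
    (hC : Cert C0 cls Adm) (hA : ∀ t, Adm (palS (posX c F) t)) :
    ∃ s, Sel (posX c F) 0 s ∧ Legal (Conf c col) s ∧ cls (rot s) = cls s := by
  have S := R.sys h
  obtain ⟨s, hs, hl⟩ := S.exists_legal 0
  exact ⟨s, hs, hl, ((sys_mono137 S hC0).eq_of_cert hC isPreconnected_univ (fun t _ => hA t)
    (mem_univ _) (mem_univ _) hs (legal_mono137 hC0 hl) (sel_rot hs)
    (legal_mono137 hC0 (legal_rot hl))).symm⟩

end Vale.Agent.P032.S5.H767
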