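import Vale.Agent.P032.R2.H659.S2H

/-!
# P032: the mirror image

`mU U`, `mT T`: the images of `U`, `T` under complex conjugation; `WT`, `MinF`, `DPt` and the places
`pt z u` are transported.  `boxH'_of_mir`, `WT.certS2_half`: it suffices to refute the box `S2n` with
`a, b` at the place `u0 + 2` and `c, d` at the place `u0 + 4`.
-/

set_option autoImplicit false

open Set Filter Topology Metric

noncomputable section

namespace Vale.Agent.P032.Six

open S5.H767 (pt dist_pt pt_six)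

variable {k : ℕ} {U : Fin k → Set ℂ} {T : ℂ → Set (Fin k)} {z y p : ℂ} {a b c d e f : Fin k}

/-- complex conjugation -/
def cj : ℂ ≃ₜ ℂ := Complex.conjLIE.toHomeomorph

theorem cj_apply (x : ℂ) : cj x = (starRingEnd ℂ) x := rfl

theorem cj_cj (x : ℂ) : cj (cj x) = x := by rw [cj_apply, cj_apply, Complex.conj_conj]

theorem dist_cj (x y : ℂ) : dist (cj x) (cj y) = dist x y := Complex.conjLIE.dist_map x y

theorem dist_cj' (x y : ℂ) : dist (cj x) y = dist x (cj y) := by
  rw [← dist_cj x, cj_cj]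

/-- the image of a family -/
def mU (U : Fin k → Set ℂ) (i : Fin k) : Set ℂ := cj ⁻¹' U i

/-- the image of palettes -/
def mT (T : ℂ → Set (Fin k)) (x : ℂ) : Set (Fin k) := T (cj x)

theorem mem_mU {i : Fin k} {x : ℂ} : x ∈ mU U i ↔ cj x ∈ U i := Iff.rfl

theorem closure_mU (i : Fin k) : closure (mU U i) = cj ⁻¹' closure (U i) :=
  (cj.preimage_closure _).symm

theorem mem_cl_mU {i : Fin k} {x : ℂ} : x ∈ closure (mU U i) ↔ cj x ∈ closure (U i) := by
  rw [closure_mU]; rfl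

theorem int_cl_mU {i : Fin k} {x : ℂ} :
    x ∈ interior (closure (mU U i)) ↔ cj x ∈ interior (closure (U i)) := by
  rw [closure_mU, ← cj.preimage_interior]; rfl

theorem pal_mU (x : ℂ) : Pal (mU U) x = Pal U (cj x) := by
  ext i; exact mem_cl_mU

theorem mem_XX_mU {x : ℂ} : x ∈ XX (mU U) ↔ cj x ∈ XX U := Iff.rfl

theorem ev_cj {P : ℂ → Prop} {x : ℂ} (h : ∀ᶠ w in 𝓝 (cj x), P w) : ∀ᶠ w in 𝓝 x, P (cj w) :=
  cj.continuous.continuousAt.eventually h

theorem ev_cj' {P : ℂ → Prop} {x : ℂ} (h : ∀ᶠ w in 𝓝 x, P (cj w)) : ∀ᶠ w in 𝓝 (cj x), P w := by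
  have h1 : ∀ᶠ w in 𝓝 (cj (cj x)), P (cj w) := by rw [cj_cj]; exact h
  filter_upwards [ev_cj h1] with w hw
  rwa [cj_cj] at hw

theorem Mx.mir (h : Mx U) : Mx (mU U) where
  isOpen i := (h.isOpen i).preimage cj.continuous
  dense := by
    have h1 : (⋃ i, mU U i) = cj ⁻¹' ⋃ i, U i := by
      rw [preimage_iUnion]; rfl
    rw [h1]
    exact h.dense.preimage cj.isOpenMap
  free i x hx y hy := by
    rw [← dist_cj]
    exact h.free i _ hx _ (mem_cl_mU.1 hy)
  single i x hx := h.single i _ (by rw [← pal_mU]; exact hx)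
  core := by
    obtain ⟨C, hC⟩ := h.core
    refine ⟨fun x => C (cj x), fun x => ?_⟩
    obtain ⟨h1, h2, h3⟩ := hC (cj x)
    refine ⟨by rw [pal_mU]; exact h1, ?_, fun hx i hi => ?_⟩
    · filter_upwards [ev_cj h2] with w hw
      rw [pal_mU]; exact hw
    · obtain ⟨⟨y, hy, hiy⟩, h4⟩ := h3 hx i hi
      refine ⟨⟨cj y, ?_, by rw [pal_mU, cj_cj]; exact hiy⟩, ?_⟩
      · rw [← dist_cj', hy]
      · filter_upwards [ev_cj h4] with w hw hwi
        exact hw (int_cl_mU.1 hwi)

theorem Irr.mir (h : Irr U T) : Irr (mU U) (mT T) where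
  mx := h.mx.mir
  max i x hx := h.max i _ fun y hy => by
    rw [dist_cj']
    exact hx _ (mem_cl_mU.2 (by rw [cj_cj]; exact hy))
  closed i := (h.closed i).preimage cj.continuous
  ne x := h.ne _
  sub x := by rw [pal_mU]; exact h.sub _
  off x hx i hi := h.off _ hx i hi
  pure x i hi := by
    have h1 := h.pure (cj x) i hi
    rw [← cj.map_nhds_eq] at h1
    exact h1

theorem suf_mU {s : Set (Fin k)} {w : ℂ} : Suf (mU U) s w ↔ Suf U s (cj w) := by
  unfold Suf
  rw [pal_mU]; rfl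

theorem MinF.mir (h : MinF U T) : MinF (mU U) (mT T) := by
  intro x hx s hs hne hcon
  refine h (cj x) hx s hs hne (ev_cj' ?_)
  filter_upwards [hcon] with w hw
  exact suf_mU.1 hw

theorem cis_neg_cj (t : ℝ) : cj (cis t) = cis (-t) := by
  unfold cis
  rw [cj_apply, ← Complex.exp_conj, map_mul, Complex.conj_I, Complex.conj_ofReal]
  congr 1; push_cast; ring

theorem cj_pt (z : ℂ) (u : ℝ) : cj (pt z u) = pt (cj z) (-u) := by
  unfold S5.H767.pt
  rw [show cj (z + cis (u * (Real.pi / 3))) = cj z + cj (cis (u * (Real.pi / 3))) from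
    map_add (starRingEnd ℂ) _ _, cis_neg_cj]
  congr 2; ring

theorem mT_pt (u : ℝ) : mT T (pt (cj z) u) = T (pt z (-u)) := by
  unfold mT
  rw [cj_pt, cj_cj]

theorem Arc.mir {P : Set (Fin k)} (h : Arc T z p P) : Arc (mT T) (cj z) (cj p) P := by
  refine ⟨by rw [dist_cj]; exact h.1, ?_⟩
  have h1 : Tendsto cj (𝓝[sphere (cj z) 1] (cj p)) (𝓝[sphere z 1] p) := by
    refine tendsto_nhdsWithin_iff.2 ⟨?_, ?_⟩
    · have h2 : Tendsto cj (𝓝 (cj p)) (𝓝 (cj (cj p))) := cj.continuous.continuousAt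
      rw [cj_cj] at h2
      exact h2.mono_left nhdsWithin_le_nhds
    · filter_upwards [self_mem_nhdsWithin] with q hq
      rw [mem_sphere, dist_cj']
      exact hq
  exact h1.eventually h.2

theorem DPt.mir (h : DPt T z a b c d) : DPt (mT T) (cj z) a b c d where
  pal := by unfold mT; rw [cj_cj]; exact h.pal
  ac := h.ac
  ad := h.ad
  bc := h.bc
  bd := h.bd
  ab := h.ab
  cd := h.cd
  arc1 := by obtain ⟨p, hp⟩ := h.arc1; exact ⟨_, hp.mir⟩
  arc2 := by obtain ⟨p, hp⟩ := h.arc2; exact ⟨_, hp.mir⟩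

theorem WT.mir {U : Fin 6 → Set ℂ} {T : ℂ → Set (Fin 6)} (H : WT U T) : WT (mU U) (mT T) where
  irr := H.irr.mir
  two {x y} hd hy hx := H.two (by rw [dist_cj]; exact hd) hy hx

/-- **the other half box is the mirror image** -/
theorem boxH'_of_mir {T : ℂ → Set (Fin 6)} (B : BoxH (mT T)) : BoxH' T := by
  intro z y a b c d e f u0 hz nd hyz hy hw p2 p4
  have e1 : pt (cj z) (-u0) = cj (pt z u0) := by rw [cj_pt]
  have e2 : mT T (pt (cj z) (-u0 + 2)) = T (pt z (u0 + 4)) := by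
    rw [mT_pt, ← pt_six z]
    congr 2; ring
  have e3 : mT T (pt (cj z) (-u0 + 4)) = T (pt z (u0 + 2)) := by
    rw [mT_pt, ← pt_six z]
    congr 2; ring
  exact B (z := cj z) (y := cj y) (u0 := -u0) hz.mir nd (by rw [dist_cj]; exact hyz) hy.mir
    (by rw [e1]; exact hw.mir) (by rw [e2]; exact p4) (by rw [e3]; exact p2)

/-- **The second certificate from the half box in every such world.** -/
theorem WT.certS2_half {U : Fin 6 → Set ℂ} {T : ℂ → Set (Fin 6)} (H : WT U T) (hmin : MinF U T)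
    (A : BoxA T) (C : BoxC T)
    (N : ∀ {U : Fin 6 → Set ℂ} {T : ℂ → Set (Fin 6)}, WT U T → MinF U T → BoxH T) : CertS2 T :=
  H.certS2_of4 hmin A C (N H hmin) (boxH'_of_mir (N H.mir hmin.mir))

end Vale.Agent.P032.Six
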