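import Vale.Agent.P032.R2.H137.One
import Vale.Agent.P032.R2.H137.Gap

/-!
# P032: several coupled rings with letters given by lists of colours

`colL i l`: the numbers of the colours of the letter `l` of the ring `i`; `x j`: the colour with the number
`j`; `adj i i'`: the centres have distance one.  `TextOK`: every conflict of the text is a conflict of
neighbours with a common colour.  `conf_multi`: then the conflicts of the text are conflicts of the rings.
`ctr_rings`: rings of two-pair centres.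
-/

set_option autoImplicit false

open Set Filter Topology Metric

noncomputable section

namespace Vale.Agent.P032.S5.H767

open Vale.Agent.P032.Six Vale.Agent.P032.Words Vale.Agent.P032.R2.H741

/-- neighbours, in numbers -/
def NbN (adj : ℕ → ℕ → Bool) (p q : ℕ) : Bool :=
  (Nat.beq (p / 6) (q / 6) && (Nat.beq (q % 6) ((p % 6 + 1) % 6) || Nat.beq (p % 6) ((q % 6 + 1) % 6)))
    || (adj (p / 6) (q / 6) && Nat.beq (p % 6) (q % 6))

/-- every conflict of the text is a conflict of neighbours with a common colour -/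
def TextOK (r m : ℕ) (adj : ℕ → ℕ → Bool) (colL : ℕ → ℕ → List ℕ) (X : Clo.Text) : Prop :=
  ∀ p < 6 * r, ∀ l < m, ∀ x ∈ X.C p l, x.1 < 6 * r ∧ x.2 < m ∧ NbN adj p x.1 = true ∧
    ∃ j ∈ colL (p / 6) l, j ∈ colL (x.1 / 6) x.2

instance (r m : ℕ) (adj : ℕ → ℕ → Bool) (colL : ℕ → ℕ → List ℕ) (X : Clo.Text) :
    Decidable (TextOK r m adj colL X) := by unfold TextOK; infer_instance

theorem conf_multi {r m' n m : ℕ} [NeZero r] [NeZero m'] (hn : n = 6 * r) (hm : m = m')
    {adj : ℕ → ℕ → Bool} {colL : ℕ → ℕ → List ℕ} {X : Clo.Text} (hX : TextOK r m' adj colL X)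
    {c : Fin r → ℂ} {col : Fin r → Fin m' → Set (Fin 6)} {x : ℕ → Fin 6}
    (hadj : ∀ i i' : Fin r, adj i.val i'.val = true → dist (c i) (c i') = 1)
    (hcol : ∀ (i : Fin r) (l : Fin m'), ∀ j ∈ colL i.val l.val, x j ∈ col i l) :
    ∀ p l p' l', tconf (encR r m' hn hm) X p l p' l' → Conf c col p l p' l' := by
  rintro ⟨i, k⟩ l ⟨i', k'⟩ l' h
  have hi := i.isLt
  have hi' := i'.isLt
  have hk := k.isLt
  have hk' := k'.isLt
  have hh : ((6 * i'.val + k'.val, l'.val) : Atom) ∈ X.C (6 * i.val + k.val) l.val := h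
  obtain ⟨-, -, h3, j, h4, h5⟩ := hX (6 * i.val + k.val) (by omega) l.val l.isLt _ hh
  have e1 : (6 * i.val + k.val) / 6 = i.val := by omega
  have e2 : (6 * i.val + k.val) % 6 = k.val := by omega
  have e1' : (6 * i'.val + k'.val) / 6 = i'.val := by omega
  have e2' : (6 * i'.val + k'.val) % 6 = k'.val := by omega
  simp only [e1, e1'] at h4 h5
  simp only [NbN, e1, e2, e1', e2', Bool.or_eq_true, Bool.and_eq_true] at h3
  refine ⟨?_, x j, hcol i l j h4, hcol i' l' j h5⟩
  rcases h3 with ⟨h6, h7⟩ | ⟨h6, h7⟩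
  · left
    refine ⟨Fin.ext (Nat.eq_of_beq_eq_true h6), ?_⟩
    rcases h7 with h7 | h7
    · left
      apply Fin.ext
      rw [Fin.val_add]
      exact Nat.eq_of_beq_eq_true h7
    · right
      apply Fin.ext
      rw [Fin.val_add]
      exact Nat.eq_of_beq_eq_true h7
  · right
    exact ⟨hadj i i' h6, Fin.ext (Nat.eq_of_beq_eq_true h7)⟩

variable {U : Fin 6 → Set ℂ} {T : ℂ → Set (Fin 6)} {r : ℕ}

/-- the rings of two-pair centres; `σ i`: the colours `a, b, c, d, e, f` of the centre `i` -/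
theorem ctr_rings {c : Fin r → ℂ} {σ : Fin r → Fin 6 → Fin 6}
    (C : ∀ i, Ctr U T (c i) (σ i 0) (σ i 1) (σ i 2) (σ i 3) (σ i 4) (σ i 5)) :
    Rings T c (fun i => col (σ i 0) (σ i 1) (σ i 2) (σ i 3) (σ i 4) (σ i 5))
      (fun i => Lt T (c i) (σ i 0) (σ i 1) (σ i 2) (σ i 3) (σ i 4) (σ i 5)) where
  closed i l := Lt_closed (C i).irr l
  cover i _ hq := (C i).cover hq
  sub i _ _ _ hq := Lt_col (C i).irr hq

/-- the numbers of the colours of the letters of a two-pair centre: `s` = numbers of `a, b, c, d, e, f` -/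
def colN (s : List ℕ) (l : ℕ) : List ℕ :=
  match l with
  | 0 => [s.getD 4 0]
  | 1 => [s.getD 5 0]
  | 2 => [s.getD 0 0, s.getD 1 0]
  | _ => [s.getD 2 0, s.getD 3 0]

theorem mem_col_of_colN {s : List ℕ} {x : ℕ → Fin 6} {l : Fin 4} {j : ℕ} (h : j ∈ colN s l.val) :
    x j ∈ col (x (s.getD 0 0)) (x (s.getD 1 0)) (x (s.getD 2 0)) (x (s.getD 3 0)) (x (s.getD 4 0))
      (x (s.getD 5 0)) l := by
  fin_cases l
  · change j ∈ [s.getD 4 0] at h
    rw [List.mem_singleton] at h
    subst h
    exact rfl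
  · change j ∈ [s.getD 5 0] at h
    rw [List.mem_singleton] at h
    subst h
    exact rfl
  · change j ∈ [s.getD 0 0, s.getD 1 0] at h
    rw [List.mem_cons, List.mem_singleton] at h
    rcases h with rfl | rfl
    · exact Or.inl rfl
    · exact Or.inr rfl
  · change j ∈ [s.getD 2 0, s.getD 3 0] at h
    rw [List.mem_cons, List.mem_singleton] at h
    rcases h with rfl | rfl
    · exact Or.inl rfl
    · exact Or.inr rfl

end Vale.Agent.P032.S5.H767
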