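import Vale.Agent.P032.R2.H137.TableF
import Vale.Agent.P032.S5.H767.Let

/-!
# P032: adapter for rings with base windows

Positions `6 i + k` (`i < r` the ring, `k < 6` the direction), letters `0 .. m-1`.  `shR p w`: the window
`w` turned by `p`.  `BaseW X B`: every window of the text is a turned base window.  The hypotheses about
the plane are at one real parameter `u`: `AtU c F u x`: the point of the position `x.1` at the time `u` has
the letter `x.2`.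
-/

set_option autoImplicit false

open Set Filter Topology Metric

noncomputable section

namespace Vale.Agent.P032.S5.H767

open Vale.Agent.P032.Six Vale.Agent.P032.Words Vale.Agent.P032.R2.H741

/-- numbers of the positions of `r` rings -/
def encR (r m' : ℕ) [NeZero r] [NeZero m'] {n m : ℕ} (hn : n = 6 * r) (hm : m = m') :
    Enc (Fin r × Fin 6) (Fin m') n m where
  ix p := 6 * p.1.val + p.2.val
  ps q := (⟨(q / 6) % r, Nat.mod_lt _ (Nat.pos_of_ne_zero (NeZero.ne r))⟩,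
    ⟨q % 6, Nat.mod_lt _ (by norm_num)⟩)
  lx l := l.val
  lt a := ⟨a % m', Nat.mod_lt _ (Nat.pos_of_ne_zero (NeZero.ne m'))⟩
  ix_lt p := by
    have h1 := p.1.isLt
    have h2 := p.2.isLt
    omega
  ps_ix p := by
    have h1 := p.1.isLt
    have h2 := p.2.isLt
    have e1 : (6 * p.1.val + p.2.val) / 6 = p.1.val := by omega
    have e2 : (6 * p.1.val + p.2.val) % 6 = p.2.val := by omega
    apply Prod.ext
    · apply Fin.ext
      show (6 * p.1.val + p.2.val) / 6 % r = p.1.val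
      rw [e1, Nat.mod_eq_of_lt h1]
    · apply Fin.ext
      exact e2
  ix_ps q hq := by
    show 6 * (q / 6 % r) + q % 6 = q
    have h1 : q / 6 < r := by omega
    rw [Nat.mod_eq_of_lt h1]
    omega
  lx_lt l := by rw [hm]; exact l.isLt
  lt_lx l := by
    apply Fin.ext
    exact Nat.mod_eq_of_lt l.isLt
  lx_lt' a ha := by
    subst hm
    exact Nat.mod_eq_of_lt ha

/-- rotation of the numbers of the positions -/
def piR (q : ℕ) : ℕ := 6 * (q / 6) + (q % 6 + 1) % 6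

theorem encR_rot (r m' : ℕ) [NeZero r] [NeZero m'] {n m : ℕ} (hn : n = 6 * r) (hm : m = m') :
    ∀ i < n, (encR r m' hn hm).ix (((encR r m' hn hm).ps i).1, ((encR r m' hn hm).ps i).2 + 1) =
      piR i := by
  intro i hi
  show 6 * (i / 6 % r) + ((⟨i % 6, Nat.mod_lt _ (by norm_num)⟩ : Fin 6) + 1).val = piR i
  have h1 : i / 6 < r := by omega
  rw [Nat.mod_eq_of_lt h1, Fin.val_add]
  rfl

/-- the window `w` turned by `p` -/
def shR (p : ℕ) (w : List Atom) : List Atom := w.map fun x => (6 * (x.1 / 6) + (x.1 % 6 + p) % 6, x.2)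

variable {U : Fin 6 → Set ℂ} {T : ℂ → Set (Fin 6)} {Λ J : Type} {r m' : ℕ} [NeZero r] [NeZero m']

/-- the ring of a number -/
def rg (r : ℕ) [NeZero r] (q : ℕ) : Fin r :=
  ⟨(q / 6) % r, Nat.mod_lt _ (Nat.pos_of_ne_zero (NeZero.ne r))⟩

/-- the letter of a number -/
def lr (m' : ℕ) [NeZero m'] (a : ℕ) : Fin m' := ⟨a % m', Nat.mod_lt _ (Nat.pos_of_ne_zero (NeZero.ne m'))⟩

/-- the point of the position `x.1` at the time `u` has the letter `x.2` -/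
def AtU (c : Fin r → ℂ) (F : Fin r → Fin m' → Set ℂ) (u : ℝ) (x : Atom) : Prop :=
  pt (c (rg r x.1)) (u + ((x.1 % 6 : ℕ) : ℝ)) ∈ F (rg r x.1) (lr m' x.2)

theorem pt_mod_nat (z : ℂ) (u : ℝ) (a : ℕ) : pt z (u + ((a % 6 : ℕ) : ℝ)) = pt z (u + (a : ℝ)) := by
  obtain ⟨q, b, hb, rfl⟩ : ∃ q b : ℕ, b < 6 ∧ a = b + 6 * q :=
    ⟨a / 6, a % 6, Nat.mod_lt _ (by norm_num), (Nat.mod_add_div a 6).symm⟩
  have e1 : (b + 6 * q) % 6 = b := by omega
  have e2 : u + ((b + 6 * q : ℕ) : ℝ) = (u + (b : ℝ)) + 6 * ((q : ℤ) : ℝ) := by push_cast; ring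
  rw [e1, e2, pt_add_int137]

/-- turning a window is a shift of the time -/
theorem atU_sh {c : Fin r → ℂ} {F : Fin r → Fin m' → Set ℂ} {u : ℝ} {p : ℕ} {w : List Atom} :
    (∀ x ∈ shR p w, AtU c F u x) ↔ ∀ x ∈ w, AtU c F (u + (p : ℝ)) x := by
  have key : ∀ x : Atom, AtU c F u (6 * (x.1 / 6) + (x.1 % 6 + p) % 6, x.2) ↔
      AtU c F (u + (p : ℝ)) x := by
    intro x
    unfold AtU
    have e1 : (6 * (x.1 / 6) + (x.1 % 6 + p) % 6) / 6 = x.1 / 6 := by omega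
    have e2 : (6 * (x.1 / 6) + (x.1 % 6 + p) % 6) % 6 = (x.1 % 6 + p) % 6 := by omega
    have e3 : rg r (6 * (x.1 / 6) + (x.1 % 6 + p) % 6) = rg r x.1 := by
      apply Fin.ext
      show (6 * (x.1 / 6) + (x.1 % 6 + p) % 6) / 6 % r = x.1 / 6 % r
      rw [e1]
    simp only
    rw [e3, e2, pt_mod_nat]
    have e4 : u + ((x.1 % 6 + p : ℕ) : ℝ) = u + (p : ℝ) + ((x.1 % 6 : ℕ) : ℝ) := by push_cast; ring
    rw [e4]
  unfold shR
  rw [List.forall_mem_map]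
  exact forall₂_congr fun x _ => key x

theorem at_iff_atU {n m : ℕ} (hn : n = 6 * r) (hm : m = m') {c : Fin r → ℂ}
    {F : Fin r → Fin m' → Set ℂ} {t : ℝ} {x : Atom} :
    (encR r m' hn hm).At (palS (posX c F) t) x ↔ AtU c F t x := Iff.rfl

/-- every window of the text is a turned base window -/
def BaseW (W B : List (List Atom)) : Prop := ∀ w ∈ W, ∃ p < 6, ∃ w0 ∈ B, w = shR p w0

instance (W B : List (List Atom)) : Decidable (BaseW W B) := by unfold BaseW; infer_instance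

/-- **Closed paths, base windows.** -/
theorem Rings.path_base [Fintype J] [DecidableEq J] {c : Fin r → ℂ}
    {col : Fin r → Fin m' → Set (Fin 6)} {F : Fin r → Fin m' → Set ℂ} (h : Irr U T)
    (R : Rings T c col F) {D : Clo} (hn : D.n = 6 * r) (hm : D.m = m') {X : Clo.Text}
    (A : Clo.Agree D X)
    (hC0 : ∀ p l p' l', tconf (encR r m' hn hm) X p l p' l' → Conf c col p l p' l')
    {B : List (List Atom)} (hB : BaseW X.W B) {K0 : ℕ} {nwm : ℕ → ℕ → List ℕ}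
    {nB : ℕ → List (List Atom)} (NA : NAgree D.n D.m K0 nwm fun K k => (nB K).map (shR k))
    {cls : ℕ → ℕ} {row : ℕ → ℕ → ℕ}
    (hc : Clo.Chk D (leaf nwm K0 cls fun l x y => Nat.testBit (row l x) y))
    {N : ℕ} {rho : ℕ → ℕ}
    (hrho : ∀ h, Clo.Leg D h → Clo.NoWin D h h → rotChk D cls rho N piR (scode D.m h D.n) = true)
    {kd : J → ℕ} (hkd : ∀ j, kd j < K0) {ri : ℕ → Fin r} {q : J → ℂ}
    (hq : ∀ j, dist (q j) (c (ri (kd j))) = 1) (hinj : ∀ j j', kd j = kd j' → q j = q j' → j = j')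
    (hloc : ∀ K < K0, ∀ w ∈ nB K, ∃ l < D.m, ∃ l' < D.m, l ≠ l' ∧
      (6 * (ri K).val, l) ∈ w ∧ (6 * (ri K).val, l') ∈ w)
    (hU : ∀ u, ∀ w ∈ B, ¬ ∀ x ∈ w, AtU c F u x)
    (hM : ∀ u, ∀ K < K0, ∀ w ∈ nB K, (∀ x ∈ w, AtU c F u x) →
      ∃ j, kd j = K ∧ pt (c (ri K)) u = q j) {a0 b0 : ℝ} (hab : a0 < b0) :
    ∃ a, a0 < a ∧ a < b0 ∧ nm c (fun j => ri (kd j)) q a = ∅ ∧ ∃ κ : J → Fin 6, ∃ τ : J → ℝ,
      (∀ j, a < τ j ∧ τ j < a + 1 ∧ pos c (ri (kd j), κ j) (τ j) = q j) ∧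
      ∃ s, Sel (posX c F) a s ∧ Legal (Conf c col) s ∧ cls ((encR r m' hn hm).code s) < N ∧
        TPath τ (fun S : Set J => fun x y => x < N ∧ ∀ S' : Finset J, (S' : Set J) = S →
          Nat.testBit (row (∑ j ∈ S', 8 ^ kd j) x) y = true) univ
          (cls ((encR r m' hn hm).code s)) (rho (cls ((encR r m' hn hm).code s))) := by
  refine R.path_table h A (encR r m' hn hm) hC0 NA hc (encR_rot r m' hn hm) hrho hkd hq
    (fun j j' e => by rw [e]) hinj ?_ ?_ ?_ hab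
  · intro j k w hw
    rw [List.mem_map] at hw
    obtain ⟨w0, hw0, rfl⟩ := hw
    obtain ⟨l, hl, l', hl', hne, h1, h2⟩ := hloc _ (hkd j) w0 hw0
    have hk := k.isLt
    have e : (encR r m' hn hm).ix (ri (kd j), k) =
        6 * (6 * (ri (kd j)).val / 6) + (6 * (ri (kd j)).val % 6 + k.val) % 6 := by
      show 6 * (ri (kd j)).val + k.val = _
      omega
    refine ⟨l, l', hne, hl, hl', ?_, ?_⟩
    · rw [e]; exact List.mem_map.2 ⟨_, h1, rfl⟩
    · rw [e]; exact List.mem_map.2 ⟨_, h2, rfl⟩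
  · intro t w hw hx
    obtain ⟨p, hp, w0, hw0, rfl⟩ := hB w hw
    refine hU (t + (p : ℝ)) w0 hw0 (atU_sh.1 fun x hx' => ?_)
    exact (at_iff_atU hn hm).1 (hx x hx')
  · intro t K hK k w hw hx
    rw [List.mem_map] at hw
    obtain ⟨w0, hw0, rfl⟩ := hw
    obtain ⟨j, hj, hp⟩ := hM (t + (k.val : ℝ)) K hK w0 hw0 (atU_sh.1 fun x hx' =>
      (at_iff_atU hn hm).1 (hx x hx'))
    exact ⟨j, hj, by rw [hj]; exact hp⟩

/-- **No closed path, base windows.** -/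
theorem Rings.no_path_base [Fintype J] [DecidableEq J] {c : Fin r → ℂ}
    {col : Fin r → Fin m' → Set (Fin 6)} {F : Fin r → Fin m' → Set ℂ} (h : Irr U T)
    (R : Rings T c col F) {D : Clo} (hn : D.n = 6 * r) (hm : D.m = m') {X : Clo.Text}
    (A : Clo.Agree D X)
    (hC0 : ∀ p l p' l', tconf (encR r m' hn hm) X p l p' l' → Conf c col p l p' l')
    {B : List (List Atom)} (hB : BaseW X.W B) {K0 : ℕ} {nwm : ℕ → ℕ → List ℕ}
    {nB : ℕ → List (List Atom)} (NA : NAgree D.n D.m K0 nwm fun K k => (nB K).map (shR k))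
    {cls : ℕ → ℕ} {row : ℕ → ℕ → ℕ}
    (hc : Clo.Chk D (leaf nwm K0 cls fun l x y => Nat.testBit (row l x) y))
    {N : ℕ} {rho : ℕ → ℕ}
    (hrho : ∀ h, Clo.Leg D h → Clo.NoWin D h h → rotChk D cls rho N piR (scode D.m h D.n) = true)
    {kd : J → ℕ} (hkd : ∀ j, kd j < K0) {ri : ℕ → Fin r} {q : J → ℂ}
    (hq : ∀ j, dist (q j) (c (ri (kd j))) = 1) (hinj : ∀ j j', kd j = kd j' → q j = q j' → j = j')
    (hloc : ∀ K < K0, ∀ w ∈ nB K, ∃ l < D.m, ∃ l' < D.m, l ≠ l' ∧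
      (6 * (ri K).val, l) ∈ w ∧ (6 * (ri K).val, l') ∈ w)
    (hU : ∀ u, ∀ w ∈ B, ¬ ∀ x ∈ w, AtU c F u x)
    (hM : ∀ u, ∀ K < K0, ∀ w ∈ nB K, (∀ x ∈ w, AtU c F u x) →
      ∃ j, kd j = K ∧ pt (c (ri K)) u = q j)
    {L : List J} (hL : L.Nodup) (hL' : ∀ j, j ∈ L) {g : ℕ}
    (hdead : ∀ x < N, dead row N (rho x) g (L.map kd) (2 ^ x) = true) : False := by
  obtain ⟨a, -, -, -, κ, τ, -, s, -, -, hN, hp⟩ := R.path_base h hn hm A hC0 hB NA hc hrho hkd hq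
    hinj hloc hU hM (a0 := 0) (b0 := 1) one_pos
  refine dead_sound (kd := kd) (row := row) (N := N) ?_ hp.lpath g L _ hL (fun j => ?_)
    (hdead _ hN) ?_
  · intro S _ x y hR
    exact ⟨hR.1, hR.2 S rfl⟩
  · exact ⟨fun _ => trivial, fun _ => hL' j⟩
  · rw [Nat.testBit_two_pow]
    exact decide_eq_true rfl

/-! ## One two-pair centre -/

/-- the ring of one centre -/
theorem Ctr.rings {z : ℂ} {a b c d e f : Fin 6} (C : Ctr U T z a b c d e f) :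
    Rings T (fun _ : Fin 1 => z) (fun _ => col a b c d e f) (fun _ => Lt T z a b c d e f) where
  closed _ l := Lt_closed C.irr l
  cover _ _ hq := C.cover hq
  sub _ _ _ _ hq := Lt_col C.irr hq

/-- the conflicts of one ring -/
def OneC (X : Clo.Text) : Prop := ∀ p < 6, ∀ l < 4, ∀ x ∈ X.C p l, x.1 < 6 ∧ x.2 = l ∧
  (x.1 = (p + 1) % 6 ∨ x.1 = (p + 5) % 6)

instance (X : Clo.Text) : Decidable (OneC X) := by unfold OneC; infer_instance

theorem Ctr.conf_one {z : ℂ} {a b c d e f : Fin 6} {n m : ℕ} (hn : n = 6 * 1) (hm : m = 4)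
    {X : Clo.Text} (hX : OneC X) :
    ∀ p l p' l', tconf (encR 1 4 hn hm) X p l p' l' →
      Conf (fun _ : Fin 1 => z) (fun _ => col a b c d e f) p l p' l' := by
  rintro ⟨i, k⟩ l ⟨i', k'⟩ l' h
  have hi : i = 0 := Subsingleton.elim _ _
  have hi' : i' = 0 := Subsingleton.elim _ _
  subst hi; subst hi'
  have hk := k.isLt
  have hk' := k'.isLt
  have h1 := hX (6 * (0 : Fin 1).val + k.val) (by simp) l.val l.isLt _ h
  have e0 : (0 : Fin 1).val = 0 := rfl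
  change 6 * (0 : Fin 1).val + k'.val < 6 ∧ l'.val = l.val ∧
    (6 * (0 : Fin 1).val + k'.val = (6 * (0 : Fin 1).val + k.val + 1) % 6 ∨
      6 * (0 : Fin 1).val + k'.val = (6 * (0 : Fin 1).val + k.val + 5) % 6) at h1
  rw [e0] at h1
  obtain ⟨-, h2, h3⟩ := h1
  refine ⟨Or.inl ⟨rfl, ?_⟩, ?_⟩
  · show k' = k + 1 ∨ k = k' + 1
    rcases h3 with h3 | h3
    · left; apply Fin.ext; rw [Fin.val_add]; simpa using h3
    · right; apply Fin.ext; rw [Fin.val_add]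
      show k.val = (k'.val + 1) % 6
      omega
  · have he : l' = l := Fin.ext h2
    rw [he]
    show (col a b c d e f l ∩ col a b c d e f l).Nonempty
    rw [Set.inter_self]
    exact col_nonempty l

/-- the letter `x.2` at the angle `u + x.1` -/
theorem Ctr.atU_iff {z : ℂ} {a b c d e f : Fin 6} {u : ℝ} {x : Atom} (hx : x.1 < 6) :
    AtU (r := 1) (m' := 4) (fun _ => z) (fun _ => Lt T z a b c d e f) u x ↔
      u + (x.1 : ℝ) ∈ Xs T z a b c d e f (lr 4 x.2) := by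
  unfold AtU
  rw [Nat.mod_eq_of_lt hx]
  rfl

theorem Ctr.forall_atU {z : ℂ} {a b c d e f : Fin 6} {u : ℝ} {w : List Atom}
    (hw : ∀ x ∈ w, x.1 < 6) :
    (∀ x ∈ w, AtU (r := 1) (m' := 4) (fun _ => z) (fun _ => Lt T z a b c d e f) u x) ↔
      ∀ x ∈ w, u + (x.1 : ℝ) ∈ Xs T z a b c d e f (lr 4 x.2) :=
  forall₂_congr fun x hx => Ctr.atU_iff (hw x hx)

/-- **Closed paths on the circle of one centre.** -/
theorem Ctr.path_one [Fintype J] [DecidableEq J] {z : ℂ} {a b c d e f : Fin 6}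
    (C : Ctr U T z a b c d e f) {D : Clo} (hn : D.n = 6 * 1) (hm : D.m = 4) {X : Clo.Text}
    (A : Clo.Agree D X) (hX : OneC X) {B : List (List Atom)} (hB : BaseW X.W B)
    (hB6 : ∀ w ∈ B, ∀ x ∈ w, x.1 < 6) {K0 : ℕ} {nwm : ℕ → ℕ → List ℕ} {nB : ℕ → List (List Atom)}
    (NA : NAgree D.n D.m K0 nwm fun K k => (nB K).map (shR k))
    (hN6 : ∀ K < K0, ∀ w ∈ nB K, ∀ x ∈ w, x.1 < 6) {cls : ℕ → ℕ} {row : ℕ → ℕ → ℕ}
    (hc : Clo.Chk D (leaf nwm K0 cls fun l x y => Nat.testBit (row l x) y))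
    {N : ℕ} {rho : ℕ → ℕ}
    (hrho : ∀ h, Clo.Leg D h → Clo.NoWin D h h → rotChk D cls rho N piR (scode D.m h D.n) = true)
    {kd : J → ℕ} (hkd : ∀ j, kd j < K0) {q : J → ℂ}
    (hq : ∀ j, dist (q j) z = 1) (hinj : ∀ j j', kd j = kd j' → q j = q j' → j = j')
    (hloc : ∀ K < K0, ∀ w ∈ nB K, ∃ l < 4, ∃ l' < 4, l ≠ l' ∧ (0, l) ∈ w ∧ (0, l') ∈ w)
    (hU : ∀ u : ℝ, ∀ w ∈ B, ¬ ∀ x ∈ w, u + (x.1 : ℝ) ∈ Xs T z a b c d e f (lr 4 x.2))
    (hM : ∀ u : ℝ, ∀ K < K0, ∀ w ∈ nB K, (∀ x ∈ w, u + (x.1 : ℝ) ∈ Xs T z a b c d e f (lr 4 x.2)) →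
      ∃ j, kd j = K ∧ pt z u = q j) {a0 b0 : ℝ} (hab : a0 < b0) :
    ∃ a', a0 < a' ∧ a' < b0 ∧ ∃ κ : J → Fin 6, ∃ τ : J → ℝ,
      (∀ j, a' < τ j ∧ τ j < a' + 1 ∧ pt z (τ j + ((κ j).val : ℝ)) = q j) ∧
      ∃ x0 < N, TPath τ (fun S : Set J => fun x y => x < N ∧ ∀ S' : Finset J, (S' : Set J) = S →
          Nat.testBit (row (∑ j ∈ S', 8 ^ kd j) x) y = true) univ x0 (rho x0) := by
  obtain ⟨a', h1, h2, -, κ, τ, h3, s, -, -, h4, hp⟩ := C.rings.path_base (r := 1) (m' := 4) C.irr hn hm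
    A (Ctr.conf_one hn hm hX) hB NA hc hrho hkd (ri := fun _ => 0) hq hinj
    (fun K hK w hw => by
      obtain ⟨l, hl, l', hl', hne, g1, g2⟩ := hloc K hK w hw
      exact ⟨l, by rw [hm]; exact hl, l', by rw [hm]; exact hl', hne, g1, g2⟩)
    (fun u w hw hx => hU u w hw ((Ctr.forall_atU (hB6 w hw)).1 hx))
    (fun u K hK w hw hx => hM u K hK w hw ((Ctr.forall_atU (hN6 K hK w hw)).1 hx)) hab
  exact ⟨a', h1, h2, κ, τ, h3, _, h4, hp⟩

/-- **No closed path on the circle of one centre.** -/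
theorem Ctr.no_path_one [Fintype J] [DecidableEq J] {z : ℂ} {a b c d e f : Fin 6}
    (C : Ctr U T z a b c d e f) {D : Clo} (hn : D.n = 6 * 1) (hm : D.m = 4) {X : Clo.Text}
    (A : Clo.Agree D X) (hX : OneC X) {B : List (List Atom)} (hB : BaseW X.W B)
    (hB6 : ∀ w ∈ B, ∀ x ∈ w, x.1 < 6) {K0 : ℕ} {nwm : ℕ → ℕ → List ℕ} {nB : ℕ → List (List Atom)}
    (NA : NAgree D.n D.m K0 nwm fun K k => (nB K).map (shR k))
    (hN6 : ∀ K < K0, ∀ w ∈ nB K, ∀ x ∈ w, x.1 < 6) {cls : ℕ → ℕ} {row : ℕ → ℕ → ℕ}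
    (hc : Clo.Chk D (leaf nwm K0 cls fun l x y => Nat.testBit (row l x) y))
    {N : ℕ} {rho : ℕ → ℕ}
    (hrho : ∀ h, Clo.Leg D h → Clo.NoWin D h h → rotChk D cls rho N piR (scode D.m h D.n) = true)
    {kd : J → ℕ} (hkd : ∀ j, kd j < K0) {q : J → ℂ}
    (hq : ∀ j, dist (q j) z = 1) (hinj : ∀ j j', kd j = kd j' → q j = q j' → j = j')
    (hloc : ∀ K < K0, ∀ w ∈ nB K, ∃ l < 4, ∃ l' < 4, l ≠ l' ∧ (0, l) ∈ w ∧ (0, l') ∈ w)
    (hU : ∀ u : ℝ, ∀ w ∈ B, ¬ ∀ x ∈ w, u + (x.1 : ℝ) ∈ Xs T z a b c d e f (lr 4 x.2))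
    (hM : ∀ u : ℝ, ∀ K < K0, ∀ w ∈ nB K, (∀ x ∈ w, u + (x.1 : ℝ) ∈ Xs T z a b c d e f (lr 4 x.2)) →
      ∃ j, kd j = K ∧ pt z u = q j)
    {L : List J} (hL : L.Nodup) (hL' : ∀ j, j ∈ L) {g : ℕ}
    (hdead : ∀ x < N, dead row N (rho x) g (L.map kd) (2 ^ x) = true) : False := by
  obtain ⟨a', -, -, κ, τ, -, x0, hN, hp⟩ := C.path_one hn hm A hX hB hB6 NA hN6 hc hrho hkd hq
    hinj hloc hU hM (a0 := 0) (b0 := 1) one_pos
  refine dead_sound (kd := kd) (row := row) (N := N) ?_ hp.lpath g L _ hL (fun j => ?_)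
    (hdead _ hN) ?_
  · intro S _ x y hR
    exact ⟨hR.1, hR.2 S rfl⟩
  · exact ⟨fun _ => trivial, fun _ => hL' j⟩
  · rw [Nat.testBit_two_pow]
    exact decide_eq_true rfl

end Vale.Agent.P032.S5.H767
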