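import Vale.Agent.P032.R2.H741.TpF

/-!
# P032: the ring systems of the certificates

`rdS1a`, `rdS1b`: the ring of `z = {a, b | c, d}` alone, without contacts `iq|ef`, the anchor is an end
of an `ab`-arc with four colours; `rdS1a`: typed `cd`-arcs which do not meet a four-coloured point;
`rdS1b`: typed `ab`- and `cd`-arcs.  `rdS2`: the rings of `z` and `w = {a, c | e, f}` and the letters of
the ring of `y = {a, e | b, f}`, the anchor is `y`.  `rdR2`: the rings of `z` and `y`, the anchor is a
contact `{a, c | e, f}` of `z`, the contact `y` is met in the period.  `rdS2n`: the rings of `z`,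
`w = {a, c | e, f}` and `y`, the anchor is `w`, the contact `y` is met in the period.
-/

set_option autoImplicit false

namespace Vale.Agent.P032.R2.H137

open Vale.Agent.P032.R2.H741.Tp

def rdS1a : RD where
  R := 1
  sg _ j := j
  adj _ _ := false
  md _ _ := 4
  nr _ := true
  an _ _ := 0
  idn _ := 0
  id1 _ _ := 0
  id2 _ _ := 0
  Y := 0
  yr _ := 0
  yp _ := 0
  ya _ := false
  ty _ p := decide (p = 1)
  ap _ := 1
  ad _ := 0
  nc _ p := decide (p = 1)

def rdS1b : RD where
  R := 1
  sg _ j := j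
  adj _ _ := false
  md _ _ := 4
  nr _ := true
  an _ _ := 0
  idn _ := 0
  id1 _ _ := 0
  id2 _ _ := 0
  Y := 0
  yr _ := 0
  yp _ := 0
  ya _ := false
  ty _ _ := true
  ap _ := 1
  ad _ := 0
  nc _ _ := false

/-- colours of the rings of `rdS2` -/
def sgS2 (r j : ℕ) : ℕ :=
  (([[0, 1, 2, 3, 4, 5], [0, 2, 4, 5, 1, 3], [0, 4, 1, 5, 2, 3]] : List (List ℕ)).getD r []).getD j j

def rdS2 : RD where
  R := 2
  sg := sgS2
  adj r s := decide (r = 0) && decide (s = 1)
  md _ _ := 4
  nr _ := false
  an _ _ := 0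
  idn _ := 0
  id1 _ _ := 0
  id2 _ _ := 0
  Y := 1
  yr _ := 0
  yp _ := 1
  ya r := decide (r = 2)
  ty _ _ := false
  ap r := if r = 0 then 1 else 0
  ad r := if r = 0 then 1 else 0
  nc _ _ := false

/-- colours of the rings of `rdR2` -/
def sgR2 (r j : ℕ) : ℕ :=
  (([[0, 1, 2, 3, 4, 5], [0, 4, 1, 5, 2, 3]] : List (List ℕ)).getD r []).getD j j

def rdR2 : RD where
  R := 2
  sg := sgR2
  adj r s := decide (r = 0) && decide (s = 1)
  md r _ := if r = 0 then 4 else 0
  nr _ := false
  an _ _ := 0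
  idn _ := 0
  id1 _ _ := 0
  id2 _ _ := 0
  Y := 0
  yr _ := 0
  yp _ := 0
  ya _ := false
  ty r p := decide (r = 0) && decide (p = 1)
  ap _ := 0
  ad r := if r = 0 then 5 else 0
  nc _ _ := false

def rdS2n : RD where
  R := 3
  sg := sgS2
  adj r s := decide (r = 0) && (decide (s = 1) || decide (s = 2))
  md r _ := if r = 1 then 4 else 0
  nr _ := false
  an r s := if r = 0 then (if s = 1 then 1 else 0) else 0
  idn _ := 0
  id1 _ _ := 0
  id2 _ _ := 0
  Y := 0
  yr _ := 0
  yp _ := 0
  ya _ := false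
  ty r p := decide (r = 0) && decide (p = 1)
  ap _ := 0
  ad _ := 0
  nc _ _ := false

end Vale.Agent.P032.R2.H137
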