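import Vale.Agent.P032.R2.H137.S1R
import Vale.Agent.P032.R2.H659.S2R
import Vale.Agent.P032.R2.H805.S1a.Top
import Vale.Agent.P032.R2.H805.S1b.Top

/-!
# P032: the first certificate

`crtS1a`, `crtS1b`: the certificates of the roots `S1a`, `S1b`; `WT.certS1w`: the two-pair points with a
contact `{a, e | b, f}` and the faces of type `e, f` do not exist.
-/

set_option autoImplicit false

open Set Filter Topology Metric

noncomputable section

namespace Vale.Agent.P032.R2.H137

open Vale.Agent.P032.Six Vale.Agent.P032.Words Vale.Agent.P032.S5.H767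
open Vale.Agent.P032.R2.H741.Tp Vale.Agent.P032.R2.H264

theorem crtS1a : R2.H659.Crt rdS1a [] R2.H805.S1a.inv where
  hst := R2.H805.S1a.inv_st
  start S h1 h2 h3 _ := R2.H805.S1a.top_start S h1 h2 h3
  step := R2.H805.S1a.top_step
  fin := R2.H805.S1a.top_fin

theorem crtS1b : R2.H659.Crt rdS1b [] R2.H805.S1b.inv where
  hst := R2.H805.S1b.inv_st
  start S h1 h2 h3 _ := R2.H805.S1b.top_start S h1 h2 h3
  step := R2.H805.S1b.top_step
  fin := R2.H805.S1b.top_fin

variable {U : Fin 6 → Set ℂ} {T : ℂ → Set (Fin 6)}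

/-- **The first certificate from two invariants.** -/
theorem certS1w_of_crt (H : WT U T) (hmin : MinF U T) {iA iB : List (List ℕ)}
    (A : R2.H659.Crt rdS1a [] iA) (B : R2.H659.Crt rdS1b [] iB) : CertS1w T :=
  certS1w_of H hmin
    (rootA_of H hmin A.hst (fun S h1 h2 h3 => A.start S h1 h2 h3 fun _ h => nomatch h) A.step A.fin)
    (rootB_of H hmin B.hst (fun S h1 h2 h3 => B.start S h1 h2 h3 fun _ h => nomatch h) B.step B.fin)

/-- **The first certificate.** -/
theorem certS1w (H : WT U T) (hmin : MinF U T) : CertS1w T :=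
  certS1w_of_crt H hmin crtS1a crtS1b

end Vale.Agent.P032.R2.H137
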