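import Vale.Agent.P032.R2.H137.S1W
import Vale.Agent.P032.R2.H301.FieldT

/-!
# P032: the hypotheses of the systems of one ring
-/

set_option autoImplicit false

open Set Filter Topology Metric

noncomputable section

namespace Vale.Agent.P032.R2.H137

open Vale.Agent.P032.Six Vale.Agent.P032.Words Vale.Agent.P032.S5.H767
open Vale.Agent.P032.R2.H741.Tp Vale.Agent.P032.R2.H264 Vale.Agent.P032.R2.H301

variable {U : Fin 6 → Set ℂ} {T : ℂ → Set (Fin 6)} {z y : ℂ} {a b c d e f : Fin 6}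
  {E2 F2 E F : Set ℂ} {v : ℝ} {G : RD}

theorem typd_cd (O : One G) (t : Typ T z {c, d} e f E F) (r : ℕ) :
    Typd T G (datS1 T z a b c d e f E2 F2 E F v) r 1 := by
  refine Typd.of_typ (P := {c, d}) (SE := E) (SF := F) ?_ (fun q hq => hq) (fun q hq => hq)
  rw [O.sg, O.sg]
  exact t

theorem typd_ab (O : One G) (t : Typ T z {a, b} e f E2 F2) (r : ℕ) :
    Typd T G (datS1 T z a b c d e f E2 F2 E F v) r 0 := by
  refine Typd.of_typ (P := {a, b}) (SE := E2) (SF := F2) ?_ (fun q hq => hq) (fun q hq => hq)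
  rw [O.sg, O.sg]
  exact t

theorem typd_S1a (t : Typ T z {c, d} e f E F) :
    ∀ r < rdS1a.R, ∀ p < 2, rdS1a.ty r p = true →
      Typd T rdS1a (datS1 T z a b c d e f E2 F2 E F v) r p := by
  intro r _ p _ h
  have hp : p = 1 := of_decide_eq_true h
  subst hp
  exact typd_cd one_S1a t r

theorem typd_S1b (t : Typ T z {c, d} e f E F) (t2 : Typ T z {a, b} e f E2 F2) :
    ∀ r < rdS1b.R, ∀ p < 2, rdS1b.ty r p = true →
      Typd T rdS1b (datS1 T z a b c d e f E2 F2 E F v) r p := by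
  intro r _ p hp _
  have hp' : p = 0 ∨ p = 1 := by omega
  rcases hp' with rfl | rfl
  · exact typd_ab one_S1b t2 r
  · exact typd_cd one_S1b t r

/-- the anchor is `y = {a, e | b, f}` -/
theorem anch_S1 (O : One G) (hap : ∀ r, G.ap r = 1) (hy : DPt T (pt z v) a e b f) :
    ∀ r < G.R, ∀ p < 2, G.ap r = p + 1 →
      DPt T (pt ((datS1 T z a b c d e f E2 F2 E F v).c r) (datS1 T z a b c d e f E2 F2 E F v).u0)
        ((datS1 T z a b c d e f E2 F2 E F v).x (G.sg r (2 * p)))
        ((datS1 T z a b c d e f E2 F2 E F v).x (G.sg r 4))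
        ((datS1 T z a b c d e f E2 F2 E F v).x (G.sg r (2 * p + 1)))
        ((datS1 T z a b c d e f E2 F2 E F v).x (G.sg r 5)) ∨
      DPt T (pt ((datS1 T z a b c d e f E2 F2 E F v).c r) (datS1 T z a b c d e f E2 F2 E F v).u0)
        ((datS1 T z a b c d e f E2 F2 E F v).x (G.sg r (2 * p)))
        ((datS1 T z a b c d e f E2 F2 E F v).x (G.sg r 5))
        ((datS1 T z a b c d e f E2 F2 E F v).x (G.sg r (2 * p + 1)))
        ((datS1 T z a b c d e f E2 F2 E F v).x (G.sg r 4)) := by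
  intro r _ p _ h
  have hp : p = 0 := by have := hap r; omega
  subst hp
  left
  rw [O.sg, O.sg, O.sg, O.sg]
  exact hy

/-- no four-coloured limit of exact `cd`-arcs -/
theorem nc_S1a (hN : ∀ q, dist q z = 1 → 4 ≤ (T q).ncard → q ∉ closure (Ex T z {c, d})) :
    ∀ r < rdS1a.R, ∀ p < 2, rdS1a.nc r p = true → ∀ q,
      dist q ((datS1 T z a b c d e f E2 F2 E F v).c r) = 1 → 4 ≤ (T q).ncard →
      q ∉ closure (Ex T ((datS1 T z a b c d e f E2 F2 E F v).c r)
        {(datS1 T z a b c d e f E2 F2 E F v).x (rdS1a.sg r (2 * p)),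
          (datS1 T z a b c d e f E2 F2 E F v).x (rdS1a.sg r (2 * p + 1))}) := by
  intro r _ p _ h
  have hp : p = 1 := of_decide_eq_true h
  subst hp
  exact hN

theorem nc_S1b : ∀ r < rdS1b.R, ∀ p < 2, rdS1b.nc r p = true → ∀ q,
      dist q ((datS1 T z a b c d e f E2 F2 E F v).c r) = 1 → 4 ≤ (T q).ncard →
      q ∉ closure (Ex T ((datS1 T z a b c d e f E2 F2 E F v).c r)
        {(datS1 T z a b c d e f E2 F2 E F v).x (rdS1b.sg r (2 * p)),
          (datS1 T z a b c d e f E2 F2 E F v).x (rdS1b.sg r (2 * p + 1))}) := by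
  intro r _ p _ h
  exact absurd h (by show ¬ false = true; simp)

end Vale.Agent.P032.R2.H137
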