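import Vale.Agent.P032.R2.H137.S1H
import Vale.Agent.P032.R2.H939.TopW

/-!
# P032: the first certificate from the two systems of one ring

`Root1 U T G`: the hypotheses of the ring `z` with the anchor `pt z v` are contradictory;
`certS1w_of`: `CertS1w` from the roots `S1a`, `S1b`.
-/

set_option autoImplicit false

open Set Filter Topology Metric

noncomputable section

namespace Vale.Agent.P032.R2.H137

open Vale.Agent.P032.Six Vale.Agent.P032.Words Vale.Agent.P032.S5.H767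
open Vale.Agent.P032.R2.H741.Tp Vale.Agent.P032.R2.H264 Vale.Agent.P032.R2.H301

variable {U : Fin 6 → Set ℂ} {T : ℂ → Set (Fin 6)}

/-- no contact `iq|ef` of `z = {a, b | c, d}` -/
def NoIq (T : ℂ → Set (Fin 6)) (z : ℂ) (a b c d e f : Fin 6) : Prop :=
  ∀ w, dist w z = 1 → ¬ DPt T w a c e f ∧ ¬ DPt T w a d e f ∧ ¬ DPt T w b c e f ∧ ¬ DPt T w b d e f

/-- the root `S1a` -/
def RootA (T : ℂ → Set (Fin 6)) : Prop :=
  ∀ {z : ℂ} {a b c d e f : Fin 6} {E F : Set ℂ} {v : ℝ}, DPt T z a b c d →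
    [a, b, c, d, e, f].Nodup → Typ T z {c, d} e f E F → DPt T (pt z v) a e b f →
    NoIq T z a b c d e f →
    (∀ q, dist q z = 1 → 4 ≤ (T q).ncard → q ∉ closure (Ex T z {c, d})) → False

/-- the root `S1b` -/
def RootB (T : ℂ → Set (Fin 6)) : Prop :=
  ∀ {z : ℂ} {a b c d e f : Fin 6} {E2 F2 E F : Set ℂ} {v : ℝ}, DPt T z a b c d →
    [a, b, c, d, e, f].Nodup → Typ T z {c, d} e f E F → Typ T z {a, b} e f E2 F2 →
    DPt T (pt z v) a e b f → NoIq T z a b c d e f → False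

/-- **`CertS1w` from the two roots** -/
theorem certS1w_of (H : WT U T) (hmin : MinF U T) (A : RootA T) (B : RootB T) : CertS1w T := by
  intro z y a b c d e f hz nd hyz hy
  by_contra hcon
  have hN : NoIq T z a b c d e f := by
    intro w hw
    refine ⟨fun h => hcon ⟨w, hw, Or.inl h⟩, fun h => hcon ⟨w, hw, Or.inr (Or.inl h)⟩,
      fun h => hcon ⟨w, hw, Or.inr (Or.inr (Or.inl h))⟩,
      fun h => hcon ⟨w, hw, Or.inr (Or.inr (Or.inr h))⟩⟩
  obtain ⟨v, rfl⟩ := exists_ptc hyz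
  have hcl := H.irr.s4_closure hz nd hy hyz
  obtain ⟨E, F, t⟩ := H.exists_typ hmin hz nd hcl hy.card.ge
  by_cases hu : ∃ u, u ∈ closure (Ex T z {c, d}) ∧ 4 ≤ (T u).ncard
  · obtain ⟨u, hu1, hu2⟩ := hu
    obtain ⟨E2, F2, t2⟩ := H.exists_typ' hmin hz nd hu1 hu2
    exact B hz nd t t2 hy hN
  · exact A hz nd t hy hN fun q _ h2 h3 => hu ⟨q, h3, h2⟩

end Vale.Agent.P032.R2.H137
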