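import Vale.Agent.P032.R2.H264.Asm
import Vale.Agent.P032.R2.H137.S1T

/-!
# P032: the roots `S1a`, `S1b` in the form of a certificate

`hpA`, `hpB`: all hypotheses of the systems `rdS1a`, `rdS1b`; `rootA_of`, `rootB_of`: a certificate
gives the root.
-/

set_option autoImplicit false

open Set Filter Topology Metric

noncomputable section

namespace Vale.Agent.P032.R2.H137

open Vale.Agent.P032.Six Vale.Agent.P032.Words Vale.Agent.P032.S5.H767
open Vale.Agent.P032.R2.H741.Tp Vale.Agent.P032.R2.H264 Vale.Agent.P032.R2.H301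

variable {U : Fin 6 → Set ℂ} {T : ℂ → Set (Fin 6)} {z : ℂ} {a b c d e f : Fin 6}
  {E2 F2 E F : Set ℂ} {v : ℝ} {G : RD}

/-- no contacts `iq|ef` in the numbers of the pairs -/
theorem nrz_S1 (O : One G) (hN : NoIq T z a b c d e f) : ∀ r < G.R, G.nr r = true → ∀ q,
    dist q ((datS1 T z a b c d e f E2 F2 E F v).c r) = 1 →
    ∀ w, w = 4 ∨ w = 7 ∨ w = 10 ∨ w = 13 →
    ¬ DPt T q ((datS1 T z a b c d e f E2 F2 E F v).x (pc G r w 0))
      ((datS1 T z a b c d e f E2 F2 E F v).x (pc G r w 1))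
      ((datS1 T z a b c d e f E2 F2 E F v).x (pc G r w 2))
      ((datS1 T z a b c d e f E2 F2 E F v).x (pc G r w 3)) := by
  intro r _ _ q hq w hw
  have h := hN q hq
  unfold pc
  rw [O.sg, O.sg, O.sg, O.sg]
  rcases hw with rfl | rfl | rfl | rfl
  · exact h.1
  · exact h.2.1
  · exact h.2.2.1
  · exact h.2.2.2

theorem yh_S1 (O : One G) {D : Dat} : R2.H492.YH G D := by
  constructor <;> intro s h1 h2 <;> exact absurd h2 (by rw [O.Y]; omega)

theorem hpA (H : WT U T) (hmin : MinF U T) (hz : DPt T z a b c d)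
    (nd : [a, b, c, d, e, f].Nodup) (t : Typ T z {c, d} e f E F)
    (hy : DPt T (pt z v) a e b f) (hN : NoIq T z a b c d e f)
    (hc : ∀ q, dist q z = 1 → 4 ≤ (T q).ncard → q ∉ closure (Ex T z {c, d})) :
    Hp U T rdS1a (datS1 T z a b c d e f univ ∅ E F v) := by
  have W : Wd U T rdS1a (datS1 T z a b c d e f univ ∅ E F v) :=
    wdS1 one_S1a H hmin hz nd (by simp) t.cover isClosed_univ isClosed_empty t.clE t.clF
  exact {
    toWd := W
    cnt := R2.H413.WD.cnt_top (R2.H413.WD.of_wd W) fun _ _ _ _ => Or.inr rfl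
    md4 := fun _ _ _ _ _ => rfl
    nrz := nrz_S1 one_S1a hN
    anc := fun _ _ _ _ h => absurd h (by show ¬ false = true; simp)
    typ := typd_S1a t
    ap := W.anch_two (anch_S1 one_S1a (fun _ => rfl) hy)
    ad := fun _ _ w _ h => absurd (show (0 : ℕ) = w + 1 from h) (by omega)
    ncr := nc_S1a hc
    yh := yh_S1 one_S1a }

theorem hpB (H : WT U T) (hmin : MinF U T) (hz : DPt T z a b c d)
    (nd : [a, b, c, d, e, f].Nodup) (t : Typ T z {c, d} e f E F) (t2 : Typ T z {a, b} e f E2 F2)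
    (hy : DPt T (pt z v) a e b f) (hN : NoIq T z a b c d e f) :
    Hp U T rdS1b (datS1 T z a b c d e f E2 F2 E F v) := by
  have W : Wd U T rdS1b (datS1 T z a b c d e f E2 F2 E F v) :=
    wdS1 one_S1b H hmin hz nd t2.cover t.cover t2.clE t2.clF t.clE t.clF
  exact {
    toWd := W
    cnt := R2.H413.WD.cnt_top (R2.H413.WD.of_wd W) fun _ _ _ _ => Or.inr rfl
    md4 := fun _ _ _ _ _ => rfl
    nrz := nrz_S1 one_S1b hN
    anc := fun _ _ _ _ h => absurd h (by show ¬ false = true; simp)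
    typ := typd_S1b t t2
    ap := W.anch_two (anch_S1 one_S1b (fun _ => rfl) hy)
    ad := fun _ _ w _ h => absurd (show (0 : ℕ) = w + 1 from h) (by omega)
    ncr := nc_S1b
    yh := yh_S1 one_S1b }

/-- **the root `S1a` from a certificate** -/
theorem rootA_of (H : WT U T) (hmin : MinF U T) {inv : List (List ℕ)}
    (hst : ∀ c ∈ inv, ∀ j ∈ c, j / 2 < 704 * (rdS1a.R + rdS1a.Y) ∧ R2.H264.isSt (j / 2 % 704) = true)
    (start : ∀ S, SF rdS1a S → TF rdS1a S → IF rdS1a S → ∀ c ∈ inv, Hd (val S) (c.map R2.H264.nxl))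
    (step : ∀ S, SF rdS1a S → TF rdS1a S → (∀ c ∈ inv, Hd (val S) c) →
      ∀ c ∈ inv, Hd (val S) (c.map R2.H264.nxl))
    (fin : ∀ S, SF rdS1a S → BF rdS1a S → ¬ ∀ c ∈ inv, Hd (val S) c) : RootA T := by
  intro z a b c d e f E F v hz nd t hy hN hc
  exact (hpA H hmin hz nd t hy hN hc).no_root hst start step fin

/-- **the root `S1b` from a certificate** -/
theorem rootB_of (H : WT U T) (hmin : MinF U T) {inv : List (List ℕ)}
    (hst : ∀ c ∈ inv, ∀ j ∈ c, j / 2 < 704 * (rdS1b.R + rdS1b.Y) ∧ R2.H264.isSt (j / 2 % 704) = true)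
    (start : ∀ S, SF rdS1b S → TF rdS1b S → IF rdS1b S → ∀ c ∈ inv, Hd (val S) (c.map R2.H264.nxl))
    (step : ∀ S, SF rdS1b S → TF rdS1b S → (∀ c ∈ inv, Hd (val S) c) →
      ∀ c ∈ inv, Hd (val S) (c.map R2.H264.nxl))
    (fin : ∀ S, SF rdS1b S → BF rdS1b S → ¬ ∀ c ∈ inv, Hd (val S) c) : RootB T := by
  intro z a b c d e f E2 F2 E F v hz nd t t2 hy hN
  exact (hpB H hmin hz nd t t2 hy hN).no_root hst start step fin

end Vale.Agent.P032.R2.H137
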