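import Vale.Agent.P032.R2.H264.Wd
import Vale.Agent.P032.R2.H609.Typ
import Vale.Agent.P032.R2.H137.Roots

/-!
# P032: the system of the ring of one centre

`datS1`: the data of the ring of `z = {a, b | c, d}`; `wdS1`: its world.
-/

set_option autoImplicit false

open Set Filter Topology Metric

noncomputable section

namespace Vale.Agent.P032.R2.H137

open Vale.Agent.P032.Six Vale.Agent.P032.Words Vale.Agent.P032.S5.H767
open Vale.Agent.P032.R2.H741.Tp Vale.Agent.P032.R2.H264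

variable {U : Fin 6 → Set ℂ} {T : ℂ → Set (Fin 6)} {z y : ℂ} {a b c d e f : Fin 6}
  {E2 F2 E F : Set ℂ} {v : ℝ}

/-- the colours with numbers -/
def xs (a b c d e f : Fin 6) (j : ℕ) : Fin 6 := ([a, b, c, d, e, f] : List (Fin 6)).getD j a

theorem xs_inj (nd : [a, b, c, d, e, f].Nodup) :
    ∀ i < 6, ∀ j < 6, xs a b c d e f i = xs a b c d e f j → i = j := by
  intro i hi j hj h
  unfold xs at h
  rw [List.getD_eq_getElem _ _ (by simpa using hi), List.getD_eq_getElem _ _ (by simpa using hj)] at h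
  exact (List.Nodup.getElem_inj_iff nd).1 h

theorem xs_surj (nd : [a, b, c, d, e, f].Nodup) (i : Fin 6) : ∃ j < 6, xs a b c d e f j = i := by
  rcases nodup_all609 nd i with h | h | h | h | h | h
  · exact ⟨0, by norm_num, h.symm⟩
  · exact ⟨1, by norm_num, h.symm⟩
  · exact ⟨2, by norm_num, h.symm⟩
  · exact ⟨3, by norm_num, h.symm⟩
  · exact ⟨4, by norm_num, h.symm⟩
  · exact ⟨5, by norm_num, h.symm⟩

/-- the letter sets of the ring of `z`; `E2, F2`: types of the `ab`-arcs, `E, F`: types of the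
`cd`-arcs -/
def fz (T : ℂ → Set (Fin 6)) (z : ℂ) (a b c d e f : Fin 6) (E2 F2 E F : Set ℂ) : Fin 6 → Set ℂ :=
  ![Lt T z a b c d e f 0, Lt T z a b c d e f 1, Lt T z a b c d e f 2 ∩ E2, Lt T z a b c d e f 3 ∩ E,
    Lt T z a b c d e f 3 ∩ F, Lt T z a b c d e f 2 ∩ F2]

/-- the data of the ring of `z` -/
def datS1 (T : ℂ → Set (Fin 6)) (z : ℂ) (a b c d e f : Fin 6) (E2 F2 E F : Set ℂ) (v : ℝ) : Dat where
  c _ := z
  x := xs a b c d e f
  F _ := fz T z a b c d e f E2 F2 E F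
  u0 := v

/-- a system with the ring of `z` alone -/
structure One (G : RD) : Prop where
  R : G.R = 1
  Y : G.Y = 0
  sg : ∀ r j, G.sg r j = j
  adj : ∀ r s, G.adj r s = false

theorem one_S1a : One rdS1a := ⟨rfl, rfl, fun _ _ => rfl, fun _ _ => rfl⟩

theorem one_S1b : One rdS1b := ⟨rfl, rfl, fun _ _ => rfl, fun _ _ => rfl⟩

theorem wdS1 {G : RD} (O : One G) (H : WT U T) (hmin : MinF U T) (hz : DPt T z a b c d)
    (nd : [a, b, c, d, e, f].Nodup) (c2 : closure (Ex T z {a, b}) ⊆ E2 ∪ F2)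
    (c3 : closure (Ex T z {c, d}) ⊆ E ∪ F) (k1 : IsClosed E2) (k2 : IsClosed F2)
    (k3 : IsClosed E) (k4 : IsClosed F) : Wd U T G (datS1 T z a b c d e f E2 F2 E F v) where
  wt := H
  mn := hmin
  sgl r _ j hj := by rw [O.sg]; exact hj
  sgi r _ i _ j _ h := by rw [O.sg, O.sg] at h; exact h
  xi := xs_inj nd
  dpt r _ := by
    rw [O.sg, O.sg, O.sg, O.sg]
    exact hz
  adj r _ s _ h := by rw [O.adj] at h; exact absurd h (by simp)
  yhub s h1 h2 := by rw [O.Y] at h2; omega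
  yadj s h1 h2 := by rw [O.Y] at h2; omega
  F0 r _ := by
    unfold L4
    rw [O.sg, O.sg, O.sg, O.sg, O.sg, O.sg]
    rfl
  F1 r _ := by
    unfold L4
    rw [O.sg, O.sg, O.sg, O.sg, O.sg, O.sg]
    rfl
  F2 r _ := by
    unfold L4
    rw [O.sg, O.sg, O.sg, O.sg, O.sg, O.sg]
    show Lt T z a b c d e f 2 ∩ E2 ∪ Lt T z a b c d e f 2 ∩ F2 = Lt T z a b c d e f 2
    rw [← inter_union_distrib_left]
    exact inter_eq_left.2 c2
  F3 r _ := by
    unfold L4
    rw [O.sg, O.sg, O.sg, O.sg, O.sg, O.sg]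
    show Lt T z a b c d e f 3 ∩ E ∪ Lt T z a b c d e f 3 ∩ F = Lt T z a b c d e f 3
    rw [← inter_union_distrib_left]
    exact inter_eq_left.2 c3
  cl r _ l := by
    have h4 : ∀ m, IsClosed (Lt T z a b c d e f m) := fun m => Lt_closed H.irr m
    fin_cases l
    · exact h4 0
    · exact h4 1
    · exact (h4 2).inter k1
    · exact (h4 3).inter k3
    · exact (h4 3).inter k4
    · exact (h4 2).inter k2

end Vale.Agent.P032.R2.H137
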