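import Vale.Agent.P032.R2.H137.Table
import Vale.Agent.P032.R2.H137.JPath

/-!
# P032: slots and gaps

The soundness theorem of the certificates with slots and gaps.  Coupled rings, times
`t 0 < t 1 < ... < t (M-1) < t 0 + 1`.  At a slot `s` there are legal selections `w (2 s)`, `w (2 s + 1)` from
the palettes at the time `t s`, limits from the left and from the right.  In a gap (between `t s` and
`t (s+1)`, and from `t (M-1)` to `t 0 + 1`) the palettes are admissible for a certificate `Cert C0 cls Adm0`,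
so that the class is constant; the last gap closes up with the rotation.

`Rings.slots_all`: for all limits.  `Rings.exists_slots`: existence.  `Cert.pi`: product of
certificates of the single rings.  `exists_times`: the times of finitely many events, filled up to
`M` slots.
-/

set_option autoImplicit false

open Set Filter Topology Metric

noncomputable section

namespace Vale.Agent.P032.S5.H767

open Vale.Agent.P032.Six Vale.Agent.P032.Words

variable {U : Fin 6 → Set ℂ} {T : ℂ → Set (Fin 6)} {ι Λ J γ : Type}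

/-! ## Certificates of single rings -/

/-- change of the letters: `e` an injection of the letters of the ring, `g` its inverse -/
theorem Cert.emb137 {P Λ' : Type} {C : P → Λ' → P → Λ' → Prop} {cls : (P → Λ') → γ}
    {Adm : (P → Set Λ') → Prop} (hC : Cert C cls Adm) {e : Λ' → Λ} {g : Λ → Λ'}
    (hge : ∀ l, g (e l) = l) :
    Cert (fun p l p' l' => ∃ m m', l = e m ∧ l' = e m' ∧ C p m p' m')
      (fun h : P → Λ => cls fun p => g (h p))
      (fun W => (∀ p, ∀ l ∈ W p, ∃ m, e m = l) ∧ Adm fun p => {m | e m ∈ W p}) := by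
  rintro W ⟨hr, hA⟩ h h' h1 h2 h3 h4
  have key : ∀ k : P → Λ, SelW W k → ∀ p, e (g (k p)) = k p := by
    intro k hk p
    obtain ⟨m, hm⟩ := hr p _ (hk p)
    rw [← hm, hge]
  refine hC _ hA _ _ ?_ ?_ ?_ ?_
  · intro p
    show e (g (h p)) ∈ W p
    rw [key h h1]; exact h1 p
  · intro p p' hc
    exact h2 p p' ⟨_, _, (key h h1 p).symm, (key h h1 p').symm, hc⟩
  · intro p
    show e (g (h' p)) ∈ W p
    rw [key h' h3]; exact h3 p
  · intro p p' hc
    exact h4 p p' ⟨_, _, (key h' h3 p).symm, (key h' h3 p').symm, hc⟩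

/-- **Product of the certificates of the single rings.** -/
theorem cert_pi137 {γi : ι → Type} {C : ι → Fin 6 → Λ → Fin 6 → Λ → Prop}
    {cls : (i : ι) → (Fin 6 → Λ) → γi i} {Adm : ι → (Fin 6 → Set Λ) → Prop}
    (hC : ∀ i, Cert (C i) (cls i) (Adm i)) :
    Cert (fun (p : ι × Fin 6) l p' l' => p.1 = p'.1 ∧ C p.1 p.2 l p'.2 l')
      (fun h : ι × Fin 6 → Λ => fun i => cls i fun k => h (i, k))
      (fun W => ∀ i, Adm i fun k => W (i, k)) := by
  intro W hA h h' h1 h2 h3 h4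
  funext i
  exact hC i _ (hA i) _ _ (fun k => h1 (i, k)) (fun k k' hc => h2 (i, k) (i, k') ⟨rfl, hc⟩)
    (fun k => h3 (i, k)) fun k k' hc => h4 (i, k) (i, k') ⟨rfl, hc⟩

/-- conflicts of single rings are conflicts -/
theorem conf_pi137 {c : ι → ℂ} {col : ι → Λ → Set (Fin 6)} {C : ι → Fin 6 → Λ → Fin 6 → Λ → Prop}
    (h : ∀ i k l k' l', C i k l k' l' → (k' = k + 1 ∨ k = k' + 1) ∧ (col i l ∩ col i l').Nonempty) :
    ∀ p l p' l', (fun (p : ι × Fin 6) l p' l' => p.1 = p'.1 ∧ C p.1 p.2 l p'.2 l') p l p' l' →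
      Conf c col p l p' l' := by
  rintro ⟨i, k⟩ l ⟨i', k'⟩ l' ⟨h1, h2⟩
  simp only at h1 h2
  subst h1
  exact ⟨Or.inl ⟨rfl, (h i k l k' l' h2).1⟩, (h i k l k' l' h2).2⟩

/-! ## Limits are selected nearby -/

theorem limR_near137 {P : Type} {X : P → Λ → Set ℝ} {G : Set ℝ} {t : ℝ} {k : P → Λ}
    (h : LimR X G t k) {b : ℝ} (hb : t < b) : ∃ u, t < u ∧ u < b ∧ u ∈ G ∩ GenS X ∧ Sel X u k := by
  obtain ⟨u, hu, h1, h2⟩ := (h.and_eventually (Ioo_mem_nhdsGT hb)).exists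
  exact ⟨u, h1, h2, hu.1, hu.2⟩

theorem limL_near137 {P : Type} {X : P → Λ → Set ℝ} {G : Set ℝ} {t : ℝ} {k : P → Λ}
    (h : LimL X G t k) {a : ℝ} (ha : a < t) : ∃ u, a < u ∧ u < t ∧ u ∈ G ∩ GenS X ∧ Sel X u k := by
  obtain ⟨u, hu, h1, h2⟩ := (h.and_eventually (Ioo_mem_nhdsLT ha)).exists
  exact ⟨u, h1, h2, hu.1, hu.2⟩

/-- at a generic time a selection is a limit from both sides -/
theorem sys_lim_of_gen {P : Type} [Finite P] [Finite Λ] {X : P → Λ → Set ℝ}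
    {C : P → Λ → P → Λ → Prop} {G : Set ℝ} (S : Sys X C G) {t : ℝ} (ht : t ∈ G ∩ GenS X)
    {k : P → Λ} (hk : Sel X t k) : LimL X G t k ∧ LimR X G t k := by
  have h1 : ∀ᶠ s in 𝓝 t, s ∈ G ∩ GenS X := S.good_open_dense.1.mem_nhds ht
  have h2 : ∀ᶠ s in 𝓝 t, Sel X s k := eventually_all.2 fun p => ht.2 p _ (hk p)
  have h3 := h1.and h2
  exact ⟨(h3.filter_mono nhdsWithin_le_nhds).frequently, (h3.filter_mono nhdsWithin_le_nhds).frequently⟩

/-! ## Slots -/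

/-- **Slots and gaps, for all limits, for any system of conflicts** (for instance with conflicts of
opposite directions). -/
theorem sys_slots_all [Finite ι] [Finite Λ] {c : ι → ℂ} {F : ι → Λ → Set ℂ} {G : Set ℝ}
    {C1 C0 : ι × Fin 6 → Λ → ι × Fin 6 → Λ → Prop} (S : Sys (posX c F) C1 G)
    (hC0 : ∀ p l p' l', C0 p l p' l' → C1 p l p' l') (hrot : ∀ k, Legal C1 k → Legal C0 (rot k))
    {cls : (ι × Fin 6 → Λ) → γ} {Adm0 : (ι × Fin 6 → Set Λ) → Prop} (hC : Cert C0 cls Adm0)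
    {M : ℕ} (hM : 0 < M) {t : ℕ → ℝ} (ht : ∀ s, s + 1 < M → t s < t (s + 1))
    (hlast : t (M - 1) < t 0 + 1)
    (hA : ∀ u, t 0 < u → u < t 0 + 1 → (∀ s < M, u ≠ t s) → Adm0 (palS (posX c F) u))
    {L K : ℕ → ι × Fin 6 → Λ} (hL : ∀ s < M, LimL (posX c F) G (t s) (L s))
    (hK : ∀ s < M, LimR (posX c F) G (t s) (K s)) :
    (∀ s, s + 1 < M → cls (K s) = cls (L (s + 1))) ∧ cls (K (M - 1)) = cls (rot (L 0)) := by
  have mono : ∀ s s', s ≤ s' → s' < M → t s ≤ t s' := by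
    intro s s' hss
    induction hss with
    | refl => exact fun _ => le_rfl
    | step _ ih => exact fun hm => (ih (by omega)).trans (ht _ hm).le
  have gap : ∀ s s', s < M → (s' = s + 1 ∨ s' = s) → ∀ u, t s < u → (s' = s + 1 → s' < M → u < t s') →
      (s + 1 = M → u < t 0 + 1) → (s' = s → s + 1 = M) → Adm0 (palS (posX c F) u) := by
    intro s s' hs hs' u h1 h2 h3 h4
    refine hA u ((mono 0 s (Nat.zero_le _) hs).trans_lt h1) ?_ ?_
    · rcases hs' with rfl | rfl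
      · by_cases hm : s + 1 < M
        · exact (h2 rfl hm).trans ((mono _ _ (by omega) (by omega)).trans_lt hlast)
        · exact h3 (by omega)
      · exact h3 (h4 rfl)
    · intro r hr e
      by_cases hrs : r ≤ s
      · exact absurd (mono r s hrs hs) (by rw [← e]; exact not_le.2 h1)
      · have hm : s + 1 < M := by omega
        rcases hs' with rfl | rfl
        · exact absurd (mono (s + 1) r (by omega) hr) (by rw [← e]; exact not_le.2 (h2 rfl hm))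
        · have := h4 rfl
          omega
  constructor
  · intro s hs
    obtain ⟨u, hu1, hu2, hu3, hu4⟩ := limR_near137 (hK s (by omega)) (ht s hs)
    obtain ⟨v, hv1, hv2, hv3, hv4⟩ := limL_near137 (hL (s + 1) hs) (ht s hs)
    refine (sys_mono137 S hC0).eq_of_cert hC (isPreconnected_Ioo (a := t s) (b := t (s + 1)))
      (fun x hx => gap s (s + 1) (by omega) (Or.inl rfl) x hx.1 (fun _ _ => hx.2)
        (fun e => by omega) (fun e => by omega)) ⟨hu1, hu2⟩ ⟨hv1, hv2⟩ hu4 ?_ hv4 ?_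
    · exact legal_mono137 hC0 (S.legal_of_gen hu3.1 hu3.2 hu4)
    · exact legal_mono137 hC0 (S.legal_of_gen hv3.1 hv3.2 hv4)
  · obtain ⟨u, hu1, hu2, hu3, hu4⟩ := limR_near137 (hK (M - 1) (by omega)) hlast
    obtain ⟨v, hv1, hv2, hv3, hv4⟩ := limL_near137 (hL 0 hM) (a := t (M - 1) - 1) (by linarith)
    have hl : Legal C1 (L 0) := S.legal_of_gen hv3.1 hv3.2 hv4
    refine (sys_mono137 S hC0).eq_of_cert hC (isPreconnected_Ioo (a := t (M - 1)) (b := t 0 + 1))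
      (fun x hx => gap (M - 1) (M - 1) (by omega) (Or.inr rfl) x hx.1 (fun e => by omega)
        (fun _ => hx.2) (fun _ => by omega)) ⟨hu1, hu2⟩
      (s' := v + 1) ⟨by linarith, by linarith⟩ hu4 ?_ (sel_rot hv4) (hrot _ hl)
    exact legal_mono137 hC0 (S.legal_of_gen hu3.1 hu3.2 hu4)

/-- **Slots and gaps, for all limits.** -/
theorem Rings.slots_all [Finite ι] [Finite Λ] {c : ι → ℂ} {col : ι → Λ → Set (Fin 6)}
    {F : ι → Λ → Set ℂ} (h : Irr U T) (R : Rings T c col F)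
    {C0 : ι × Fin 6 → Λ → ι × Fin 6 → Λ → Prop}
    (hC0 : ∀ p l p' l', C0 p l p' l' → Conf c col p l p' l')
    {cls : (ι × Fin 6 → Λ) → γ} {Adm0 : (ι × Fin 6 → Set Λ) → Prop} (hC : Cert C0 cls Adm0)
    {M : ℕ} (hM : 0 < M) {t : ℕ → ℝ} (ht : ∀ s, s + 1 < M → t s < t (s + 1))
    (hlast : t (M - 1) < t 0 + 1)
    (hA : ∀ u, t 0 < u → u < t 0 + 1 → (∀ s < M, u ≠ t s) → Adm0 (palS (posX c F) u))
    {L K : ℕ → ι × Fin 6 → Λ} (hL : ∀ s < M, LimL (posX c F) (Good c) (t s) (L s))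
    (hK : ∀ s < M, LimR (posX c F) (Good c) (t s) (K s)) :
    (∀ s, s + 1 < M → cls (K s) = cls (L (s + 1))) ∧ cls (K (M - 1)) = cls (rot (L 0)) :=
  sys_slots_all (R.sys h) hC0 (fun _ hk => legal_mono137 hC0 (legal_rot hk)) hC hM ht hlast hA hL hK

/-- **Slots and gaps.**  `N`: the times of the events; at the other slots nothing happens.  `K`: a
choice of limits. -/
theorem sys_exists_slots [Finite ι] [Finite Λ] {c : ι → ℂ} {F : ι → Λ → Set ℂ} {G : Set ℝ}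
    {C1 C0 : ι × Fin 6 → Λ → ι × Fin 6 → Λ → Prop} (S : Sys (posX c F) C1 G)
    (hC0 : ∀ p l p' l', C0 p l p' l' → C1 p l p' l') (hrot : ∀ k, Legal C1 k → Legal C0 (rot k))
    {cls : (ι × Fin 6 → Λ) → γ} {Adm0 : (ι × Fin 6 → Set Λ) → Prop} (hC : Cert C0 cls Adm0)
    {M : ℕ} (hM : 0 < M) {t : ℕ → ℝ} (ht : ∀ s, s + 1 < M → t s < t (s + 1))
    (hlast : t (M - 1) < t 0 + 1) {N : Set ℝ}
    (hgen : ∀ s < M, t s ∈ N ∨ t s ∈ G ∩ GenS (posX c F))
    (hN : ∀ u ∈ N, t 0 < u → u < t 0 + 1 → ∃ s < M, u = t s)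
    (hA : ∀ u, u ∉ N → Adm0 (palS (posX c F) u)) :
    ∃ w : ℕ → ι × Fin 6 → Λ,
      (∀ s < M, LimL (posX c F) G (t s) (w (2 * s)) ∧ LimR (posX c F) G (t s) (w (2 * s + 1))) ∧
      (∀ s < M, t s ∉ N → w (2 * s) = w (2 * s + 1)) ∧
      (∀ s < M, cls (w (2 * s + 1)) = cls (w (2 * s + 2))) ∧ w (2 * M) = rot (w 0) := by
  classical
  have key : ∀ s, ∃ LK : (ι × Fin 6 → Λ) × (ι × Fin 6 → Λ),
      LimL (posX c F) G (t s) LK.1 ∧ LimR (posX c F) G (t s) LK.2 ∧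
      (t s ∈ G ∩ GenS (posX c F) → LK.1 = LK.2) := by
    intro s
    by_cases hg : t s ∈ G ∩ GenS (posX c F)
    · obtain ⟨k, hk⟩ := S.exists_sel (t s)
      obtain ⟨h1, h2⟩ := sys_lim_of_gen S hg hk
      exact ⟨(k, k), h1, h2, fun _ => rfl⟩
    · obtain ⟨k, -, -, h1⟩ := S.exists_limL (t s)
      obtain ⟨k', -, -, h2⟩ := S.exists_limR (t s)
      exact ⟨(k, k'), h1, h2, fun hg' => absurd hg' hg⟩
  choose LK h1 h2 h3 using key
  obtain ⟨e1, e2⟩ := sys_slots_all S hC0 hrot hC hM ht hlast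
    (fun u hu1 hu2 hu3 => hA u fun hu => by
      obtain ⟨s, hs, e⟩ := hN u hu hu1 hu2
      exact hu3 s hs e) (L := fun s => (LK s).1) (K := fun s => (LK s).2)
    (fun s _ => h1 s) (fun s _ => h2 s)
  let w : ℕ → ι × Fin 6 → Λ := fun n => if n < 2 * M then
    (if n % 2 = 0 then (LK (n / 2)).1 else (LK (n / 2)).2) else rot (LK 0).1
  have w0 : ∀ s < M, w (2 * s) = (LK s).1 := by
    intro s hs
    have a1 : 2 * s < 2 * M := by omega
    have a2 : 2 * s % 2 = 0 := by omega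
    have a3 : 2 * s / 2 = s := by omega
    simp only [w, if_pos a1, if_pos a2, a3]
  have w1 : ∀ s < M, w (2 * s + 1) = (LK s).2 := by
    intro s hs
    have a1 : 2 * s + 1 < 2 * M := by omega
    have a2 : ¬ (2 * s + 1) % 2 = 0 := by omega
    have a3 : (2 * s + 1) / 2 = s := by omega
    simp only [w, if_pos a1, if_neg a2, a3]
  have w2 : w (2 * M) = rot (LK 0).1 := by
    have a1 : ¬ 2 * M < 2 * M := by omega
    simp only [w, if_neg a1]
  refine ⟨w, fun s hs => ?_, fun s hs hs' => ?_, fun s hs => ?_, ?_⟩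
  · rw [w0 s hs, w1 s hs]
    exact ⟨h1 s, h2 s⟩
  · rw [w0 s hs, w1 s hs]
    exact h3 s ((hgen s hs).resolve_left hs')
  · rw [w1 s hs]
    by_cases hm : s + 1 < M
    · rw [show 2 * s + 2 = 2 * (s + 1) by ring, w0 (s + 1) hm]
      exact e1 s hm
    · have e : s = M - 1 := by omega
      have e' : 2 * s + 2 = 2 * M := by omega
      rw [e', w2, e]
      exact e2
  · rw [w2, show (0 : ℕ) = 2 * 0 from rfl, w0 0 hM]

/-- **Slots and gaps.** -/
theorem Rings.exists_slots [Finite ι] [Finite Λ] {c : ι → ℂ} {col : ι → Λ → Set (Fin 6)}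
    {F : ι → Λ → Set ℂ} (h : Irr U T) (R : Rings T c col F)
    {C0 : ι × Fin 6 → Λ → ι × Fin 6 → Λ → Prop}
    (hC0 : ∀ p l p' l', C0 p l p' l' → Conf c col p l p' l')
    {cls : (ι × Fin 6 → Λ) → γ} {Adm0 : (ι × Fin 6 → Set Λ) → Prop} (hC : Cert C0 cls Adm0)
    {M : ℕ} (hM : 0 < M) {t : ℕ → ℝ} (ht : ∀ s, s + 1 < M → t s < t (s + 1))
    (hlast : t (M - 1) < t 0 + 1) {N : Set ℝ}
    (hgen : ∀ s < M, t s ∈ N ∨ t s ∈ Good c ∩ GenS (posX c F))
    (hN : ∀ u ∈ N, t 0 < u → u < t 0 + 1 → ∃ s < M, u = t s)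
    (hA : ∀ u, u ∉ N → Adm0 (palS (posX c F) u)) :
    ∃ w : ℕ → ι × Fin 6 → Λ,
      (∀ s < M, LimL (posX c F) (Good c) (t s) (w (2 * s)) ∧
        LimR (posX c F) (Good c) (t s) (w (2 * s + 1))) ∧
      (∀ s < M, t s ∉ N → w (2 * s) = w (2 * s + 1)) ∧
      (∀ s < M, cls (w (2 * s + 1)) = cls (w (2 * s + 2))) ∧ w (2 * M) = rot (w 0) :=
  sys_exists_slots (R.sys h) hC0 (fun _ hk => legal_mono137 hC0 (legal_rot hk)) hC hM ht hlast hgen
    hN hA

/-! ## The times -/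

theorem dense_infinite137 {D : Set ℝ} (hD : Dense D) {a b : ℝ} (hab : a < b) (A : Finset ℝ) :
    ((D ∩ Ioo a b) \ (A : Set ℝ)).Infinite := by
  intro hfin
  have ho : IsOpen (Ioo a b \ ((A : Set ℝ) ∪ ((D ∩ Ioo a b) \ (A : Set ℝ)))) :=
    isOpen_Ioo.sdiff (A.finite_toSet.union hfin).isClosed
  have hne : (Ioo a b \ ((A : Set ℝ) ∪ ((D ∩ Ioo a b) \ (A : Set ℝ)))).Nonempty :=
    ((Set.Ioo_infinite hab).sdiff (A.finite_toSet.union hfin)).nonempty
  obtain ⟨x, hxD, hx1, hx2⟩ := hD.exists_mem_open ho hne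
  exact hx2 (by
    by_cases hA : x ∈ (A : Set ℝ)
    · exact Or.inl hA
    · exact Or.inr ⟨⟨hxD, hx1⟩, hA⟩)

/-- finitely many times in a period, filled up to `M` slots -/
theorem exists_times {A : Finset ℝ} {a : ℝ} (ha : a ∈ A) (hA : ∀ u ∈ A, a ≤ u ∧ u < a + 1) {M : ℕ}
    (hM : A.card ≤ M) {D : Set ℝ} (hD : Dense D) :
    ∃ t : ℕ → ℝ, t 0 = a ∧ (∀ s, s + 1 < M → t s < t (s + 1)) ∧
      (∀ s s', s < M → s' < M → t s = t s' → s = s') ∧ (∀ s < M, a ≤ t s ∧ t s < a + 1) ∧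
      (∀ u ∈ A, ∃ s < M, t s = u) ∧ ∀ s < M, t s ∈ A ∨ t s ∈ D := by
  classical
  obtain ⟨E, hE, hEc⟩ := (dense_infinite137 hD (show a < a + 1 by linarith) A).exists_subset_card_eq
    (M - A.card)
  have hdis : Disjoint A E := Finset.disjoint_left.2 fun x hx hxE => (hE hxE).2 hx
  have hcard : (A ∪ E).card = M := by
    rw [Finset.card_union_of_disjoint hdis, hEc]; omega
  have hM0 : 0 < M := lt_of_lt_of_le (Finset.card_pos.2 ⟨a, ha⟩) hM
  have hB : ∀ x ∈ A ∪ E, (a ≤ x ∧ x < a + 1) ∧ (x ∈ A ∨ x ∈ D) := by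
    intro x hx
    rcases Finset.mem_union.1 hx with hx | hx
    · exact ⟨hA x hx, Or.inl hx⟩
    · exact ⟨⟨(hE hx).1.2.1.le, (hE hx).1.2.2⟩, Or.inr (hE hx).1.1⟩
  refine ⟨fun s => if hs : s < M then (A ∪ E).orderEmbOfFin hcard ⟨s, hs⟩ else 0, ?_, ?_, ?_, ?_,
    ?_, ?_⟩
  · simp only [dif_pos hM0]
    rw [Finset.orderEmbOfFin_zero hcard hM0]
    apply le_antisymm
    · exact Finset.min'_le _ _ (Finset.mem_union_left _ ha)
    · exact Finset.le_min' _ _ _ fun x hx => (hB x hx).1.1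
  · intro s hs
    have h0 : s < M := by omega
    simp only [dif_pos h0, dif_pos hs]
    exact ((A ∪ E).orderEmbOfFin hcard).strictMono (Fin.mk_lt_mk.2 (Nat.lt_succ_self s))
  · intro s s' hs hs' e
    simp only [dif_pos hs, dif_pos hs'] at e
    exact Fin.mk.inj (((A ∪ E).orderEmbOfFin hcard).injective e)
  · intro s hs
    simp only [dif_pos hs]
    exact (hB _ (Finset.orderEmbOfFin_mem _ hcard _)).1
  · intro u hu
    have h1 : u ∈ Set.range ((A ∪ E).orderEmbOfFin hcard) := by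
      rw [Finset.range_orderEmbOfFin]
      exact Finset.mem_coe.2 (Finset.mem_union_left _ hu)
    obtain ⟨⟨s, hs⟩, e⟩ := h1
    exact ⟨s, hs, by simp only [dif_pos hs]; exact e⟩
  · intro s hs
    simp only [dif_pos hs]
    exact (hB _ (Finset.orderEmbOfFin_mem _ hcard _)).2

/-- what is known about the slots of finitely many named points: the point `q j` of the ring `ri j` is met
exactly at the slot `σ j`, in the direction `κ j` -/
structure SlotTimes (c : ι → ℂ) (F : ι → Λ → Set ℂ) (ri : J → ι) (q : J → ℂ) (M : ℕ) (t : ℕ → ℝ)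
    (σ : J → ℕ) (κ : J → Fin 6) : Prop where
  lt : ∀ s, s + 1 < M → t s < t (s + 1)
  inj : ∀ s s', s < M → s' < M → t s = t s' → s = s'
  last : ∀ s < M, t 0 ≤ t s ∧ t s < t 0 + 1
  slot : ∀ j, σ j < M
  meet : ∀ j, pos c (ri j, κ j) (t (σ j)) = q j
  uniq : ∀ j s k, s < M → pos c (ri j, k) (t s) = q j → s = σ j ∧ k = κ j
  free : ∀ s < M, (∀ j, σ j ≠ s) → t s ∈ Good c ∩ GenS (posX c F)
  named : ∀ u, t 0 ≤ u → u < t 0 + 1 → ∀ j k, pos c (ri j, k) u = q j → u = t (σ j) ∧ k = κ j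

/-- **The times of the slots.**  The point `j0` is met at the slot `0` in the direction `k0`. -/
theorem Rings.exists_slotTimes [Finite ι] [Finite Λ] [Fintype J] {c : ι → ℂ}
    {col : ι → Λ → Set (Fin 6)} {F : ι → Λ → Set ℂ} (h : Irr U T) (R : Rings T c col F)
    {ri : J → ι} {q : J → ℂ} (hq : ∀ j, dist (q j) (c (ri j)) = 1) (j0 : J) (k0 : Fin 6) {M : ℕ}
    (hM : Fintype.card J ≤ M) :
    ∃ t σ κ, SlotTimes c F ri q M t σ κ ∧ σ j0 = 0 ∧ κ j0 = k0 := by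
  classical
  have S := R.sys h
  -- the starting time
  obtain ⟨a, ha⟩ : ∃ a, pos c (ri j0, k0) a = q j0 := by
    obtain ⟨u, k, -, -, h3⟩ := exists_meet (hq j0) 0
    refine ⟨u + (k.val : ℝ) - (k0.val : ℝ), ?_⟩
    unfold pos
    simpa using h3
  have hmeet : ∀ j, ∃ uk : ℝ × Fin 6, a ≤ uk.1 ∧ uk.1 < a + 1 ∧ pos c (ri j, uk.2) uk.1 = q j := by
    intro j
    obtain ⟨u, k, h1, h2, h3⟩ := exists_meet (hq j) a
    exact ⟨(u, k), h1, h2, h3⟩
  choose uk hu1 hu2 hu3 using hmeet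
  have huniq : ∀ (j : J) (k : Fin 6) (t : ℝ), a ≤ t → t < a + 1 → pos c (ri j, k) t = q j →
      t = (uk j).1 ∧ k = (uk j).2 := by
    intro j k t h1 h2 h3
    exact meet_unique (z := c (ri j)) h1 h2 (hu1 j) (hu2 j) (h3.trans (hu3 j).symm)
  have e0 := huniq j0 k0 a le_rfl (by linarith) ha
  obtain ⟨t, t0, t1, t2, t3, t4, t5⟩ := exists_times (A := Finset.univ.image fun j => (uk j).1)
    (a := a) (Finset.mem_image.2 ⟨j0, Finset.mem_univ _, e0.1.symm⟩)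
    (fun u hu => by
      obtain ⟨j, -, rfl⟩ := Finset.mem_image.1 hu
      exact ⟨hu1 j, hu2 j⟩) (M := M) (Finset.card_image_le.trans hM) (S.good_open_dense.2)
  have hM0 : 0 < M := lt_of_lt_of_le (Fintype.card_pos_iff.2 ⟨j0⟩) hM
  have key : ∀ j, ∃ s, s < M ∧ t s = (uk j).1 := fun j => by
    obtain ⟨s, hs, e⟩ := t4 _ (Finset.mem_image.2 ⟨j, Finset.mem_univ _, rfl⟩)
    exact ⟨s, hs, e⟩
  choose σ hσ1 hσ2 using key
  refine ⟨t, σ, fun j => (uk j).2, ⟨t1, t2, fun s hs => ?_, hσ1, fun j => ?_, ?_, ?_, ?_⟩, ?_,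
    e0.2.symm⟩
  · rw [t0]; exact t3 s hs
  · rw [hσ2 j]; exact hu3 j
  · intro j s k hs e
    obtain ⟨e1, e2⟩ := huniq j k (t s) (t3 s hs).1 (t3 s hs).2 e
    exact ⟨t2 s (σ j) hs (hσ1 j) (by rw [e1, hσ2 j]), e2⟩
  · intro s hs hns
    refine (t5 s hs).resolve_left fun hmem => ?_
    obtain ⟨j, -, e⟩ := Finset.mem_image.1 hmem
    exact hns j (t2 _ _ (hσ1 j) hs (by rw [hσ2 j]; exact e))
  · intro u h1 h2 j k e
    rw [t0] at h1 h2
    obtain ⟨e1, e2⟩ := huniq j k u h1 h2 e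
    exact ⟨by rw [hσ2 j]; exact e1, e2⟩
  · exact t2 _ _ (hσ1 j0) hM0 (by rw [hσ2 j0, t0]; exact e0.1.symm)

/-- a time in the period which is no slot is not a time of a named point -/
theorem SlotTimes.nm_empty {c : ι → ℂ} {F : ι → Λ → Set ℂ} {ri : J → ι} {q : J → ℂ} {M : ℕ}
    {t : ℕ → ℝ} {σ : J → ℕ} {κ : J → Fin 6} (H : SlotTimes c F ri q M t σ κ) {u : ℝ}
    (h1 : t 0 ≤ u) (h2 : u < t 0 + 1) (h3 : ∀ s < M, u ≠ t s) (j : J) (k : Fin 6) :
    pos c (ri j, k) u ≠ q j := fun e => h3 _ (H.slot j) (H.named u h1 h2 j k e).1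

/-- **Slots and gaps for named points.** -/
theorem Rings.slots_named [Finite ι] [Finite Λ] [Fintype J] {c : ι → ℂ}
    {col : ι → Λ → Set (Fin 6)} {F : ι → Λ → Set ℂ} (h : Irr U T) (R : Rings T c col F)
    {C0 : ι × Fin 6 → Λ → ι × Fin 6 → Λ → Prop}
    (hC0 : ∀ p l p' l', C0 p l p' l' → Conf c col p l p' l')
    {cls : (ι × Fin 6 → Λ) → γ} {Adm0 : (ι × Fin 6 → Set Λ) → Prop} (hC : Cert C0 cls Adm0)
    {ri : J → ι} {q : J → ℂ} (hq : ∀ j, dist (q j) (c (ri j)) = 1) (j0 : J) (k0 : Fin 6) {M : ℕ}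
    (hM : Fintype.card J ≤ M)
    (hA : ∀ u, (∀ j k, pos c (ri j, k) u ≠ q j) → Adm0 (palS (posX c F) u)) :
    ∃ t σ κ, SlotTimes c F ri q M t σ κ ∧ σ j0 = 0 ∧ κ j0 = k0 ∧
      ∃ w : ℕ → ι × Fin 6 → Λ,
        (∀ s < M, LimL (posX c F) (Good c) (t s) (w (2 * s)) ∧
          LimR (posX c F) (Good c) (t s) (w (2 * s + 1))) ∧
        (∀ s < M, (∀ j, σ j ≠ s) → w (2 * s) = w (2 * s + 1)) ∧
        (∀ s < M, cls (w (2 * s + 1)) = cls (w (2 * s + 2))) ∧ w (2 * M) = rot (w 0) := by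
  obtain ⟨t, σ, κ, H, e1, e2⟩ := R.exists_slotTimes h hq j0 k0 hM
  have hM0 : 0 < M := lt_of_lt_of_le (Fintype.card_pos_iff.2 ⟨j0⟩) hM
  refine ⟨t, σ, κ, H, e1, e2, ?_⟩
  obtain ⟨w, w1, w2, w3, w4⟩ := R.exists_slots h hC0 hC hM0 H.lt (H.last (M - 1) (by omega)).2
    (N := {u | ∃ j k, pos c (ri j, k) u = q j})
    (fun s hs => by
      by_cases hs' : ∀ j, σ j ≠ s
      · exact Or.inr (H.free s hs hs')
      · push Not at hs'
        obtain ⟨j, rfl⟩ := hs'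
        exact Or.inl ⟨j, κ j, H.meet j⟩)
    (fun u hu h1 h2 => by
      obtain ⟨j, k, e⟩ := hu
      exact ⟨σ j, H.slot j, (H.named u h1.le h2 j k e).1⟩)
    (fun u hu => hA u fun j k e => hu ⟨j, k, e⟩)
  refine ⟨w, w1, fun s hs hs' => w2 s hs ?_, w3, w4⟩
  rintro ⟨j, k, e⟩
  exact hs' j (H.uniq j s k hs e).1.symm

end Vale.Agent.P032.S5.H767
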