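import Vale.Agent.P032.R2.H741.Fst3
import Vale.Agent.P032.R2.H137.Bridge
import Vale.Agent.P032.R2.H137.Final

/-!
# P032: from the closure check (H741) to closed paths of named moves

`D`, `Tx`: conflicts and windows (masks and lists).  Kinds of named points: `kd j`; `nw K k`: the windows
of the kind `K` at the position `k`; `nwm K k`: their masks.  `label nwm r u`: the number
`∑ K < r, 8 ^ K * (number of positions with a window of the kind K in the union u)`.
`leaf`: the leaf test; a move whose union has label `0` keeps the class, a move with the label `l ≠ 0` is in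
the relation `rel l`.  `Rings.no_path_table`: the conclusion.
-/

set_option autoImplicit false

open Set Filter Topology Metric

noncomputable section

namespace Vale.Agent.P032.Words

open Vale.Agent.P032.R2.H741

variable {P Λ : Type} {n m : ℕ}

/-- the atom of a pair of numbers -/
def Enc.atm (E : Enc P Λ n m) (x : Atom) : P × Λ := (E.ps x.1, E.lt x.2)

/-- the atoms of a window -/
def Enc.wset (E : Enc P Λ n m) (w : List Atom) : Set (P × Λ) := {y | ∃ x ∈ w, E.atm x = y}

theorem Enc.wset_sub {E : Enc P Λ n m} {w : List Atom} {W : P → Set Λ} :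
    E.wset w ⊆ atoms W ↔ ∀ x ∈ w, E.At W x := by
  constructor
  · intro h x hx
    exact h ⟨x, hx, rfl⟩
  · rintro h _ ⟨x, hx, rfl⟩
    exact h x hx

/-- the conflicts of a text -/
def tconf (E : Enc P Λ n m) (X : Clo.Text) (p : P) (l : Λ) (p' : P) (l' : Λ) : Prop :=
  (E.ix p', E.lx l') ∈ X.C (E.ix p) (E.lx l)

theorem tconf_bit {D : Clo} {X : Clo.Text} (A : Clo.Agree D X) (E : Enc P Λ D.n D.m) {p : P} {l : Λ}
    {p' : P} {l' : Λ} : tconf E X p l p' l' ↔
      (D.conf (E.ix p) (E.lx l)).testBit (D.m * E.ix p' + E.lx l') = true := by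
  rw [A.conf _ (E.ix_lt p) _ (E.lx_lt l), testBit_msk]
  constructor
  · intro h
    exact ⟨_, h, rfl⟩
  · rintro ⟨x, hx, he⟩
    obtain ⟨a1, a2⟩ := A.cb _ (E.ix_lt p) _ (E.lx_lt l) x hx
    have hm := E.lx_lt l'
    have e1 : E.ix p' = x.1 := by
      have : (D.m * E.ix p' + E.lx l') / D.m = (D.m * x.1 + x.2) / D.m := by rw [he]
      rwa [Nat.mul_add_div (by omega), Nat.mul_add_div (by omega), Nat.div_eq_of_lt hm,
        Nat.div_eq_of_lt a2, Nat.add_zero, Nat.add_zero] at this
    have e2 : E.lx l' = x.2 := by rw [e1] at he; omega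
    show (E.ix p', E.lx l') ∈ X.C (E.ix p) (E.lx l)
    rw [e1, e2]
    exact hx

theorem tconf_symm {D : Clo} {X : Clo.Text} (A : Clo.Agree D X) (E : Enc P Λ D.n D.m) {p : P}
    {l : Λ} {p' : P} {l' : Λ} (h : tconf E X p l p' l') : tconf E X p' l' p l := by
  rw [tconf_bit A] at h ⊢
  rw [← A.symm _ (E.ix_lt p) _ (E.lx_lt l) _ (E.ix_lt p') _ (E.lx_lt l')]
  exact h

theorem clo_leg {D : Clo} {X : Clo.Text} (A : Clo.Agree D X) (E : Enc P Λ D.n D.m) {h : P → Λ}
    (hh : Legal (tconf E X) h) : Clo.Leg D (E.sel h) := by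
  refine ⟨fun q _ => E.sel_lt h q, fun p hp q hq => ?_⟩
  rw [Bool.eq_false_iff]
  intro hb
  refine hh (E.ps p) (E.ps q) ?_
  rw [tconf_bit A, E.ix_ps p hp, E.ix_ps q hq]
  exact hb

/-- a move of the closure form -/
theorem clo_gen {D : Clo} {X : Clo.Text} (A : Clo.Agree D X) (E : Enc P Λ D.n D.m)
    {W : P → Set Λ} {S : Set P} {h h' : P → Λ} (M : Move (tconf E X) W S h h') :
    ∃ p, Clo.Gen D (E.sel h) (E.sel h') p := by
  obtain ⟨p, hpS, hg⟩ := M.gen
  refine ⟨E.ix p, E.ix_lt p, ?_, ?_⟩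
  · rw [E.sel_ix, E.sel_ix]
    intro he
    have := congrArg E.lt he
    rw [E.lt_lx, E.lt_lx] at this
    exact (M.supp p).1 hpS this
  · intro Q hQp hQ q hq hne
    have hqS : E.ps q ∈ S := by
      rw [M.supp]
      intro he
      exact hne (by unfold Enc.sel; rw [he])
    have key : ∀ r, GenM (tconf E X) h h' p r → Q (E.ix r) := by
      intro r hr
      induction hr with
      | base => exact hQp
      | @step r s hr hc ih =>
        refine hQ (E.ix r) (E.ix s) ih (E.ix_lt r) (E.ix_lt s) ?_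
        rw [E.sel_ix, E.sel_ix]
        rcases hc with hc | hc
        · exact (tconf_bit A E).1 (tconf_symm A E hc)
        · exact (tconf_bit A E).1 hc
    have := key _ (hg _ hqS)
    rwa [E.ix_ps q hq] at this

/-- windows of a text in the union of two selections -/
theorem land_msk_iff {m n : ℕ} (E : Enc P Λ n m) {h h' : P → Λ} {w : List Atom}
    (hb : ∀ x ∈ w, x.1 < n ∧ x.2 < m) :
    Nat.land (Nat.lor (E.code h) (E.code h')) (msk m w) = msk m w ↔
      E.wset w ⊆ atoms (pairW h h') := by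
  rw [Enc.wset_sub]
  have hl : ∀ g : P → Λ, ∀ q < n, E.sel g q < m := fun g q _ => E.sel_lt g q
  have bit : ∀ x ∈ w, ((Nat.lor (E.code h) (E.code h')).testBit (m * x.1 + x.2) = true ↔
      E.At (pairW h h') x) := by
    intro x hx
    obtain ⟨a1, a2⟩ := hb x hx
    rw [Clo.lor_bit]
    unfold Enc.code
    rw [testBit_scode (hl h) a1 a2, testBit_scode (hl h') a1 a2, Bool.or_eq_true,
      decide_eq_true_eq, decide_eq_true_eq, E.sel_eq_iff a2, E.sel_eq_iff a2]
    unfold Enc.At pairW
    simp only [mem_insert_iff, mem_singleton_iff]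
    constructor
    · rintro (e | e)
      · exact Or.inl e.symm
      · exact Or.inr e.symm
    · rintro (e | e)
      · exact Or.inl e.symm
      · exact Or.inr e.symm
  constructor
  · intro he x hx
    have b1 : (msk m w).testBit (m * x.1 + x.2) = true := testBit_msk.2 ⟨x, hx, rfl⟩
    have b2 : (Nat.land (Nat.lor (E.code h) (E.code h')) (msk m w)).testBit (m * x.1 + x.2) =
        true := by rw [he]; exact b1
    rw [Clo.land_bit, b1, Bool.and_true] at b2
    exact (bit x hx).1 b2
  · intro hA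
    apply Nat.eq_of_testBit_eq
    intro i
    rw [Clo.land_bit]
    by_cases hi : (msk m w).testBit i = true
    · obtain ⟨x, hx, he⟩ := testBit_msk.1 hi
      rw [hi, Bool.and_true, he]
      exact (bit x hx).2 (hA x hx)
    · rw [Bool.not_eq_true] at hi
      rw [hi, Bool.and_false]

/-- the number of the positions `k < c` with a window in `u` -/
def cntP (f : ℕ → List ℕ) (u : ℕ) : ℕ → ℕ
  | 0 => 0
  | k + 1 => (if (f k).any fun w => Nat.beq (Nat.land u w) w then 1 else 0) + cntP f u k

/-- the label of a union -/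
def label (nwm : ℕ → ℕ → List ℕ) (u : ℕ) : ℕ → ℕ
  | 0 => 0
  | r + 1 => cntP (nwm r) u 6 * 8 ^ r + label nwm u r

/-- the leaf test -/
def leaf (nwm : ℕ → ℕ → List ℕ) (r : ℕ) (cls : ℕ → ℕ) (rel : ℕ → ℕ → ℕ → Bool) (_p c c' : ℕ) :
    Bool :=
  if Nat.beq (label nwm (Nat.lor c c') r) 0 then Nat.beq (cls c') (cls c)
  else rel (label nwm (Nat.lor c c') r) (cls c) (cls c')

theorem cntP_eq (f : ℕ → List ℕ) (u : ℕ) : ∀ c : ℕ, cntP f u c =
    ((Finset.range c).filter fun k => ((f k).any fun w => Nat.beq (Nat.land u w) w) = true).card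
  | 0 => by simp [cntP]
  | c + 1 => by
    rw [cntP, cntP_eq f u c, Finset.range_add_one, Finset.filter_insert]
    split_ifs with h
    · rw [Finset.card_insert_of_notMem (by simp)]
      omega
    · omega

theorem label_eq (nwm : ℕ → ℕ → List ℕ) (u : ℕ) : ∀ r : ℕ, label nwm u r =
    ∑ K ∈ Finset.range r, cntP (nwm K) u 6 * 8 ^ K
  | 0 => by simp [label]
  | r + 1 => by rw [label, label_eq nwm u r, Finset.sum_range_succ]; omega

/-! ## Named windows of kinds -/

/-- the masks of the named windows are the masks of the lists, and they determine kind and position -/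
structure NAgree (n m r : ℕ) (nwm : ℕ → ℕ → List ℕ) (nw : ℕ → ℕ → List (List Atom)) : Prop where
  mask : ∀ K < r, ∀ k < 6, nwm K k = (nw K k).map (msk m)
  bd : ∀ K < r, ∀ k < 6, ∀ w ∈ nw K k, ∀ x ∈ w, x.1 < n ∧ x.2 < m
  dis : ∀ K < r, ∀ k < 6, ∀ w ∈ nwm K k, ∀ K' < r, ∀ k' < 6, ∀ w' ∈ nwm K' k', w = w' →
    K = K' ∧ k = k'

variable {J : Type}

/-- the windows which are never present: those of the text, and those of the kinds without a point -/
def WuT (E : Enc P Λ n m) (X : Clo.Text) (nw : ℕ → ℕ → List (List Atom)) (r : ℕ) (kd : J → ℕ) :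
    Set (Set (P × Λ)) :=
  {v | (∃ w ∈ X.W, v = E.wset w) ∨
    ∃ K < r, (∀ j, kd j ≠ K) ∧ ∃ k < 6, ∃ w ∈ nw K k, v = E.wset w}

/-- the named windows -/
def WnT (E : Enc P Λ n m) (nw : ℕ → ℕ → List (List Atom)) (kd : J → ℕ) (x : J × Fin 6) :
    Set (Set (P × Λ)) := {v | ∃ w ∈ nw (kd x.1) x.2.val, v = E.wset w}

theorem msk_eq_of_wset (E : Enc P Λ n m) {w w' : List Atom} (hb : ∀ x ∈ w, x.1 < n ∧ x.2 < m)
    (hb' : ∀ x ∈ w', x.1 < n ∧ x.2 < m) (h : E.wset w = E.wset w') : msk m w = msk m w' := by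
  have key : ∀ {w w' : List Atom}, (∀ x ∈ w, x.1 < n ∧ x.2 < m) →
      (∀ x ∈ w', x.1 < n ∧ x.2 < m) → E.wset w = E.wset w' → ∀ i, (msk m w).testBit i = true →
      (msk m w').testBit i = true := by
    intro w w' hb hb' h i hi
    obtain ⟨x, hx, he⟩ := testBit_msk.1 hi
    have h1 : E.atm x ∈ E.wset w' := by rw [← h]; exact ⟨x, hx, rfl⟩
    obtain ⟨x', hx', he'⟩ := h1
    have e1 : E.ps x'.1 = E.ps x.1 := congrArg Prod.fst he'
    have e2 : E.lt x'.2 = E.lt x.2 := congrArg Prod.snd he'
    have e3 : x'.1 = x.1 := by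
      rw [← E.ix_ps _ (hb' x' hx').1, e1, E.ix_ps _ (hb x hx).1]
    have e4 : x'.2 = x.2 := by
      rw [← E.lx_lt' _ (hb' x' hx').2, e2, E.lx_lt' _ (hb x hx).2]
    exact testBit_msk.2 ⟨x', hx', by rw [he, e3, e4]⟩
  apply Nat.eq_of_testBit_eq
  intro i
  rw [Bool.eq_iff_iff]
  exact ⟨key hb hb' h i, key hb' hb h.symm i⟩

section
variable {D : Clo} {X : Clo.Text} {r : ℕ} {nwm : ℕ → ℕ → List ℕ} {nw : ℕ → ℕ → List (List Atom)}

/-- presence of a kind at a position -/
theorem pres_iff (E : Enc P Λ n m) (NA : NAgree n m r nwm nw) {K k : ℕ} (hK : K < r) (hk : k < 6)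
    {h h' : P → Λ} :
    ((nwm K k).any fun w => Nat.beq (Nat.land (Nat.lor (E.code h) (E.code h')) w) w) = true ↔
      ∃ w ∈ nw K k, E.wset w ⊆ atoms (pairW h h') := by
  rw [NA.mask K hK k hk, List.any_map, List.any_eq_true]
  constructor
  · rintro ⟨w, hw, h1⟩
    exact ⟨w, hw, (land_msk_iff E (NA.bd K hK k hk w hw)).1 (Nat.eq_of_beq_eq_true h1)⟩
  · rintro ⟨w, hw, h1⟩
    refine ⟨w, hw, ?_⟩
    have := (land_msk_iff E (NA.bd K hK k hk w hw)).2 h1
    show Nat.beq (Nat.land (Nat.lor (E.code h) (E.code h')) (msk m w)) (msk m w) = true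
    rw [this]
    exact Nat.beq_refl _

theorem noWin_of_adm (A : Clo.Agree D X) (E : Enc P Λ D.n D.m) {kd : J → ℕ} {N : Set (J × Fin 6)}
    {h h' : P → Λ} (hA : AdmM (WuT E X nw r kd) (WnT E nw kd) N (pairW h h')) :
    Clo.NoWin D (E.sel h) (E.sel h') := by
  intro w hw he
  rw [A.wins, List.mem_map] at hw
  obtain ⟨w', hw', rfl⟩ := hw
  exact hA.un _ (Or.inl ⟨w', hw', rfl⟩) ((land_msk_iff E (A.wb w' hw')).1 he)

/-- the label of the union of a move whose named points are those of `S` -/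
theorem label_of_adm (E : Enc P Λ D.n D.m) (NA : NAgree D.n D.m r nwm nw)
    {kd : J → ℕ} (hkd : ∀ j, kd j < r) {κ : J → Fin 6} {S : Finset J}
    (hinj : ∀ j ∈ S, ∀ j' ∈ S, kd j = kd j' → κ j = κ j' → j = j') {h h' : P → Λ}
    (hA : AdmM (WuT E X nw r kd) (WnT E nw kd) ((fun j => (j, κ j)) '' (S : Set J)) (pairW h h'))
    (hp : ∀ x ∈ (fun j => (j, κ j)) '' (S : Set J), ∃ w ∈ WnT E nw kd x, w ⊆ atoms (pairW h h')) :
    label nwm (Nat.lor (E.code h) (E.code h')) r = ∑ j ∈ S, 8 ^ kd j := by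
  classical
  rw [label_eq]
  have h1 : ∀ K ∈ Finset.range r, cntP (nwm K) (Nat.lor (E.code h) (E.code h')) 6 =
      (S.filter fun j => kd j = K).card := by
    intro K hK
    rw [Finset.mem_range] at hK
    rw [cntP_eq]
    symm
    refine Finset.card_bij (fun j _ => (κ j).val) ?_ ?_ ?_
    · intro j hj
      rw [Finset.mem_filter] at hj
      rw [Finset.mem_filter, Finset.mem_range]
      refine ⟨(κ j).isLt, ?_⟩
      rw [pres_iff E NA hK (κ j).isLt]
      obtain ⟨v, ⟨w, hw, rfl⟩, hsub⟩ := hp (j, κ j) ⟨j, hj.1, rfl⟩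
      simp only at hw
      rw [hj.2] at hw
      exact ⟨w, hw, hsub⟩
    · intro j hj j' hj' he
      rw [Finset.mem_filter] at hj hj'
      exact hinj j hj.1 j' hj'.1 (hj.2.trans hj'.2.symm) (Fin.ext he)
    · intro k hk
      rw [Finset.mem_filter, Finset.mem_range, ] at hk
      obtain ⟨hk6, hk2⟩ := hk
      rw [pres_iff E NA hK hk6] at hk2
      obtain ⟨w, hw, hsub⟩ := hk2
      by_cases hex : ∃ j, kd j = K
      · obtain ⟨j0, hj0⟩ := hex
        obtain ⟨y, ⟨j, hj, rfl⟩, w', hw', he⟩ := hA.nm (j0, ⟨k, hk6⟩) (E.wset w)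
          ⟨w, by rw [hj0]; exact hw, rfl⟩ hsub
        simp only at hw'
        have hm := msk_eq_of_wset E (NA.bd K hK k hk6 w hw)
          (NA.bd _ (hkd j) _ (κ j).isLt w' hw') he
        obtain ⟨e1, e2⟩ := NA.dis K hK k hk6 (msk D.m w)
          (by rw [NA.mask K hK k hk6]; exact List.mem_map_of_mem hw) (kd j) (hkd j) (κ j).val
          (κ j).isLt (msk D.m w')
          (by rw [NA.mask _ (hkd j) _ (κ j).isLt]; exact List.mem_map_of_mem hw') hm
        exact ⟨j, by rw [Finset.mem_filter]; exact ⟨hj, e1.symm⟩, e2.symm⟩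
      · push Not at hex
        exact absurd hsub (hA.un _ (Or.inr ⟨K, hK, hex, k, hk6, w, hw, rfl⟩))
  rw [Finset.sum_congr rfl fun K hK => by rw [h1 K hK]]
  rw [← Finset.sum_fiberwise_of_maps_to (s := S) (t := Finset.range r) (g := kd)
    (fun j _ => Finset.mem_range.2 (hkd j)) (fun j => 8 ^ kd j)]
  refine Finset.sum_congr rfl fun K _ => ?_
  rw [Finset.sum_congr rfl (g := fun _ => 8 ^ K) fun j hj => by rw [(Finset.mem_filter.1 hj).2]]
  rw [Finset.sum_const, smul_eq_mul]

variable {cls : ℕ → ℕ} {rel : ℕ → ℕ → ℕ → Bool}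

/-- **The classes are constant under moves without windows.** -/
theorem cert_of_clo [Finite P] (A : Clo.Agree D X) (E : Enc P Λ D.n D.m)
    (NA : NAgree D.n D.m r nwm nw) (hc : Clo.Chk D (leaf nwm r cls rel)) {kd : J → ℕ}
    (hkd : ∀ j, kd j < r) :
    Cert (tconf E X) (fun h => cls (E.code h))
      (AdmM (WuT E X nw r kd) (WnT E nw kd) (∅ : Set (J × Fin 6))) := by
  classical
  refine cert_of_moves_pair admM_anti fun S h h' M hA => ?_
  obtain ⟨p, hg⟩ := clo_gen A E M
  have h1 := hc _ _ p (clo_leg A E M.leg) (clo_leg A E M.leg') (noWin_of_adm A E hA) hg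
  have e : ((fun j : J => (j, (0 : Fin 6))) '' ((∅ : Finset J) : Set J)) = ∅ := by simp
  have h2 := label_of_adm E NA hkd (κ := fun _ => 0) (S := ∅) (by simp) (h := h) (h' := h')
    (by rw [e]; exact hA) (by rw [e]; simp)
  rw [Finset.sum_empty] at h2
  change (if Nat.beq (label nwm (Nat.lor (E.code h) (E.code h')) r) 0 then
    Nat.beq (cls (E.code h')) (cls (E.code h)) else _) = true at h1
  rw [h2, if_pos (Nat.beq_refl 0)] at h1
  exact (Nat.eq_of_beq_eq_true h1).symm

/-- **Named moves are in the relation of their label.** -/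
theorem rel_of_clo (A : Clo.Agree D X) (E : Enc P Λ D.n D.m)
    (NA : NAgree D.n D.m r nwm nw) (hc : Clo.Chk D (leaf nwm r cls rel)) {kd : J → ℕ}
    (hkd : ∀ j, kd j < r) {κ : J → Fin 6} {S : Finset J} (hS : S.Nonempty)
    (hinj : ∀ j ∈ S, ∀ j' ∈ S, kd j = kd j' → κ j = κ j' → j = j') {x y : ℕ}
    (hR : MoveR (tconf E X) (fun h => cls (E.code h)) (WuT E X nw r kd) (WnT E nw kd)
      ((fun j => (j, κ j)) '' (S : Set J)) x y) : rel (∑ j ∈ S, 8 ^ kd j) x y = true := by
  obtain ⟨Q, h, h', M, hA, hp, rfl, rfl⟩ := hR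
  obtain ⟨p, hg⟩ := clo_gen A E M
  have h1 := hc _ _ p (clo_leg A E M.leg) (clo_leg A E M.leg') (noWin_of_adm A E hA) hg
  have h2 := label_of_adm E NA hkd hinj hA hp
  change (if Nat.beq (label nwm (Nat.lor (E.code h) (E.code h')) r) 0 then
      Nat.beq (cls (E.code h')) (cls (E.code h)) else
      rel (label nwm (Nat.lor (E.code h) (E.code h')) r) (cls (E.code h)) (cls (E.code h'))) =
      true at h1
  have h3 : ∑ j ∈ S, 8 ^ kd j ≠ 0 := by
    obtain ⟨j, hj⟩ := hS
    have : 0 < ∑ j ∈ S, 8 ^ kd j := Finset.sum_pos (fun _ _ => by positivity) ⟨j, hj⟩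
    omega
  rw [h2] at h1
  rw [if_neg (fun e => h3 (Nat.eq_of_beq_eq_true e))] at h1
  exact h1

end

/-! ## The closing search -/

/-- image of a set of classes -/
def img (row : ℕ → ℕ) (V : ℕ) : ℕ → ℕ
  | 0 => 0
  | c + 1 => if Nat.testBit V c then Nat.lor (row c) (img row V c) else img row V c

/-- all splittings of a list -/
def splits : List ℕ → List (List ℕ × List ℕ)
  | [] => [([], [])]
  | a :: L => (splits L).map (fun s => (a :: s.1, s.2)) ++ (splits L).map fun s => (s.1, a :: s.2)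

/-- the label of a list of kinds -/
def labL : List ℕ → ℕ
  | [] => 0
  | a :: L => 8 ^ a + labL L

/-- no path from the set `V` of classes to the class `tgt` which uses the kinds of the list -/
def dead (row : ℕ → ℕ → ℕ) (N tgt : ℕ) : ℕ → List ℕ → ℕ → Bool
  | 0, _, _ => false
  | k + 1, A, V => !Nat.testBit V tgt && (splits A).all fun s =>
      s.1.isEmpty || dead row N tgt k s.2 (img (row (labL s.1)) V N)

theorem testBit_img {row : ℕ → ℕ} {V y y' : ℕ} : ∀ {c : ℕ}, y < c → Nat.testBit V y = true →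
    Nat.testBit (row y) y' = true → Nat.testBit (img row V c) y' = true
  | 0, h, _, _ => absurd h (by omega)
  | c + 1, h, h1, h2 => by
    rw [img]
    by_cases e : y = c
    · subst e
      rw [if_pos h1, Clo.lor_bit, h2, Bool.true_or]
    · have ih := testBit_img (row := row) (c := c) (by omega) h1 h2
      split_ifs
      · rw [Clo.lor_bit, ih, Bool.or_true]
      · exact ih

theorem splits_filter {J : Type} (kd : J → ℕ) (p : J → Bool) : ∀ L : List J,
    ((L.filter p).map kd, (L.filter fun j => !p j).map kd) ∈ splits (L.map kd)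
  | [] => by simp [splits]
  | a :: L => by
    have ih := splits_filter kd p L
    rw [List.map_cons, splits, List.mem_append]
    by_cases ha : p a = true
    · left
      rw [List.filter_cons_of_pos ha, List.filter_cons_of_neg (by simp [ha]), List.map_cons]
      exact List.mem_map.2 ⟨_, ih, rfl⟩
    · right
      rw [List.filter_cons_of_neg ha, List.filter_cons_of_pos (by simpa using ha), List.map_cons]
      exact List.mem_map.2 ⟨_, ih, rfl⟩

theorem labL_map {J : Type} (kd : J → ℕ) : ∀ L : List J, labL (L.map kd) = (L.map fun j => 8 ^ kd j).sum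
  | [] => rfl
  | a :: L => by rw [List.map_cons, labL, labL_map kd L, List.map_cons, List.sum_cons]

/-- **Soundness of the closing search.** -/
theorem dead_sound {J : Type} [DecidableEq J] {kd : J → ℕ} {row : ℕ → ℕ → ℕ} {N : ℕ}
    {R : Set J → ℕ → ℕ → Prop}
    (hR : ∀ S : Finset J, S.Nonempty → ∀ x y, R (S : Set J) x y →
      x < N ∧ Nat.testBit (row (∑ j ∈ S, 8 ^ kd j) x) y = true) {A : Set J} {x y : ℕ}
    (hp : LPath R A x y) : ∀ (k : ℕ) (L : List J) (V : ℕ), L.Nodup → (∀ j, j ∈ L ↔ j ∈ A) →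
      dead row N y k (L.map kd) V = true → Nat.testBit V x = true → False := by
  induction hp with
  | nil A x =>
    intro k L V _ _ hd hV
    cases k with
    | zero => rw [dead] at hd; exact absurd hd (by simp)
    | succ k =>
      rw [dead, Bool.and_eq_true, hV] at hd
      exact absurd hd.1 (by simp)
  | @step S A x m' y hS hs h1 _ ih =>
    intro k L V hL hLA hd hV
    classical
    cases k with
    | zero => rw [dead] at hd; exact absurd hd (by simp)
    | succ k =>
      rw [dead, Bool.and_eq_true, List.all_eq_true] at hd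
      have h2 := hd.2 _ (splits_filter kd (fun j => decide (j ∈ S)) L)
      have hset : (((L.filter fun j => decide (j ∈ S)).toFinset : Finset J) : Set J) = S := by
        ext j
        simp only [List.coe_toFinset, List.mem_filter, decide_eq_true_eq, Set.mem_ofPred_eq]
        exact ⟨fun h => h.2, fun h => ⟨(hLA j).2 (hs h), h⟩⟩
      have hne : (L.filter fun j => decide (j ∈ S)).toFinset.Nonempty := by
        obtain ⟨j, hj⟩ := hS
        refine ⟨j, ?_⟩
        rw [List.mem_toFinset, List.mem_filter]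
        exact ⟨(hLA j).2 (hs hj), by simpa using hj⟩
      obtain ⟨h3, h4⟩ := hR _ hne x m' (by rw [hset]; exact h1)
      have hsum : ∑ j ∈ (L.filter fun j => decide (j ∈ S)).toFinset, 8 ^ kd j =
          labL ((L.filter fun j => decide (j ∈ S)).map kd) := by
        rw [labL_map, ← List.sum_toFinset _ (hL.filter _)]
      rw [hsum] at h4
      have h5 : ((L.filter fun j => decide (j ∈ S)).map kd).isEmpty = false := by
        rw [List.isEmpty_eq_false_iff]
        intro he
        rw [List.map_eq_nil_iff] at he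
        rw [he] at hne
        exact absurd hne (by simp)
      simp only at h2
      rw [h5, Bool.false_or] at h2
      refine ih k (L.filter fun j => !decide (j ∈ S)) _ (hL.filter _) ?_ h2
        (testBit_img h3 hV h4)
      intro j
      rw [List.mem_filter, hLA j]
      simp

end Vale.Agent.P032.Words
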