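import Vale.Agent.P032.R2.H137.Table

/-!
# P032: no closed path, from tables

`Rings.no_path_table`: `hc` comes from a check of H741 (`Clo.chk_of_check` or `Fst.Tbl.chk`), `hrho` from
`Clo.selAll_sound` or `Fst.Tbl.all`; the hypotheses about the plane are `hU`, `hM` (which windows are
absent) and the named points.
-/

set_option autoImplicit false

open Set Filter Topology Metric

namespace Vale.Agent.P032.S5.H767

open Vale.Agent.P032.Six Vale.Agent.P032.Words Vale.Agent.P032.R2.H741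

variable {U : Fin 6 → Set ℂ} {T : ℂ → Set (Fin 6)} {ι Λ J : Type}

/-- the code contains a window -/
def hasWin (D : Clo) (a : ℕ) : Bool := D.wins.any fun w => Nat.beq (Nat.land a w) w

/-- the check of the rotation -/
def rotChk (D : Clo) (cls rho : ℕ → ℕ) (N : ℕ) (π0 : ℕ → ℕ) (a : ℕ) : Bool :=
  hasWin D a || (Nat.blt (cls a) N && Nat.beq (cls (recode D.m D.n π0 a)) (rho (cls a)))

theorem not_hasWin {P : Type} {D : Clo} {X : Clo.Text} (A : Clo.Agree D X)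
    (E : Enc P Λ D.n D.m) {W : P → Set Λ} (hW : ∀ w ∈ X.W, ¬ ∀ x ∈ w, E.At W x) {s : P → Λ}
    (hs : SelW W s) : hasWin D (E.code s) = false := by
  rw [Bool.eq_false_iff]
  intro h
  rw [hasWin, List.any_eq_true] at h
  obtain ⟨w, hw, h1⟩ := h
  rw [A.wins, List.mem_map] at hw
  obtain ⟨w', hw', rfl⟩ := hw
  have h2 := Nat.eq_of_beq_eq_true h1
  have h3 : Nat.land (Nat.lor (E.code s) (E.code s)) (msk D.m w') = msk D.m w' := by
    have e : Nat.lor (E.code s) (E.code s) = E.code s := Nat.or_self _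
    rw [e]; exact h2
  have h4 := (land_msk_iff E (A.wb w' hw')).1 h3
  rw [Enc.wset_sub] at h4
  refine hW w' hw' fun x hx => ?_
  rcases h4 x hx with e | e
  · show E.lt x.2 ∈ W (E.ps x.1)
    rw [e]; exact hs _
  · have e' : E.lt x.2 = s (E.ps x.1) := e
    show E.lt x.2 ∈ W (E.ps x.1)
    rw [e']; exact hs _

theorem noWin_self {P : Type} {D : Clo} {X : Clo.Text} (_A : Clo.Agree D X)
    (E : Enc P Λ D.n D.m) {s : P → Λ} (hs : hasWin D (E.code s) = false) :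
    Clo.NoWin D (E.sel s) (E.sel s) := by
  intro w hw he
  rw [Bool.eq_false_iff] at hs
  refine hs ?_
  rw [hasWin, List.any_eq_true]
  refine ⟨w, hw, ?_⟩
  have e : Nat.lor (scode D.m (E.sel s) D.n) (scode D.m (E.sel s) D.n) = E.code s := Nat.or_self _
  rw [e] at he
  rw [he]
  exact Nat.beq_refl _

/-- **Closed paths of classes.**  Everything except `dead`. -/
theorem Rings.path_table [Finite ι] [Finite Λ] [Fintype J] [DecidableEq J] {c : ι → ℂ}
    {col : ι → Λ → Set (Fin 6)} {F : ι → Λ → Set ℂ} (h : Irr U T) (R : Rings T c col F)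
    {D : Clo} {X : Clo.Text} (A : Clo.Agree D X) (E : Enc (ι × Fin 6) Λ D.n D.m)
    (hC0 : ∀ p l p' l', tconf E X p l p' l' → Conf c col p l p' l')
    {r : ℕ} {nwm : ℕ → ℕ → List ℕ} {nw : ℕ → ℕ → List (List Atom)} (NA : NAgree D.n D.m r nwm nw)
    {cls : ℕ → ℕ} {row : ℕ → ℕ → ℕ}
    (hc : Clo.Chk D (leaf nwm r cls fun l x y => Nat.testBit (row l x) y))
    {N : ℕ} {rho π0 : ℕ → ℕ} (hπ : ∀ i < D.n, E.ix ((E.ps i).1, (E.ps i).2 + 1) = π0 i)
    (hrho : ∀ h, Clo.Leg D h → Clo.NoWin D h h → rotChk D cls rho N π0 (scode D.m h D.n) = true)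
    {kd : J → ℕ} (hkd : ∀ j, kd j < r) {ri : J → ι} {q : J → ℂ}
    (hq : ∀ j, dist (q j) (c (ri j)) = 1) (hri : ∀ j j', kd j = kd j' → ri j = ri j')
    (hinj : ∀ j j', kd j = kd j' → q j = q j' → j = j')
    (hloc : ∀ j, ∀ k : Fin 6, ∀ w ∈ nw (kd j) k.val, ∃ l l', l ≠ l' ∧ l < D.m ∧ l' < D.m ∧
      (E.ix (ri j, k), l) ∈ w ∧ (E.ix (ri j, k), l') ∈ w)
    (hU : ∀ t, ∀ w ∈ X.W, ¬ ∀ x ∈ w, E.At (palS (posX c F) t) x)
    (hM : ∀ t, ∀ K < r, ∀ k : Fin 6, ∀ w ∈ nw K k.val, (∀ x ∈ w, E.At (palS (posX c F) t) x) →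
      ∃ j, kd j = K ∧ pos c (ri j, k) t = q j) {a0 b0 : ℝ} (hab : a0 < b0) :
    ∃ a, a0 < a ∧ a < b0 ∧ nm c ri q a = ∅ ∧ ∃ κ : J → Fin 6, ∃ τ : J → ℝ,
      (∀ j, a < τ j ∧ τ j < a + 1 ∧ pos c (ri j, κ j) (τ j) = q j) ∧
      ∃ s, Sel (posX c F) a s ∧ Legal (Conf c col) s ∧ cls (E.code s) < N ∧
        TPath τ (fun S : Set J => fun x y => x < N ∧ ∀ S' : Finset J, (S' : Set J) = S →
          Nat.testBit (row (∑ j ∈ S', 8 ^ kd j) x) y = true) univ
          (cls (E.code s)) (rho (cls (E.code s))) := by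
  classical
  have hloc' : ∀ x : J × Fin 6, ∀ w ∈ WnT E nw kd x, ∀ h h', Legal (tconf E X) h →
      Legal (tconf E X) h' → w ⊆ atoms (pairW h h') → h (ri x.1, x.2) ≠ h' (ri x.1, x.2) := by
    rintro ⟨j, k⟩ _ ⟨w, hw, rfl⟩ g g' _ _ hsub he
    obtain ⟨l, l', hne, hl, hl', h1, h2⟩ := hloc j k w hw
    have m1 := hsub ⟨_, h1, rfl⟩
    have m2 := hsub ⟨_, h2, rfl⟩
    simp only at he
    have m1' : E.lt l ∈ pairW g g' (E.ps (E.ix (ri j, k))) := m1
    have m2' : E.lt l' ∈ pairW g g' (E.ps (E.ix (ri j, k))) := m2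
    rw [E.ps_ix] at m1' m2'
    unfold pairW at m1' m2'
    rw [← he] at m1' m2'
    simp only [mem_insert_iff, mem_singleton_iff, or_self] at m1' m2'
    apply hne
    rw [← E.lx_lt' l hl, ← E.lx_lt' l' hl', m1', m2']
  have hA : ∀ t, AdmM (WuT E X nw r kd) (WnT E nw kd) (nm c ri q t : Set (J × Fin 6))
      (palS (posX c F) t) := by
    intro t
    constructor
    · rintro v (⟨w, hw, rfl⟩ | ⟨K, hK, hno, k, hk, w, hw, rfl⟩) hsub
      · exact hU t w hw (Enc.wset_sub.1 hsub)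
      · obtain ⟨j, hj, -⟩ := hM t K hK ⟨k, hk⟩ w hw (Enc.wset_sub.1 hsub)
        exact hno j hj
    · rintro ⟨j, k⟩ _ ⟨w, hw, rfl⟩ hsub
      obtain ⟨j', hj', hp⟩ := hM t (kd j) (hkd j) k w hw (Enc.wset_sub.1 hsub)
      refine ⟨(j', k), ?_, w, ?_, rfl⟩
      · exact mem_nm.2 hp
      · show w ∈ nw (kd j') k.val
        rw [hj']; exact hw
  have hrot : ∀ s : ι × Fin 6 → Λ, E.code (rot s) = recode D.m D.n π0 (E.code s) := by
    intro s
    have h1 := E.code_comp (π := fun p => (p.1, p.2 + 1)) (h := s)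
    have h2 : (fun p => s ((fun p : ι × Fin 6 => (p.1, p.2 + 1)) p)) = rot s := rfl
    rw [h2] at h1
    rw [h1]
    refine pcode_congr fun i hi => ?_
    show pdig D.m (E.code s) (E.ix ((E.ps i).1, (E.ps i).2 + 1)) = _
    rw [hπ i hi]
  have hchk : ∀ s, Legal (tconf E X) s → hasWin D (E.code s) = false → cls (E.code s) < N ∧
      cls (E.code (rot s)) = rho (cls (E.code s)) := by
    intro s hl hw
    have h1 := hrho _ (clo_leg A E hl) (noWin_self A E hw)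
    change rotChk D cls rho N π0 (E.code s) = true at h1
    rw [rotChk, hw, Bool.false_or, Bool.and_eq_true, ← hrot s] at h1
    exact ⟨by have h2 := h1.1; rwa [Nat.blt_eq] at h2, Nat.eq_of_beq_eq_true h1.2⟩
  obtain ⟨a, h1, h2, h3, κ, τ, h4, s, h5, h6, hp⟩ := R.no_path_moves h hC0 hq
    (cert_of_clo A E NA hc hkd) hloc' hA hab
  obtain ⟨g1, g2⟩ := hchk s (legal_mono137 hC0 h6) (not_hasWin A E (hU a) h5)
  refine ⟨a, h1, h2, h3, κ, τ, h4, s, h5, h6, g1, ?_⟩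
  rw [← g2]
  refine hp.mono' fun S _ hSne hu x y hR => ?_
  obtain ⟨u, hu⟩ := hu
  refine ⟨?_, fun S' hS' => ?_⟩
  · obtain ⟨Q, g, g', M, hAd, -, rfl, -⟩ := hR
    have hw : hasWin D (E.code g) = false := by
      refine not_hasWin A E (W := pairW g g') (fun w hw hsub => ?_) (selW_pair_left _ _)
      exact hAd.un _ (Or.inl ⟨w, hw, rfl⟩) (Enc.wset_sub.2 hsub)
    exact (hchk g M.leg hw).1
  · have hne : S'.Nonempty := by
      rw [← Finset.coe_nonempty, hS']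
      exact hSne
    refine rel_of_clo A E NA hc hkd hne (κ := κ) ?_ ?_
    · intro j hj j' hj' e1 e2
      have hj1 : τ j = u := hu j (by rw [← hS']; exact hj)
      have hj2 : τ j' = u := hu j' (by rw [← hS']; exact hj')
      refine hinj j j' e1 ?_
      rw [← (h4 j).2.2, ← (h4 j').2.2, hj1, hj2, hri j j' e1, e2]
    · rw [hS']; exact hR

/-- **No closed path.** -/
theorem Rings.no_path_table [Finite ι] [Finite Λ] [Fintype J] [DecidableEq J] {c : ι → ℂ}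
    {col : ι → Λ → Set (Fin 6)} {F : ι → Λ → Set ℂ} (h : Irr U T) (R : Rings T c col F)
    {D : Clo} {X : Clo.Text} (A : Clo.Agree D X) (E : Enc (ι × Fin 6) Λ D.n D.m)
    (hC0 : ∀ p l p' l', tconf E X p l p' l' → Conf c col p l p' l')
    {r : ℕ} {nwm : ℕ → ℕ → List ℕ} {nw : ℕ → ℕ → List (List Atom)} (NA : NAgree D.n D.m r nwm nw)
    {cls : ℕ → ℕ} {row : ℕ → ℕ → ℕ}
    (hc : Clo.Chk D (leaf nwm r cls fun l x y => Nat.testBit (row l x) y))
    {N : ℕ} {rho π0 : ℕ → ℕ} (hπ : ∀ i < D.n, E.ix ((E.ps i).1, (E.ps i).2 + 1) = π0 i)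
    (hrho : ∀ h, Clo.Leg D h → Clo.NoWin D h h → rotChk D cls rho N π0 (scode D.m h D.n) = true)
    {kd : J → ℕ} (hkd : ∀ j, kd j < r) {ri : J → ι} {q : J → ℂ}
    (hq : ∀ j, dist (q j) (c (ri j)) = 1) (hri : ∀ j j', kd j = kd j' → ri j = ri j')
    (hinj : ∀ j j', kd j = kd j' → q j = q j' → j = j')
    (hloc : ∀ j, ∀ k : Fin 6, ∀ w ∈ nw (kd j) k.val, ∃ l l', l ≠ l' ∧ l < D.m ∧ l' < D.m ∧
      (E.ix (ri j, k), l) ∈ w ∧ (E.ix (ri j, k), l') ∈ w)
    (hU : ∀ t, ∀ w ∈ X.W, ¬ ∀ x ∈ w, E.At (palS (posX c F) t) x)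
    (hM : ∀ t, ∀ K < r, ∀ k : Fin 6, ∀ w ∈ nw K k.val, (∀ x ∈ w, E.At (palS (posX c F) t) x) →
      ∃ j, kd j = K ∧ pos c (ri j, k) t = q j)
    {L : List J} (hL : L.Nodup) (hL' : ∀ j, j ∈ L) {g : ℕ}
    (hdead : ∀ x < N, dead row N (rho x) g (L.map kd) (2 ^ x) = true) : False := by
  obtain ⟨a, -, -, -, κ, τ, -, s, -, -, hN, hp⟩ := R.path_table h A E hC0 NA hc hπ hrho hkd hq hri hinj
    hloc hU hM (a0 := 0) (b0 := 1) one_pos
  refine dead_sound (kd := kd) (row := row) (N := N) ?_ hp.lpath g L _ hL (fun j => ?_)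
    (hdead _ hN) ?_
  · intro S _ x y hR
    exact ⟨hR.1, hR.2 S rfl⟩
  · exact ⟨fun _ => trivial, fun _ => hL' j⟩
  · rw [Nat.testBit_two_pow]
    exact decide_eq_true rfl

end Vale.Agent.P032.S5.H767
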