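import Vale.Agent.P032.R2.H609.Types

/-!
# P032: typed arcs

`TyP T z P e f E F`: the limits of exact `P`-arcs of `S(z)` are in one of the closed sets `E`, `F`, not in
both, and an end in `E` with the colour `f` has the colour `e`, an end in `F` with `e` has `f`.
`WT.exists_ty`: an end contact `y` with `T y = {a, b, e, f}` types the `cd`-arcs.
-/

set_option autoImplicit false

open Set Filter Topology Metric

noncomputable section

namespace Vale.Agent.P032.Six

open S5.H767 (Ex Lt Xs pt Ctr sub_of_closure dist_of_closure ctr_of_dpt dist_pt dist_pt_one pt_sum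
  pt_three pt_six Lt_dist Lt_col ex_self)

variable {U : Fin 6 → Set ℂ} {T : ℂ → Set (Fin 6)} {z y p q : ℂ} {a b c d e f : Fin 6}
  {P : Set (Fin 6)} {E F : Set ℂ}

/-- the limits of exact `P`-arcs of `S(z)` carry types -/
structure TyP (T : ℂ → Set (Fin 6)) (z : ℂ) (P : Set (Fin 6)) (e f : Fin 6) (E F : Set ℂ) :
    Prop where
  clE : IsClosed E
  clF : IsClosed F
  cov : closure (Ex T z P) ⊆ E ∪ F
  dis : ∀ q, dist q z = 1 → q ∈ E → q ∉ F
  endE : ∀ q ∈ closure (Ex T z P), q ∈ E → f ∈ T q → e ∈ T q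
  endF : ∀ q ∈ closure (Ex T z P), q ∈ F → e ∈ T q → f ∈ T q

theorem TyP.symm (h : TyP T z P e f E F) : TyP T z P f e F E where
  clE := h.clF
  clF := h.clE
  cov := by rw [union_comm]; exact h.cov
  dis := fun q hq h1 h2 => h.dis q hq h2 h1
  endE := h.endF
  endF := h.endE

theorem EndCt.ty (E : EndCt T z y a b c d e f) (H : WT U T) :
    TyP T z {c, d} e f (TyE T z y b f) (TyE T z y a e) where
  clE := TyE.closed H.irr
  clF := TyE.closed H.irr
  cov := E.cover H
  dis := fun _ hq h1 h2 => E.not_both H hq h1 h2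
  endE := fun _ hq h1 h2 => E.tpend_E H hq h1 h2
  endF := fun _ hq h1 h2 => E.tpend_F H hq h1 h2

/-- a contact with four colours `{a, b, e, f}` which is a limit of exact `ab`-arcs: the possible forms -/
theorem WT.end_cases (H : WT U T) (hmin : MinF U T) (hz : DPt T z a b c d)
    (nd : [a, b, c, d, e, f].Nodup) (hyz : dist y z = 1) (hTy : T y = {a, b, e, f})
    (hyE : y ∈ closure (Ex T z {a, b})) :
    (DPt T y a e b f ∨ DPt T y a f b e) ∨ Harm T y {a, e} ∨ Harm T y {a, f} ∨ Harm T y {b, e} ∨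
      Harm T y {b, f} := by
  obtain ⟨⟨ab, ac, ad, ae, af⟩, ⟨bc, bd, be, bf⟩, ⟨cd, ce, cf⟩, ⟨de, df⟩, ef⟩ := nodup_sep nd
  have hy4 : (T y).ncard = 4 := by
    rw [hTy]; exact card_four (by simp [ab, ae, af, be, bf, ef])
  rcases H.cases hmin hy4 with ⟨A, hA⟩ | ⟨w, x, r, s, hD⟩
  · right
    obtain ⟨i, j, hij, hAij⟩ := Set.ncard_eq_two.1 hA.cardA
    have hi : i ∈ T y := hA.sub (by rw [hAij]; simp)
    have hj : j ∈ T y := hA.sub (by rw [hAij]; simp)
    have key : ∀ i j : Fin 6, A = {i, j} → ¬ (({i, j} : Set (Fin 6)) = {a, b}) ∧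
        ¬ (({i, j} : Set (Fin 6)) = {e, f}) := by
      intro i j h1
      constructor
      · intro h2
        rw [h1, h2] at hA
        exact H.irr.harm_not_end hA subset_rfl hyE
      · intro h2
        rw [h1, h2] at hA
        exact H.no_harm hmin hz nd hyz hTy hA
    obtain ⟨k1, k2⟩ := key i j hAij
    rw [hAij] at hA
    rw [hTy] at hi hj
    simp only [mem_insert_iff, mem_singleton_iff] at hi hj
    have sw : ∀ m n : Fin 6, ({m, n} : Set (Fin 6)) = {n, m} := fun m n => Set.pair_comm m n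
    rcases hi with rfl | rfl | rfl | rfl <;> rcases hj with rfl | rfl | rfl | rfl <;>
      first
      | exact absurd rfl hij
      | exact absurd rfl k1
      | exact absurd rfl k2
      | exact absurd (sw _ _) k1
      | exact absurd (sw _ _) k2
      | exact Or.inl hA
      | exact Or.inr (Or.inl hA)
      | exact Or.inr (Or.inr (Or.inl hA))
      | exact Or.inr (Or.inr (Or.inr hA))
      | exact Or.inl (sw _ _ ▸ hA)
      | exact Or.inr (Or.inl (sw _ _ ▸ hA))
      | exact Or.inr (Or.inr (Or.inl (sw _ _ ▸ hA)))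
      | exact Or.inr (Or.inr (Or.inr (sw _ _ ▸ hA)))
  · left
    rcases hD.ways hTy (by simp [ab, ae, af, be, bf, ef]) with h2 | h2 | h2
    · exact (H.no_lock hz hyz h2).elim
    · exact Or.inl h2
    · exact Or.inr h2

/-- **an end contact types the arcs of the other pair** -/
theorem WT.exists_ty (H : WT U T) (hmin : MinF U T) (hz : DPt T z a b c d)
    (nd : [a, b, c, d, e, f].Nodup) (hyz : dist y z = 1) (hTy : T y = {a, b, e, f})
    (hyE : y ∈ closure (Ex T z {a, b})) : ∃ E F, TyP T z {c, d} e f E F := by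
  have p1 : T y = {b, a, e, f} := by
    rw [hTy]; ext i; simp only [mem_insert_iff, mem_singleton_iff]; tauto
  have p2 : T y = {a, b, f, e} := by
    rw [hTy]; ext i; simp only [mem_insert_iff, mem_singleton_iff]; tauto
  have p3 : T y = {b, a, f, e} := by
    rw [hTy]; ext i; simp only [mem_insert_iff, mem_singleton_iff]; tauto
  have nd1 := nodup_swap12 nd
  have nd2 := nodup_swap56 nd
  have nd3 := nodup_swap56 (nodup_swap12 nd)
  rcases H.end_cases hmin hz nd hyz hTy hyE with (h1 | h1) | h1 | h1 | h1 | h1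
  · exact ⟨_, _, EndCt.ty ⟨hz, nd, hyz, hTy, Or.inl h1⟩ H⟩
  · exact ⟨_, _, (EndCt.ty ⟨hz, nd2, hyz, p2, Or.inl h1⟩ H).symm⟩
  · exact ⟨_, _, EndCt.ty ⟨hz, nd, hyz, hTy, Or.inr h1⟩ H⟩
  · exact ⟨_, _, (EndCt.ty ⟨hz, nd2, hyz, p2, Or.inr h1⟩ H).symm⟩
  · exact ⟨_, _, EndCt.ty ⟨hz.swap12, nd1, hyz, p1, Or.inr h1⟩ H⟩
  · exact ⟨_, _, (EndCt.ty ⟨hz.swap12, nd3, hyz, p3, Or.inr h1⟩ H).symm⟩

end Vale.Agent.P032.Six
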